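import Mathlib
import Vale.Agent.P371.MDefs
import Vale.Agent.P371.GDefs

/-!
# P371, all `γ ∈ (1/2, 3/2)`: fixed `K`, dilation of the potential to `n` channels (helper15)

Everything real: `n` channels (`Fin n`), potentials of size `q` (`Fin q`). See `BLUEPRINT.md`.
-/

namespace LTH

open Matrix Set Filter MeasureTheory
open scoped ComplexOrder Topology ComplexConjugate

/-- complexification of a real matrix -/
noncomputable def toC {α β : Type*} (A : Matrix α β ℝ) : Matrix α β ℂ := A.map (fun x => (x : ℂ))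

/-- The parameter space: the `i`-th channel has `i + 1` real coordinates. -/
abbrev Cal (n : ℕ) : Type := (i : Fin n) → Fin (i.val + 1) → ℝ

/-- entrywise clamp to `[-L, L]` -/
noncomputable def clampM {n : ℕ} (L : ℝ) (M : Matrix (Fin n) (Fin n) ℝ) : Matrix (Fin n) (Fin n) ℝ :=
  Matrix.of fun i j => max (-L) (min L (M i j))

/-- right-hand side `1 - κ M - M κ + Z X Z`, `κ = diag k` -/
noncomputable def rhs {n : ℕ} (k : Fin n → ℝ) (Z X M : Matrix (Fin n) (Fin n) ℝ) :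
    Matrix (Fin n) (Fin n) ℝ :=
  1 - Matrix.diagonal k * M - M * Matrix.diagonal k + Z * X * Z

/-- the stationary point `(2κ)⁻¹` of the free flow -/
noncomputable def M0 {n : ℕ} (k : Fin n → ℝ) : Matrix (Fin n) (Fin n) ℝ :=
  Matrix.diagonal fun i => 1 / (2 * k i)

/-- `e^{-κ t}` -/
noncomputable def Ek {n : ℕ} (k : Fin n → ℝ) (t : ℝ) : Matrix (Fin n) (Fin n) ℝ :=
  Matrix.diagonal fun i => Real.exp (-(k i * t))

/-- real `H¹(ℝ; ℝ^q)` functions with weak derivative `g` -/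
structure IsH1R {q : ℕ} (u g : ℝ → Fin q → ℝ) : Prop where
  memLp : ∀ c, MemLp (fun x => u x c) 2 volume
  memLp' : ∀ c, MemLp (fun x => g x c) 2 volume
  ftc : ∀ c x y, u y c - u x c = ∫ t in x..y, g t c

/-! ### TOPO (helper25) -/

def S_TOPO : Prop := ∀ (n : ℕ) (P : Cal n → Matrix (Fin n) (Fin n) ℝ),
  Continuous P → (∀ w, (P w).IsSymm) →
  (∀ (s : Fin n → ℝ), (∀ i, s i = 1 ∨ s i = -1) → ∀ w i j,
    P (fun i l => s i * w i l) i j = s i * s j * P w i j) →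
  (∀ w i, 0 ≤ P w i i) → (∀ w i, w i = 0 → P w i i = 0) →
  (∃ R : ℝ, ∀ w, R ≤ ‖w‖ → (n : ℝ) < (P w).trace) →
  ∃ w, P w = 1

/-! ### FLOW: the clamped Riccati flow -/

def S_FLOW : Prop := ∀ (n : ℕ) (k : Fin n → ℝ) (a L : ℝ) (X : Cal n → ℝ → Matrix (Fin n) (Fin n) ℝ),
  (∀ i, 0 < k i) → 0 < a → 0 < L →
  (∀ i j, Continuous fun p : Cal n × ℝ => X p.1 p.2 i j) → (∀ w x, (X w x).PosSemidef) →
  ∃ M : Cal n → ℝ → Matrix (Fin n) (Fin n) ℝ,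
    (∀ w, M w (-a) = M0 k) ∧
    (∀ w, ∀ x ∈ Icc (-a) a, ∀ i j, HasDerivWithinAt (fun y => M w y i j)
      (rhs k (clampM L (M w x)) (X w x) (M w x) i j) (Icc (-a) a) x) ∧
    (∀ w, ∀ x ∈ Icc (-a) a, (M w x).IsSymm) ∧
    (∀ i j, Continuous fun w => M w a i j) ∧
    -- equivariance
    (∀ s : Fin n → ℝ, (∀ i, s i = 1 ∨ s i = -1) → ∀ w w',
      (∀ x i j, X w' x i j = s i * s j * X w x i j) →
      ∀ x ∈ Icc (-a) a, ∀ i j, M w' x i j = s i * s j * M w x i j) ∧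
    -- decoupled channel
    (∀ w i, (∀ x j, X w x i j = 0) → ∀ x ∈ Icc (-a) a, M w x i i = 1 / (2 * k i)) ∧
    -- Duhamel comparison
    (∀ w, ∀ x ∈ Icc (-a) a, ∀ y ∈ Icc x a,
      (M w y - M0 k - Ek k (y - x) * (M w x - M0 k) * Ek k (y - x)).PosSemidef)

/-! ### FORM: positivity of the quadratic form when the unclamped flow exists -/

def S_FORM : Prop := ∀ (n : ℕ) (k : Fin n → ℝ) (a : ℝ) (X M : ℝ → Matrix (Fin n) (Fin n) ℝ),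
  (∀ i, 0 < k i) → 0 < a → (∀ i j, Continuous fun x => X x i j) → (∀ x, (X x).PosSemidef) →
  M (-a) = M0 k →
  (∀ x ∈ Icc (-a) a, ∀ i j, HasDerivWithinAt (fun y => M y i j)
      (rhs k (M x) (X x) (M x) i j) (Icc (-a) a) x) →
  (∀ x ∈ Icc (-a) a, (M x - M0 k).PosSemidef) →
  ∀ u g : ℝ → Fin n → ℝ, IsH1R u g →
    ∫ x in (-a)..a, (u x) ⬝ᵥ ((X x).mulVec (u x))
      ≤ ∑ i, ((∫ x, (g x i) ^ 2) + (k i) ^ 2 * ∫ x, (u x i) ^ 2)

/-! ### XDEF: the dilated potential `X = w R W R wᵀ`, `R = (wᵀ w + ε)^{-1/2}` -/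

def S_XDEF : Prop := ∀ (n q : ℕ) (ε : ℝ), 0 < ε →
  ∃ X : Matrix (Fin q) (Fin q) ℝ → Matrix (Fin n) (Fin q) ℝ → Matrix (Fin n) (Fin n) ℝ,
    (∀ i j, Continuous fun p : Matrix (Fin q) (Fin q) ℝ × Matrix (Fin n) (Fin q) ℝ => X p.1 p.2 i j) ∧
    (∀ W w, W.PosSemidef → (X W w).PosSemidef) ∧
    (∀ s : Fin n → ℝ, (∀ i, s i = 1 ∨ s i = -1) → ∀ W w i j,
      X W (Matrix.of fun i c => s i * w i c) i j = s i * s j * X W w i j) ∧
    (∀ W w i, (∀ c, w i c = 0) → ∀ j, X W w i j = 0) ∧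
    (∀ W w, W.PosSemidef → (W * wᵀ * w).trace - ε * W.trace ≤ (wᵀ * X W w * w).trace) ∧
    (∀ (p : ℝ) W w, 1 ≤ p → W.PosSemidef → LTG.tp p (toC (X W w)) ≤ LTG.tp p (toC W))

/-! ### VERIF (helper28): the verification at fixed `K` -/

def S_VERIF : Prop := ∀ (s : ℝ) (n : ℕ) (k : Fin n → ℝ) (a η : ℝ)
    (X M : ℝ → Matrix (Fin n) (Fin n) ℝ), 0 < s → s < 1 → Nonempty (LTG.Fun s (Fin n)) →
  (∀ i, 0 < k i) → 0 < a → 0 < η →
  (∀ i j, Continuous fun x => X x i j) → (∀ x, (X x).PosSemidef) →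
  M (-a) = M0 k → M a = Matrix.diagonal (fun _ => 1 / η) →
  (∀ x ∈ Icc (-a) a, ∀ i j, HasDerivWithinAt (fun y => M y i j)
      (rhs k (M x) (X x) (M x) i j) (Icc (-a) a) x) →
  (∀ x ∈ Icc (-a) a, (M x - M0 k).PosSemidef) →
  LTG.Bs s * (∑ i, k i ^ (2 * s + 1)) - η * ∑ i, k i ^ (2 * s)
    ≤ (s ^ s / (1 + s) ^ (1 + s)) * ∫ x in (-a)..a, LTG.tp (1 + s) (toC (X x))

/-! ### DIL: the real theorem for nice potentials (assembly) -/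

def S_DIL : Prop := ∀ (s : ℝ) (n q : ℕ) (k : Fin n → ℝ) (a : ℝ)
    (W : ℝ → Matrix (Fin q) (Fin q) ℝ) (u g : Fin n → ℝ → Fin q → ℝ),
  0 < s → s < 1 → Nonempty (LTG.Fun s (Fin n)) →
  (∀ i, 0 < k i) → 0 < a →
  (∀ c d, Continuous fun x => W x c d) → (∀ x, (W x).PosSemidef) →
  (∀ x, x ∉ Icc (-a) a → W x = 0) → (∀ i, IsH1R (u i) (g i)) →
  (∀ (i : Fin n) (c : Fin n → ℝ), (∀ j, i < j → c j = 0) → c ≠ 0 →
    (∑ b, ∫ x, (∑ j, c j * g j x b) ^ 2) - (∫ x, (fun b => ∑ j, c j * u j x b) ⬝ᵥ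
        ((W x).mulVec (fun b => ∑ j, c j * u j x b)))
      < -(k i) ^ 2 * ∑ b, ∫ x, (∑ j, c j * u j x b) ^ 2) →
  LTG.Bs s * (∑ i, k i ^ (2 * s + 1))
    ≤ (s ^ s / (1 + s) ^ (1 + s)) * ∫ x, LTG.tp (1 + s) (toC (W x))

/-! ### NICE: approximation of the potential -/

def S_NICE : Prop := ∀ (s : ℝ) (n q : ℕ) (V : ℝ → Matrix (Fin q) (Fin q) ℝ)
    (u g : Fin n → ℝ → Fin q → ℝ) (δ : ℝ), 0 < s → 0 < δ →
  (∀ c d, Measurable fun x => V x c d) → (∀ x, (V x).PosSemidef) →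
  Integrable (fun x => LTG.tp (1 + s) (toC (V x))) → (∀ i, IsH1R (u i) (g i)) →
  ∃ (a : ℝ) (W : ℝ → Matrix (Fin q) (Fin q) ℝ), 0 < a ∧
    (∀ c d, Continuous fun x => W x c d) ∧ (∀ x, (W x).PosSemidef) ∧
    (∀ x, x ∉ Icc (-a) a → W x = 0) ∧
    (∫ x, LTG.tp (1 + s) (toC (W x))) ≤ (∫ x, LTG.tp (1 + s) (toC (V x))) ∧
    (∀ i j, |(∫ x, (u i x) ⬝ᵥ ((W x).mulVec (u j x))) - ∫ x, (u i x) ⬝ᵥ ((V x).mulVec (u j x))| ≤ δ)

/-! ### REAL: realification of complex bound states (`n` complex ones give `2n` real ones) -/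

def S_REAL : Prop := ∀ (s : ℝ) (n m : ℕ) (W : ℝ → Matrix (Fin m) (Fin m) ℂ) (lam : Fin n → ℝ)
    (u g : Fin n → ℝ → Fin m → ℂ), 0 < s → LTM.IsPotential (s + 1 / 2) W →
  (∀ j, LTM.IsBoundState W (lam j) (u j) (g j)) → LTM.IsOrthonormal u →
  ∃ (V : ℝ → Matrix (Fin (m + m)) (Fin (m + m)) ℝ) (U G : Fin n × Fin 2 → ℝ → Fin (m + m) → ℝ),
    (∀ c d, Measurable fun x => V x c d) ∧ (∀ x, (V x).PosSemidef) ∧
    (∀ x, LTG.tp (1 + s) (toC (V x)) = 2 * LTM.trPow (1 + s) (W x)) ∧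
    Integrable (fun x => LTG.tp (1 + s) (toC (V x))) ∧
    (∀ p, IsH1R (U p) (G p)) ∧
    (∀ p r, (∑ b, ∫ x, U p x b * U r x b) = if p = r then 1 else 0) ∧
    (∀ p r, (∑ b, ∫ x, G p x b * G r x b) - (∫ x, (U p x) ⬝ᵥ ((V x).mulVec (U r x)))
      = if p = r then lam p.1 else 0)

/-! ### MAIN: the upper bound, from DIL, NICE, REAL, FUN (sorting of the `lam j`, `k_i ↑ √|lam|`) -/

def S_MAIN : Prop := ∀ (s : ℝ) (n m : ℕ) (W : ℝ → Matrix (Fin m) (Fin m) ℂ) (lam : Fin n → ℝ)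
    (u g : Fin n → ℝ → Fin m → ℂ), 0 < s → s < 1 → LTM.IsPotential (s + 1 / 2) W →
  (∀ j, lam j < 0) → (∀ j, LTM.IsBoundState W (lam j) (u j) (g j)) → LTM.IsOrthonormal u →
  LTG.Bs s * ∑ j, |lam j| ^ (s + 1 / 2)
    ≤ (s ^ s / (1 + s) ^ (1 + s)) * ∫ x, LTM.trPow (1 + s) (W x)

/-! ### FUN (helper28) -/

def S_FUN : Prop := ∀ (s : ℝ) (n : ℕ), 0 < s → s < 1 → Nonempty (LTG.Fun s (Fin n))

end LTH
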