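import Mathlib
import Vale.Agent.P371H.Defs
import Vale.Agent.P371.Prim
import Vale.Agent.P371.GPow

/-! # P371H, module DIL, part A: the matrix functions `Om`, columns, quadratic forms -/

namespace LTH

open Matrix Set Filter MeasureTheory
open scoped ComplexOrder Topology ComplexConjugate

namespace DIL

variable {n q : ℕ}

/-- extension by zero of a vector with `i + 1` coordinates -/
noncomputable def ext (i : Fin n) (v : Fin (i.val + 1) → ℝ) : Fin n → ℝ :=
  fun j => if h : j.val < i.val + 1 then v ⟨j.val, h⟩ else 0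

lemma ext_zero (i : Fin n) : ext i (0 : Fin (i.val + 1) → ℝ) = 0 := by
  funext j; unfold ext; split_ifs <;> simp

lemma ext_smul (i : Fin n) (s : ℝ) (v : Fin (i.val + 1) → ℝ) (j : Fin n) :
    ext i (fun l => s * v l) j = s * ext i v j := by
  unfold ext; split_ifs <;> simp

lemma ext_gt (i : Fin n) (v : Fin (i.val + 1) → ℝ) (j : Fin n) (h : i < j) : ext i v j = 0 := by
  unfold ext
  have : ¬ j.val < i.val + 1 := by
    have : i.val < j.val := h
    omega
  simp [this]

lemma ext_ne_zero (i : Fin n) (v : Fin (i.val + 1) → ℝ) (h : v ≠ 0) : ext i v ≠ 0 := by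
  intro h0
  apply h
  funext l
  have hl : l.val < n := lt_of_lt_of_le l.isLt i.isLt
  have := congrFun h0 ⟨l.val, hl⟩
  unfold ext at this
  have hl2 : l.val < i.val + 1 := l.isLt
  simp only [hl2, dif_pos] at this
  simpa using this

lemma continuous_ext (i : Fin n) (j : Fin n) : Continuous fun w : Cal n => ext i (w i) j := by
  unfold ext
  split_ifs with h
  · exact (continuous_apply _).comp (continuous_apply i)
  · exact continuous_const

/-- the `n × q` matrix `w(x)` -/
noncomputable def Om (u : Fin n → ℝ → Fin q → ℝ) (w : Cal n) (x : ℝ) : Matrix (Fin n) (Fin q) ℝ :=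
  Matrix.of fun i c => ∑ j, ext i (w i) j * u j x c

lemma Om_apply (u : Fin n → ℝ → Fin q → ℝ) (w : Cal n) (x : ℝ) (i : Fin n) (c : Fin q) :
    Om u w x i c = ∑ j, ext i (w i) j * u j x c := rfl

lemma Om_smul (u : Fin n → ℝ → Fin q → ℝ) (w : Cal n) (s : Fin n → ℝ) (x : ℝ) :
    Om u (fun i l => s i * w i l) x = Matrix.of fun i c => s i * Om u w x i c := by
  ext i c
  simp only [Om_apply, Matrix.of_apply, ext_smul, Finset.mul_sum, mul_assoc]

lemma Om_row_zero (u : Fin n → ℝ → Fin q → ℝ) (w : Cal n) (i : Fin n) (h : w i = 0) (x : ℝ)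
    (c : Fin q) : Om u w x i c = 0 := by
  simp [Om_apply, h, ext_zero]

lemma prim_of_H1 {u g : ℝ → Fin q → ℝ} (h : IsH1R u g) (c : Fin q) :
    Vale.P371.Prim (fun x => u x c) (fun x => g x c) := by
  intro a b
  refine ⟨?_, h.ftc c a b⟩
  have := ((h.memLp' c).locallyIntegrable (by norm_num : (1 : ENNReal) ≤ 2))
  rw [intervalIntegrable_iff']
  exact (this.integrableOn_isCompact isCompact_uIcc)

lemma H1_continuous {u g : ℝ → Fin q → ℝ} (h : IsH1R u g) (c : Fin q) :
    Continuous fun x => u x c := (prim_of_H1 h c).continuous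

lemma continuous_Om {u g : Fin n → ℝ → Fin q → ℝ} (h : ∀ i, IsH1R (u i) (g i)) :
    Continuous fun p : Cal n × ℝ => Om u p.1 p.2 := by
  refine continuous_matrix fun i c => ?_
  simp only [Om_apply]
  refine continuous_finsetSum _ fun j _ => ?_
  exact ((continuous_ext i j).comp continuous_fst).mul ((H1_continuous (h j) c).comp continuous_snd)

/-- column `c` of `Om` is an `H¹` function with values in `ℝ^n` -/
lemma H1_col {u g : Fin n → ℝ → Fin q → ℝ} (h : ∀ i, IsH1R (u i) (g i)) (w : Cal n) (c : Fin q) :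
    IsH1R (fun x i => Om u w x i c) (fun x i => Om g w x i c) := by
  refine ⟨fun i => ?_, fun i => ?_, fun i x y => ?_⟩
  · simp only [Om_apply]
    exact memLp_finsetSum _ fun j _ => ((h j).memLp c).const_mul _
  · simp only [Om_apply]
    exact memLp_finsetSum _ fun j _ => ((h j).memLp' c).const_mul _
  · simp only [Om_apply]
    rw [intervalIntegral.integral_finsetSum]
    · rw [← Finset.sum_sub_distrib]
      refine Finset.sum_congr rfl fun j _ => ?_
      rw [intervalIntegral.integral_const_mul, ← (h j).ftc c x y]; ring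
    · intro j _
      exact ((prim_of_H1 (h j) c).intervalIntegrable x y).const_mul _

/-! quadratic forms -/

/-- a continuous `2`-homogeneous function on `Cal n`, negative away from `0`, is `≤ -δ ‖w‖²` -/
lemma neg_form {E : Type*} [NormedAddCommGroup E] [NormedSpace ℝ E] [FiniteDimensional ℝ E]
    (Φ : E → ℝ) (hc : Continuous Φ) (hh : ∀ (t : ℝ) w, Φ (t • w) = t ^ 2 * Φ w)
    (hn : ∀ w, w ≠ 0 → Φ w < 0) : ∃ δ > 0, ∀ w, Φ w ≤ -δ * ‖w‖ ^ 2 := by
  by_cases hne : (Metric.sphere (0 : E) 1).Nonempty
  · have hcomp : IsCompact (Metric.sphere (0 : E) 1) := by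
      have : ProperSpace E := FiniteDimensional.proper_real E
      exact isCompact_sphere _ _
    obtain ⟨w0, hw0, hmax⟩ := hcomp.exists_isMaxOn hne hc.continuousOn
    have hw0' : w0 ≠ 0 := by
      rintro rfl
      simp at hw0
    refine ⟨-Φ w0, by linarith [hn w0 hw0'], fun w => ?_⟩
    by_cases hw : w = 0
    · subst hw
      have := hh 0 0
      simp at this
      simp [this]
    · have hnw : 0 < ‖w‖ := norm_pos_iff.mpr hw
      have h1 : Φ (‖w‖⁻¹ • w) ≤ Φ w0 := hmax (by simp [norm_smul, hnw.ne'])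
      have h2 : Φ w = ‖w‖ ^ 2 * Φ (‖w‖⁻¹ • w) := by
        rw [hh]
        field_simp
      rw [h2]
      nlinarith [pow_pos hnw 2]
  · refine ⟨1, one_pos, fun w => ?_⟩
    have hw : w = 0 := by
      by_contra hw
      apply hne
      exact ⟨‖w‖⁻¹ • w, by simp [norm_smul, (norm_pos_iff.mpr hw).ne']⟩
    subst hw
    have := hh 0 0
    simp at this
    simp [this]

/-- entries of a real PSD matrix -/
lemma psd_entry {A : Matrix (Fin n) (Fin n) ℝ} (hA : A.PosSemidef) (i j : Fin n) :
    |A i j| ≤ (A i i + A j j) / 2 := by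
  have hsym : A j i = A i j := by
    have := hA.isHermitian.apply i j
    simpa using this
  have key : ∀ t : ℝ, 0 ≤ A i i + t * A i j + t * A j i + t ^ 2 * A j j := by
    intro t
    have h := hA.dotProduct_mulVec_nonneg (Pi.single i 1 + Pi.single j t)
    have e : star (Pi.single i (1 : ℝ) + Pi.single j t) ⬝ᵥ
        (A.mulVec (Pi.single i 1 + Pi.single j t))
        = A i i + t * A i j + t * A j i + t ^ 2 * A j j := by
      simp [Matrix.mulVec_add, add_dotProduct, dotProduct_add]
      ring
    rw [e] at h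
    exact h
  have h1 := key 1
  have h2 := key (-1)
  rw [hsym] at h1 h2
  rw [abs_le]
  constructor <;> linarith

lemma psd_diag_nonneg {A : Matrix (Fin n) (Fin n) ℝ} (hA : A.PosSemidef) (i : Fin n) :
    0 ≤ A i i := by
  have := psd_entry hA i i
  have h2 := abs_nonneg (A i i)
  linarith

end DIL

end LTH
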