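import Mathlib
import Vale.Agent.P371H.DilA

/-! # P371H, module DIL, part B: the quadratic form on `Cal n` -/

namespace LTH

open Matrix Set Filter MeasureTheory
open scoped ComplexOrder Topology ComplexConjugate

namespace DIL

variable {n q : ℕ}

lemma int_mul_L2 {f h : ℝ → ℝ} (hf : MemLp f 2 volume) (hh : MemLp h 2 volume) :
    Integrable fun x => f x * h x := hf.integrable_mul hh

lemma int_sq_sum (f : Fin n → ℝ → ℝ) (hf : ∀ j, MemLp (f j) 2 volume) (c : Fin n → ℝ) :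
    ∫ x, (∑ j, c j * f j x) ^ 2 = ∑ j, ∑ l, c j * c l * ∫ x, f j x * f l x := by
  have e : ∀ x, (∑ j, c j * f j x) ^ 2 = ∑ j, ∑ l, c j * c l * (f j x * f l x) := by
    intro x
    rw [sq, Finset.sum_mul_sum]
    refine Finset.sum_congr rfl fun j _ => Finset.sum_congr rfl fun l _ => ?_
    ring
  simp only [e]
  rw [integral_finsetSum]
  · refine Finset.sum_congr rfl fun j _ => ?_
    rw [integral_finsetSum]
    · refine Finset.sum_congr rfl fun l _ => ?_
      rw [integral_const_mul]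
    · intro l _
      exact (int_mul_L2 (hf j) (hf l)).const_mul _
  · intro j _
    refine integrable_finsetSum _ fun l _ => ?_
    exact (int_mul_L2 (hf j) (hf l)).const_mul _

lemma dot_expand (W : Matrix (Fin q) (Fin q) ℝ) (c : Fin n → ℝ) (v : Fin n → Fin q → ℝ) :
    (fun b => ∑ j, c j * v j b) ⬝ᵥ (W.mulVec (fun b => ∑ j, c j * v j b))
      = ∑ j, ∑ l, c j * c l * ((v j) ⬝ᵥ (W.mulVec (v l))) := by
  have e : (fun b => ∑ j, c j * v j b) = ∑ j, c j • v j := by
    funext b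
    simp [Finset.sum_apply]
  rw [e, Matrix.mulVec_sum, sum_dotProduct]
  refine Finset.sum_congr rfl fun j _ => ?_
  rw [dotProduct_sum]
  refine Finset.sum_congr rfl fun l _ => ?_
  rw [Matrix.mulVec_smul, smul_dotProduct, dotProduct_smul]
  simp only [smul_eq_mul]
  ring

lemma int_W_sum (W : ℝ → Matrix (Fin q) (Fin q) ℝ) (u : Fin n → ℝ → Fin q → ℝ)
    (hi : ∀ j l, Integrable fun x => (u j x) ⬝ᵥ ((W x).mulVec (u l x))) (c : Fin n → ℝ) :
    ∫ x, (fun b => ∑ j, c j * u j x b) ⬝ᵥ ((W x).mulVec (fun b => ∑ j, c j * u j x b))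
      = ∑ j, ∑ l, c j * c l * ∫ x, (u j x) ⬝ᵥ ((W x).mulVec (u l x)) := by
  have e : ∀ x, (fun b => ∑ j, c j * u j x b) ⬝ᵥ ((W x).mulVec (fun b => ∑ j, c j * u j x b))
      = ∑ j, ∑ l, c j * c l * ((u j x) ⬝ᵥ ((W x).mulVec (u l x))) := fun x =>
    dot_expand (W x) c fun j => u j x
  simp only [e]
  rw [integral_finsetSum]
  · refine Finset.sum_congr rfl fun j _ => ?_
    rw [integral_finsetSum]
    · refine Finset.sum_congr rfl fun l _ => ?_
      rw [integral_const_mul]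
    · intro l _
      exact (hi j l).const_mul _
  · intro j _
    refine integrable_finsetSum _ fun l _ => ?_
    exact (hi j l).const_mul _

lemma integrable_W {a : ℝ} {W : ℝ → Matrix (Fin q) (Fin q) ℝ} {u g : Fin n → ℝ → Fin q → ℝ}
    (hW : ∀ c d, Continuous fun x => W x c d) (hs : ∀ x, x ∉ Icc (-a) a → W x = 0)
    (h : ∀ i, IsH1R (u i) (g i)) (j l : Fin n) :
    Integrable fun x => (u j x) ⬝ᵥ ((W x).mulVec (u l x)) := by
  refine Continuous.integrable_of_hasCompactSupport ?_ ?_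
  · simp only [dotProduct, Matrix.mulVec]
    refine continuous_finsetSum _ fun c _ => ?_
    refine (H1_continuous (h j) c).mul ?_
    refine continuous_finsetSum _ fun d _ => ?_
    exact (hW c d).mul (H1_continuous (h l) d)
  · refine HasCompactSupport.intro (isCompact_Icc (a := -a) (b := a)) fun x hx => ?_
    rw [hs x hx]
    simp

/-- the form of channel `i` -/
noncomputable def PhiI (W : ℝ → Matrix (Fin q) (Fin q) ℝ) (u g : Fin n → ℝ → Fin q → ℝ)
    (k : ℝ) (c : Fin n → ℝ) : ℝ :=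
  (∑ b, ∫ x, (∑ j, c j * g j x b) ^ 2)
    - (∫ x, (fun b => ∑ j, c j * u j x b) ⬝ᵥ ((W x).mulVec (fun b => ∑ j, c j * u j x b)))
    + k ^ 2 * ∑ b, ∫ x, (∑ j, c j * u j x b) ^ 2

lemma PhiI_eq {a : ℝ} {W : ℝ → Matrix (Fin q) (Fin q) ℝ} {u g : Fin n → ℝ → Fin q → ℝ}
    (hW : ∀ c d, Continuous fun x => W x c d) (hs : ∀ x, x ∉ Icc (-a) a → W x = 0)
    (h : ∀ i, IsH1R (u i) (g i)) (k : ℝ) :
    ∃ B : Fin n → Fin n → ℝ, ∀ c, PhiI W u g k c = ∑ j, ∑ l, c j * c l * B j l := by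
  refine ⟨fun j l => (∑ b, ∫ x, g j x b * g l x b) - (∫ x, (u j x) ⬝ᵥ ((W x).mulVec (u l x)))
    + k ^ 2 * ∑ b, ∫ x, u j x b * u l x b, fun c => ?_⟩
  unfold PhiI
  rw [int_W_sum W u (fun j l => integrable_W hW hs h j l) c]
  have e1 : ∀ b, ∫ x, (∑ j, c j * g j x b) ^ 2 = ∑ j, ∑ l, c j * c l * ∫ x, g j x b * g l x b :=
    fun b => int_sq_sum (fun j x => g j x b) (fun j => (h j).memLp' b) c
  have e2 : ∀ b, ∫ x, (∑ j, c j * u j x b) ^ 2 = ∑ j, ∑ l, c j * c l * ∫ x, u j x b * u l x b :=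
    fun b => int_sq_sum (fun j x => u j x b) (fun j => (h j).memLp b) c
  simp only [e1, e2]
  have s1 : ∀ F : Fin n → Fin n → Fin q → ℝ, (∑ b, ∑ j, ∑ l, c j * c l * F j l b)
      = ∑ j, ∑ l, c j * c l * ∑ b, F j l b := by
    intro F
    rw [Finset.sum_comm]
    refine Finset.sum_congr rfl fun j _ => ?_
    rw [Finset.sum_comm]
    refine Finset.sum_congr rfl fun l _ => ?_
    rw [Finset.mul_sum]
  rw [s1 (fun j l b => ∫ x, g j x b * g l x b), s1 (fun j l b => ∫ x, u j x b * u l x b),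
    Finset.mul_sum, ← Finset.sum_sub_distrib, ← Finset.sum_add_distrib]
  refine Finset.sum_congr rfl fun j _ => ?_
  rw [Finset.mul_sum, ← Finset.sum_sub_distrib, ← Finset.sum_add_distrib]
  refine Finset.sum_congr rfl fun l _ => ?_
  ring

/-- the total form is `≤ -δ ‖w‖²` -/
lemma form_le {a : ℝ} {W : ℝ → Matrix (Fin q) (Fin q) ℝ} {u g : Fin n → ℝ → Fin q → ℝ}
    {k : Fin n → ℝ}
    (hW : ∀ c d, Continuous fun x => W x c d) (hs : ∀ x, x ∉ Icc (-a) a → W x = 0)
    (h : ∀ i, IsH1R (u i) (g i))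
    (hneg : ∀ (i : Fin n) (c : Fin n → ℝ), (∀ j, i < j → c j = 0) → c ≠ 0 →
      (∑ b, ∫ x, (∑ j, c j * g j x b) ^ 2) - (∫ x, (fun b => ∑ j, c j * u j x b) ⬝ᵥ
        ((W x).mulVec (fun b => ∑ j, c j * u j x b)))
      < -(k i) ^ 2 * ∑ b, ∫ x, (∑ j, c j * u j x b) ^ 2) :
    ∃ δ > 0, ∀ w : Cal n, ∑ i, PhiI W u g (k i) (ext i (w i)) ≤ -δ * ‖w‖ ^ 2 := by
  refine neg_form (fun w : Cal n => ∑ i, PhiI W u g (k i) (ext i (w i))) ?_ ?_ ?_
  · refine continuous_finsetSum _ fun i _ => ?_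
    obtain ⟨B, hB⟩ := PhiI_eq hW hs h (k i)
    simp only [hB]
    refine continuous_finsetSum _ fun j _ => continuous_finsetSum _ fun l _ => ?_
    exact ((continuous_ext i j).mul (continuous_ext i l)).mul continuous_const
  · intro t w
    rw [Finset.mul_sum]
    refine Finset.sum_congr rfl fun i _ => ?_
    obtain ⟨B, hB⟩ := PhiI_eq hW hs h (k i)
    rw [hB, hB, Finset.mul_sum]
    refine Finset.sum_congr rfl fun j _ => ?_
    rw [Finset.mul_sum]
    refine Finset.sum_congr rfl fun l _ => ?_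
    have e : ∀ j, ext i ((t • w) i) j = t * ext i (w i) j := fun j => ext_smul i t (w i) j
    rw [e, e]; ring
  · intro w hw
    have hle : ∀ i, PhiI W u g (k i) (ext i (w i)) ≤ 0 := by
      intro i
      by_cases h0 : w i = 0
      · obtain ⟨B, hB⟩ := PhiI_eq hW hs h (k i)
        rw [hB, h0, ext_zero]
        simp
      · have := hneg i (ext i (w i)) (fun j hj => ext_gt i _ j hj) (ext_ne_zero i _ h0)
        unfold PhiI
        linarith
    obtain ⟨i, hi⟩ : ∃ i, w i ≠ 0 := by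
      by_contra hcon
      push Not at hcon
      exact hw (funext hcon)
    have hlt : PhiI W u g (k i) (ext i (w i)) < 0 := by
      have := hneg i (ext i (w i)) (fun j hj => ext_gt i _ j hj) (ext_ne_zero i _ hi)
      unfold PhiI
      linarith
    calc ∑ i, PhiI W u g (k i) (ext i (w i)) < ∑ _i : Fin n, (0 : ℝ) :=
          Finset.sum_lt_sum (fun i _ => hle i) ⟨i, Finset.mem_univ i, hlt⟩
      _ = 0 := by simp

end DIL

end LTH
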