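import Mathlib
import Vale.Agent.P371H.DilB

/-! # P371H, module DIL, part C: assembly -/

namespace LTH

open Matrix Set Filter MeasureTheory
open scoped ComplexOrder Topology ComplexConjugate

namespace DIL

variable {n q : ℕ}

lemma toC_apply {α β : Type*} (A : Matrix α β ℝ) (i : α) (j : β) : toC A i j = (A i j : ℂ) := rfl

lemma toC_mul {α β γ : Type*} [Fintype β] (A : Matrix α β ℝ) (B : Matrix β γ ℝ) :
    toC (A * B) = toC A * toC B := by
  ext i j
  simp [toC_apply, Matrix.mul_apply]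

lemma toC_transpose {α β : Type*} (A : Matrix α β ℝ) : toC Aᵀ = (toC A)ᴴ := by
  ext i j
  simp [toC_apply]

lemma toC_psd {A : Matrix (Fin n) (Fin n) ℝ} (hA : A.PosSemidef) : (toC A).PosSemidef := by
  obtain ⟨m, v, hv⟩ := Matrix.posSemidef_iff_eq_sum_vecMulVec.mp hA
  refine Matrix.posSemidef_iff_eq_sum_vecMulVec.mpr ⟨m, fun i a => (v i a : ℂ), ?_⟩
  ext i j
  rw [toC_apply, hv]
  simp [Matrix.sum_apply, Matrix.vecMulVec_apply]

lemma toC_continuous {A : ℝ → Matrix (Fin n) (Fin n) ℝ} (hA : ∀ i j, Continuous fun x => A x i j) :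
    Continuous fun x => toC (A x) := by
  refine continuous_matrix fun i j => ?_
  exact Complex.continuous_ofReal.comp (hA i j)

lemma tp_nonneg {A : Matrix (Fin n) (Fin n) ℂ} (hA : A.PosSemidef) (p : ℝ) : 0 ≤ LTG.tp p A := by
  rw [LTG.PowAux.tp_eq hA.isHermitian]
  exact Finset.sum_nonneg fun i _ => Real.rpow_nonneg (hA.eigenvalues_nonneg i) _

lemma tp_zero {p : ℝ} (hp : 0 < p) : LTG.tp p (toC (0 : Matrix (Fin n) (Fin n) ℝ)) = 0 := by
  have h0 : (toC (0 : Matrix (Fin n) (Fin n) ℝ)) = 0 := by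
    ext i j; simp [toC_apply]
  have hH : (toC (0 : Matrix (Fin n) (Fin n) ℝ)).IsHermitian := by rw [h0]; exact isHermitian_zero
  rw [LTG.PowAux.tp_cfc hH]
  have : cfc (fun x : ℝ => x ^ p) (toC (0 : Matrix (Fin n) (Fin n) ℝ)) = 0 := by
    rw [h0]
    rw [cfc_apply_zero]
    simp [Real.zero_rpow hp.ne']
  rw [this]
  simp

lemma Ek_conj (k : Fin n → ℝ) (t : ℝ) (A : Matrix (Fin n) (Fin n) ℝ) (i j : Fin n) :
    (Ek k t * A * Ek k t) i j = Real.exp (-(k i * t)) * A i j * Real.exp (-(k j * t)) := by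
  unfold Ek
  rw [Matrix.mul_diagonal, Matrix.diagonal_mul]

lemma clampM_eq {L : ℝ} {M : Matrix (Fin n) (Fin n) ℝ} (h : ∀ i j, |M i j| ≤ L) :
    clampM L M = M := by
  ext i j
  have := abs_le.mp (h i j)
  unfold clampM
  simp only [Matrix.of_apply]
  rw [min_eq_right this.2, max_eq_right this.1]

/-- the key comparison: control of the end value controls the whole path -/
lemma entry_bound {k : Fin n → ℝ} {a η : ℝ} (hk : ∀ i, 0 < k i) (_ha : 0 < a) (hη : 0 < η)
    (hηk : ∀ i, η < 2 * k i) {M : ℝ → Matrix (Fin n) (Fin n) ℝ}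
    (hpsd : ∀ x ∈ Icc (-a) a, (M x - M0 k).PosSemidef)
    (hD : ∀ x ∈ Icc (-a) a,
      (M a - M0 k - Ek k (a - x) * (M x - M0 k) * Ek k (a - x)).PosSemidef)
    (hend : ∀ l, (M a - M0 k) l l ≤ (n + 1) * (1 / η - 1 / (2 * k l))) :
    ∀ x ∈ Icc (-a) a, ∀ i j,
      |M x i j| ≤ 1 + ∑ l, (1 / (2 * k l) + (n + 1) * Real.exp (4 * k l * a) / η) := by
  intro x hx i j
  have hd : ∀ l, (M x - M0 k) l l ≤ (n + 1) * Real.exp (4 * k l * a) / η := by
    intro l
    have h1 := psd_diag_nonneg (hD x hx) l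
    rw [Matrix.sub_apply, Ek_conj] at h1
    have h2 := hend l
    have h3 := psd_diag_nonneg (hpsd x hx) l
    have e1 : Real.exp (-(k l * (a - x))) * (M x - M0 k) l l * Real.exp (-(k l * (a - x)))
        = Real.exp (-(2 * k l * (a - x))) * (M x - M0 k) l l := by
      rw [mul_comm, ← mul_assoc, ← Real.exp_add]
      congr 2; ring
    rw [e1] at h1
    have hkl := hk l
    have h4 : (M x - M0 k) l l ≤ Real.exp (2 * k l * (a - x)) * ((n + 1) * (1 / η - 1 / (2 * k l))) := by
      have h5 : Real.exp (-(2 * k l * (a - x))) * (M x - M0 k) l l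
          ≤ (n + 1) * (1 / η - 1 / (2 * k l)) := by linarith
      have h6 : Real.exp (2 * k l * (a - x)) * Real.exp (-(2 * k l * (a - x))) = 1 := by
        rw [← Real.exp_add]; simp
      calc (M x - M0 k) l l = Real.exp (2 * k l * (a - x)) *
            (Real.exp (-(2 * k l * (a - x))) * (M x - M0 k) l l) := by
              rw [← mul_assoc, h6, one_mul]
        _ ≤ _ := mul_le_mul_of_nonneg_left h5 (Real.exp_pos _).le
    refine h4.trans ?_
    have h7 : Real.exp (2 * k l * (a - x)) ≤ Real.exp (4 * k l * a) := by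
      apply Real.exp_le_exp.mpr
      nlinarith [hx.1]
    have h8 : (0 : ℝ) ≤ 1 / η - 1 / (2 * k l) := by
      have := one_div_le_one_div_of_le hη (hηk l).le
      linarith
    have h9 : 1 / η - 1 / (2 * k l) ≤ 1 / η := by
      have : 0 < 1 / (2 * k l) := by positivity
      linarith
    calc Real.exp (2 * k l * (a - x)) * ((n + 1) * (1 / η - 1 / (2 * k l)))
        ≤ Real.exp (4 * k l * a) * ((n + 1) * (1 / η)) := by
          refine mul_le_mul h7 ?_ (by positivity) (Real.exp_pos _).le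
          exact mul_le_mul_of_nonneg_left h9 (by positivity)
      _ = (n + 1) * Real.exp (4 * k l * a) / η := by ring
  have hnn : ∀ l, 0 ≤ 1 / (2 * k l) + (n + 1) * Real.exp (4 * k l * a) / η := by
    intro l
    have := hk l
    positivity
  have hs : ∀ l, 1 / (2 * k l) + (n + 1) * Real.exp (4 * k l * a) / η
      ≤ ∑ l, (1 / (2 * k l) + (n + 1) * Real.exp (4 * k l * a) / η) := fun l =>
    Finset.single_le_sum (f := fun l => 1 / (2 * k l) + (n + 1) * Real.exp (4 * k l * a) / η)
      (fun l _ => hnn l) (Finset.mem_univ l)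
  have he := psd_entry (hpsd x hx) i j
  have hM0 : |M0 k i j| ≤ 1 / (2 * k i) := by
    unfold M0
    have := hk i
    by_cases hij : i = j
    · subst hij
      rw [Matrix.diagonal_apply_eq, abs_of_pos (by positivity)]
    · rw [Matrix.diagonal_apply_ne _ hij, abs_zero]; positivity
  have h10 : |M x i j| ≤ |(M x - M0 k) i j| + |M0 k i j| := by
    have : M x i j = (M x - M0 k) i j + M0 k i j := by rw [Matrix.sub_apply]; ring
    rw [this]
    exact abs_add_le _ _
  have h11 := hd i
  have h12 := hd j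
  have h13 := hs i
  have h14 := hs j
  have h15 : 0 < 1 / (2 * k i) := by have := hk i; positivity
  have h16 : 0 < 1 / (2 * k j) := by have := hk j; positivity
  -- (d_i + d_j)/2 + 1/(2k_i) ≤ 1 + S
  have h17 : (1 / (2 * k i) + (n + 1) * Real.exp (4 * k i * a) / η)
      + (1 / (2 * k j) + (n + 1) * Real.exp (4 * k j * a) / η)
      ≤ 2 * ∑ l, (1 / (2 * k l) + (n + 1) * Real.exp (4 * k l * a) / η) := by linarith
  by_cases hij : i = j
  · subst hij
    have : (M x - M0 k) i i ≤ (n + 1) * Real.exp (4 * k i * a) / η := h11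
    linarith
  · have hM00 : |M0 k i j| = 0 := by
      unfold M0
      rw [Matrix.diagonal_apply_ne _ hij, abs_zero]
    linarith

end DIL

end LTH
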