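import Mathlib
import Vale.Agent.P371H.DilC

/-! # P371H, module DIL, part D: coercivity and the theorem -/

namespace LTH

open Matrix Set Filter MeasureTheory
open scoped ComplexOrder Topology ComplexConjugate

namespace DIL

variable {n q : ℕ}

lemma trace_rows (W : Matrix (Fin q) (Fin q) ℝ) (A : Matrix (Fin n) (Fin q) ℝ) :
    (W * Aᵀ * A).trace = ∑ i, (A i) ⬝ᵥ (W.mulVec (A i)) := by
  rw [Matrix.trace_mul_comm]
  simp only [Matrix.trace, Matrix.diag_apply, Matrix.mul_apply, dotProduct, Matrix.mulVec,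
    Matrix.transpose_apply]

lemma trace_cols (X : Matrix (Fin n) (Fin n) ℝ) (A : Matrix (Fin n) (Fin q) ℝ) :
    (Aᵀ * X * A).trace = ∑ c, (fun i => A i c) ⬝ᵥ (X.mulVec fun i => A i c) := by
  rw [Matrix.mul_assoc]
  simp only [Matrix.trace, Matrix.diag_apply, Matrix.mul_apply, dotProduct, Matrix.mulVec,
    Matrix.transpose_apply]

lemma integral_line {a : ℝ} (ha : 0 < a) {f : ℝ → ℝ} (hf : ∀ x, x ∉ Icc (-a) a → f x = 0) :
    ∫ x in (-a)..a, f x = ∫ x, f x := by
  rw [intervalIntegral.integral_of_le (by linarith), ← integral_Icc_eq_integral_Ioc,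
    setIntegral_eq_integral_of_forall_compl_eq_zero]
  exact hf

/-- if the flow is not clamped, the total form is bounded below -/
lemma form_ge (hQ : S_FORM) {k : Fin n → ℝ} {a : ℝ} {W : ℝ → Matrix (Fin q) (Fin q) ℝ}
    {u g : Fin n → ℝ → Fin q → ℝ} {X M : ℝ → Matrix (Fin n) (Fin n) ℝ} (w : Cal n)
    (hk : ∀ i, 0 < k i) (ha : 0 < a)
    (hWc : ∀ c d, Continuous fun x => W x c d)
    (hWs : ∀ x, x ∉ Icc (-a) a → W x = 0) (hH : ∀ i, IsH1R (u i) (g i))
    (hXc : ∀ i j, Continuous fun x => X x i j) (hXp : ∀ x, (X x).PosSemidef)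
    (hXt : ∀ x, (W x * (Om u w x)ᵀ * Om u w x).trace - 1 * (W x).trace
      ≤ ((Om u w x)ᵀ * X x * Om u w x).trace)
    (hM0 : M (-a) = M0 k)
    (hMd : ∀ x ∈ Icc (-a) a, ∀ i j, HasDerivWithinAt (fun y => M y i j)
      (rhs k (M x) (X x) (M x) i j) (Icc (-a) a) x)
    (hpsd : ∀ x ∈ Icc (-a) a, (M x - M0 k).PosSemidef) :
    0 ≤ (∫ x in (-a)..a, (W x).trace) + ∑ i, PhiI W u g (k i) (ext i (w i)) := by
  have hcol : ∀ c : Fin q, ∫ x in (-a)..a, (fun i => Om u w x i c) ⬝ᵥ
      ((X x).mulVec fun i => Om u w x i c)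
      ≤ ∑ i, ((∫ x, (Om g w x i c) ^ 2) + (k i) ^ 2 * ∫ x, (Om u w x i c) ^ 2) := by
    intro c
    exact hQ n k a X M hk ha hXc hXp hM0 hMd hpsd (fun x i => Om u w x i c)
      (fun x i => Om g w x i c) (H1_col hH w c)
  have hOc : ∀ i c, Continuous fun x => Om u w x i c := by
    intro i c
    simp only [Om_apply]
    exact continuous_finsetSum _ fun j _ => continuous_const.mul (H1_continuous (hH j) c)
  have hcc : ∀ c : Fin q, Continuous fun x => (fun i => Om u w x i c) ⬝ᵥ
      ((X x).mulVec fun i => Om u w x i c) := by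
    intro c
    simp only [dotProduct, Matrix.mulVec]
    refine continuous_finsetSum _ fun i _ => (hOc i c).mul ?_
    exact continuous_finsetSum _ fun j _ => (hXc i j).mul (hOc j c)
  have hrc : ∀ i : Fin n, Continuous fun x => (Om u w x i) ⬝ᵥ ((W x).mulVec (Om u w x i)) := by
    intro i
    simp only [dotProduct, Matrix.mulVec]
    refine continuous_finsetSum _ fun c _ => (hOc i c).mul ?_
    exact continuous_finsetSum _ fun d _ => (hWc c d).mul (hOc i d)
  have htr : Continuous fun x => (W x).trace := by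
    simp only [Matrix.trace, Matrix.diag_apply]
    exact continuous_finsetSum _ fun c _ => hWc c c
  have h1 : ∫ x in (-a)..a, ((Om u w x)ᵀ * X x * Om u w x).trace
      = ∑ c, ∫ x in (-a)..a, (fun i => Om u w x i c) ⬝ᵥ
      ((X x).mulVec fun i => Om u w x i c) := by
    rw [← intervalIntegral.integral_finsetSum fun c _ => (hcc c).intervalIntegrable _ _]
    exact intervalIntegral.integral_congr fun x _ => trace_cols _ _
  have h2 : ∫ x in (-a)..a, ((W x * (Om u w x)ᵀ * Om u w x).trace - 1 * (W x).trace)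
      ≤ ∫ x in (-a)..a, ((Om u w x)ᵀ * X x * Om u w x).trace := by
    refine intervalIntegral.integral_mono_on (by linarith) ?_ ?_ fun x _ => hXt x
    · refine Continuous.intervalIntegrable ?_ _ _
      simp only [trace_rows]
      exact (continuous_finsetSum _ fun i _ => hrc i).sub (continuous_const.mul htr)
    · refine Continuous.intervalIntegrable ?_ _ _
      simp only [trace_cols]
      exact continuous_finsetSum _ fun c _ => hcc c
  have h3 : ∫ x in (-a)..a, ((W x * (Om u w x)ᵀ * Om u w x).trace - 1 * (W x).trace)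
      = (∑ i, ∫ x, (Om u w x i) ⬝ᵥ ((W x).mulVec (Om u w x i)))
        - ∫ x in (-a)..a, (W x).trace := by
    simp only [trace_rows, one_mul]
    rw [intervalIntegral.integral_sub
      ((continuous_finsetSum _ fun i _ => hrc i).intervalIntegrable _ _)
      (htr.intervalIntegrable _ _),
      intervalIntegral.integral_finsetSum fun i _ => (hrc i).intervalIntegrable _ _]
    congr 1
    refine Finset.sum_congr rfl fun i _ => ?_
    refine integral_line ha fun x hx => ?_
    rw [hWs x hx]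
    simp
  have h4 : ∑ c, ∫ x in (-a)..a, (fun i => Om u w x i c) ⬝ᵥ
      ((X x).mulVec fun i => Om u w x i c)
      ≤ ∑ c, ∑ i, ((∫ x, (Om g w x i c) ^ 2) + (k i) ^ 2 * ∫ x, (Om u w x i c) ^ 2) :=
    Finset.sum_le_sum fun c _ => hcol c
  have h5 : ∑ i, PhiI W u g (k i) (ext i (w i))
      = (∑ c, ∑ i, ((∫ x, (Om g w x i c) ^ 2) + (k i) ^ 2 * ∫ x, (Om u w x i c) ^ 2))
        - ∑ i, ∫ x, (Om u w x i) ⬝ᵥ ((W x).mulVec (Om u w x i)) := by
    rw [Finset.sum_comm, ← Finset.sum_sub_distrib]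
    refine Finset.sum_congr rfl fun i _ => ?_
    unfold PhiI
    rw [Finset.sum_add_distrib, Finset.mul_sum]
    simp only [Om_apply]
    have e : ∀ x, Om u w x i = fun b => ∑ j, ext i (w i) j * u j x b := fun x => rfl
    simp only [e]
    ring
  rw [h5]
  linarith

theorem dil_eta (hT : S_TOPO) (hF : S_FLOW) (hQ : S_FORM) (hX : S_XDEF) (hV : S_VERIF)
    (s : ℝ) (k : Fin n → ℝ) (a : ℝ)
    (W : ℝ → Matrix (Fin q) (Fin q) ℝ) (u g : Fin n → ℝ → Fin q → ℝ)
    (hs : 0 < s) (hs1 : s < 1) (hFun : Nonempty (LTG.Fun s (Fin n)))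
    (hk : ∀ i, 0 < k i) (ha : 0 < a)
    (hWc : ∀ c d, Continuous fun x => W x c d) (hWp : ∀ x, (W x).PosSemidef)
    (hWs : ∀ x, x ∉ Icc (-a) a → W x = 0) (hH : ∀ i, IsH1R (u i) (g i))
    (hneg : ∀ (i : Fin n) (c : Fin n → ℝ), (∀ j, i < j → c j = 0) → c ≠ 0 →
      (∑ b, ∫ x, (∑ j, c j * g j x b) ^ 2) - (∫ x, (fun b => ∑ j, c j * u j x b) ⬝ᵥ
        ((W x).mulVec (fun b => ∑ j, c j * u j x b)))
      < -(k i) ^ 2 * ∑ b, ∫ x, (∑ j, c j * u j x b) ^ 2)
    (η : ℝ) (hη : 0 < η) (hηk : ∀ i, η < 2 * k i) :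
    LTG.Bs s * (∑ i, k i ^ (2 * s + 1)) - η * ∑ i, k i ^ (2 * s)
      ≤ (s ^ s / (1 + s) ^ (1 + s)) * ∫ x, LTG.tp (1 + s) (toC (W x)) := by
  obtain ⟨Xf, hXc, hXp, hXe, hXz, hXt, hXtp⟩ := hX n q 1 one_pos
  obtain ⟨δ, hδ, hform⟩ := form_le hWc hWs hH hneg
  set XX : Cal n → ℝ → Matrix (Fin n) (Fin n) ℝ := fun w x => Xf (W x) (Om u w x) with hXX
  set L : ℝ := 1 + ∑ l, (1 / (2 * k l) + (n + 1) * Real.exp (4 * k l * a) / η) with hL
  have hnn : ∀ l, 0 ≤ 1 / (2 * k l) + (n + 1) * Real.exp (4 * k l * a) / η := by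
    intro l
    have := hk l
    positivity
  have hLpos : 0 < L := by
    have : 0 ≤ ∑ l, (1 / (2 * k l) + (n + 1) * Real.exp (4 * k l * a) / η) :=
      Finset.sum_nonneg fun l _ => hnn l
    linarith
  have hWcont : Continuous fun x => W x := continuous_matrix hWc
  have hXXc : ∀ i j, Continuous fun p : Cal n × ℝ => XX p.1 p.2 i j := by
    intro i j
    exact (hXc i j).comp ((hWcont.comp continuous_snd).prodMk (continuous_Om hH))
  have hXXp : ∀ w x, (XX w x).PosSemidef := fun w x => hXp _ _ (hWp x)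
  obtain ⟨M, hM0, hMd, hMs, hMc, hMe, hMz, hMD⟩ := hF n k a L XX hk ha hLpos hXXc hXXp
  have hmem : (-a) ∈ Icc (-a) a := ⟨le_rfl, by linarith⟩
  have hmem' : a ∈ Icc (-a) a := ⟨by linarith, le_rfl⟩
  have hpsd : ∀ w, ∀ x ∈ Icc (-a) a, (M w x - M0 k).PosSemidef := by
    intro w x hx
    have h := hMD w (-a) hmem x hx
    rw [hM0 w, sub_self, Matrix.mul_zero, Matrix.zero_mul, sub_zero] at h
    exact h
  have hDu : ∀ w, ∀ x ∈ Icc (-a) a,
      (M w a - M0 k - Ek k (a - x) * (M w x - M0 k) * Ek k (a - x)).PosSemidef :=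
    fun w x hx => hMD w x hx a ⟨hx.2, le_rfl⟩
  -- unclamped flow
  have hunc : ∀ w, (∀ l, (M w a - M0 k) l l ≤ (n + 1) * (1 / η - 1 / (2 * k l))) →
      ∀ x ∈ Icc (-a) a, ∀ i j, HasDerivWithinAt (fun y => M w y i j)
      (rhs k (M w x) (XX w x) (M w x) i j) (Icc (-a) a) x := by
    intro w hw x hx i j
    have hb := entry_bound hk ha hη hηk (hpsd w) (hDu w) hw x hx
    have h := hMd w x hx i j
    rw [clampM_eq hb] at h
    exact h
  have hdpos : ∀ i, 0 < 1 / η - 1 / (2 * k i) := by
    intro i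
    have := one_div_lt_one_div_of_lt hη (hηk i)
    linarith
  set r : Fin n → ℝ := fun i => (√(1 / η - 1 / (2 * k i)))⁻¹ with hr
  have hrpos : ∀ i, 0 < r i := fun i => inv_pos.mpr (Real.sqrt_pos.mpr (hdpos i))
  have hr2 : ∀ i, r i * r i * (1 / η - 1 / (2 * k i)) = 1 := by
    intro i
    have h := Real.mul_self_sqrt (hdpos i).le
    have h2 : √(1 / η - 1 / (2 * k i)) ≠ 0 := (Real.sqrt_pos.mpr (hdpos i)).ne'
    simp only [hr]
    rw [← mul_inv, h]
    exact inv_mul_cancel₀ (hdpos i).ne'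
  -- the map for the topological theorem
  set P : Cal n → Matrix (Fin n) (Fin n) ℝ := fun w =>
    Matrix.of fun i j => r i * r j * (M w a i j - M0 k i j) with hP
  have hPa : ∀ w i j, P w i j = r i * r j * (M w a i j - M0 k i j) := fun w i j => rfl
  have p1 : Continuous P := by
    refine continuous_matrix fun i j => ?_
    simp only [hPa]
    exact continuous_const.mul ((hMc i j).sub continuous_const)
  have p2 : ∀ w, (P w).IsSymm := by
    intro w
    ext i j
    rw [Matrix.transpose_apply, hPa, hPa]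
    have h1 : M w a j i = M w a i j := by
      have := (hMs w a hmem').apply i j
      exact this
    have h2 : M0 k j i = M0 k i j := by
      unfold M0
      by_cases hij : i = j
      · subst hij; rfl
      · rw [Matrix.diagonal_apply_ne _ hij, Matrix.diagonal_apply_ne _ (Ne.symm hij)]
    rw [h1, h2, mul_comm (r j)]
  have p3 : ∀ (s : Fin n → ℝ), (∀ i, s i = 1 ∨ s i = -1) → ∀ w i j,
    P (fun i l => s i * w i l) i j = s i * s j * P w i j := by
    intro t ht w i j
    simp only [hPa]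
    have h1 := hMe t ht w (fun i l => t i * w i l) (fun x i j => by
      simp only [hXX]
      rw [Om_smul]
      exact hXe t ht _ _ i j) a hmem' i j
    rw [h1]
    have h2 : M0 k i j = t i * t j * M0 k i j := by
      unfold M0
      by_cases hij : i = j
      · subst hij
        rcases ht i with h | h <;> simp [h]
      · rw [Matrix.diagonal_apply_ne _ hij]; ring
    nth_rewrite 1 [h2]
    ring
  have p4 : ∀ w i, 0 ≤ P w i i := by
    intro w i
    simp only [hPa]
    have h1 := psd_diag_nonneg (hpsd w a hmem') i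
    rw [Matrix.sub_apply] at h1
    exact mul_nonneg (mul_pos (hrpos i) (hrpos i)).le h1
  have p5 : ∀ w i, w i = 0 → P w i i = 0 := by
    intro w i hwi
    simp only [hPa]
    have h1 := hMz w i (fun x j => by
      simp only [hXX]
      exact hXz _ _ i (fun c => Om_row_zero u w i hwi x c) j) a hmem'
    have h0 : M0 k i i = 1 / (2 * k i) := by unfold M0; rw [Matrix.diagonal_apply_eq]
    rw [h1, h0, sub_self, mul_zero]
  have p6 : ∃ R : ℝ, ∀ w, R ≤ ‖w‖ → (n : ℝ) < (P w).trace := by
    have hT0 : 0 ≤ ∫ x in (-a)..a, (W x).trace := by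
      refine intervalIntegral.integral_nonneg (by linarith) fun x _ => ?_
      exact Finset.sum_nonneg fun c _ => psd_diag_nonneg (hWp x) c
    refine ⟨(∫ x in (-a)..a, (W x).trace) / δ + 1, fun w hw => ?_⟩
    by_contra hcon
    push Not at hcon
    have hterm : ∀ i, 0 ≤ r i * r i * (M w a i i - M0 k i i) := by
      intro i
      have h1 := psd_diag_nonneg (hpsd w a hmem') i
      rw [Matrix.sub_apply] at h1
      exact mul_nonneg (mul_pos (hrpos i) (hrpos i)).le h1
    have hend : ∀ l, (M w a - M0 k) l l ≤ (n + 1) * (1 / η - 1 / (2 * k l)) := by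
      intro l
      have h1 : r l * r l * (M w a l l - M0 k l l) ≤ n := by
        refine le_trans ?_ hcon
        have := Finset.single_le_sum (f := fun i => r i * r i * (M w a i i - M0 k i i))
          (fun i _ => hterm i) (Finset.mem_univ l)
        simpa [Matrix.trace, hPa] using this
      have h2 := hr2 l
      have h3 : 0 < r l * r l := mul_pos (hrpos l) (hrpos l)
      rw [Matrix.sub_apply]
      have h4 : r l * r l * (M w a l l - M0 k l l)
          ≤ r l * r l * ((n + 1) * (1 / η - 1 / (2 * k l))) := by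
        have : r l * r l * ((n + 1) * (1 / η - 1 / (2 * k l))) = n + 1 := by
          calc r l * r l * ((n + 1) * (1 / η - 1 / (2 * k l)))
              = (n + 1) * (r l * r l * (1 / η - 1 / (2 * k l))) := by ring
            _ = n + 1 := by rw [h2]; ring
        rw [this]; linarith
      exact le_of_mul_le_mul_left h4 h3
    have hge := form_ge hQ (W := W) (u := u) (g := g) (X := XX w) (M := M w) w hk ha hWc hWs hH
      (fun i j => (hXXc i j).comp (continuous_const.prodMk continuous_id)) (hXXp w)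
      (fun x => hXt (W x) (Om u w x) (hWp x)) (hM0 w) (hunc w hend) (hpsd w)
    have hle := hform w
    have h6 : δ * ‖w‖ ^ 2 ≤ ∫ x in (-a)..a, (W x).trace := by linarith
    have h7 : ‖w‖ ^ 2 ≤ (∫ x in (-a)..a, (W x).trace) / δ := by
      rw [le_div_iff₀ hδ]; linarith
    have h8 : 0 ≤ (∫ x in (-a)..a, (W x).trace) / δ := by positivity
    nlinarith


  obtain ⟨w, hw⟩ := hT n P p1 p2 p3 p4 p5 p6
  have hMa : M w a = Matrix.diagonal fun _ => 1 / η := by
    ext i j
    have h := congrFun (congrFun hw i) j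
    rw [hPa] at h
    by_cases hij : i = j
    · subst hij
      rw [Matrix.one_apply_eq] at h
      rw [Matrix.diagonal_apply_eq]
      have h0 : M0 k i i = 1 / (2 * k i) := by unfold M0; rw [Matrix.diagonal_apply_eq]
      rw [h0] at h
      have h1 := hr2 i
      have h2 : r i * r i ≠ 0 := (mul_pos (hrpos i) (hrpos i)).ne'
      have h3 : r i * r i * (M w a i i - 1 / (2 * k i)) = r i * r i * (1 / η - 1 / (2 * k i)) := by
        rw [h, h1]
      have h4 := mul_left_cancel₀ h2 h3
      linarith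
    · rw [Matrix.one_apply_ne hij] at h
      rw [Matrix.diagonal_apply_ne _ hij]
      have h0 : M0 k i j = 0 := by unfold M0; rw [Matrix.diagonal_apply_ne _ hij]
      rw [h0, sub_zero] at h
      have h2 : r i * r j ≠ 0 := (mul_pos (hrpos i) (hrpos j)).ne'
      exact (mul_eq_zero.mp h).resolve_left h2
  have hend : ∀ l, (M w a - M0 k) l l ≤ (n + 1) * (1 / η - 1 / (2 * k l)) := by
    intro l
    rw [hMa, Matrix.sub_apply, Matrix.diagonal_apply_eq]
    have h0 : M0 k l l = 1 / (2 * k l) := by unfold M0; rw [Matrix.diagonal_apply_eq]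
    rw [h0]
    have h1 := (hdpos l).le
    have h2 : (0 : ℝ) ≤ n := Nat.cast_nonneg n
    nlinarith
  have hfin := hV s n k a η (XX w) (M w) hs hs1 hFun hk ha hη
    (fun i j => (hXXc i j).comp (continuous_const.prodMk continuous_id)) (hXXp w) (hM0 w) hMa
    (hunc w hend) (hpsd w)
  refine hfin.trans ?_
  have hC : 0 ≤ s ^ s / (1 + s) ^ (1 + s) := by positivity
  refine mul_le_mul_of_nonneg_left ?_ hC
  have hs2 : 0 < 1 + s := by linarith
  have e1 : ∫ x, LTG.tp (1 + s) (toC (W x)) = ∫ x in (-a)..a, LTG.tp (1 + s) (toC (W x)) := by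
    refine (integral_line ha fun x hx => ?_).symm
    rw [hWs x hx, tp_zero hs2]
  rw [e1]
  refine intervalIntegral.integral_mono_on (by linarith) ?_ ?_ fun x _ =>
    hXtp (1 + s) (W x) (Om u w x) (by linarith) (hWp x)
  · exact (LTG.tpc n (1 + s) (fun x => toC (XX w x)) hs2
      (toC_continuous fun i j => (hXXc i j).comp (continuous_const.prodMk continuous_id))
      fun x => toC_psd (hXXp w x)).intervalIntegrable _ _
  · exact (LTG.tpc q (1 + s) (fun x => toC (W x)) hs2 (toC_continuous hWc)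
      fun x => toC_psd (hWp x)).intervalIntegrable _ _

/-- **DIL** -/
theorem dil (hT : S_TOPO) (hF : S_FLOW) (hQ : S_FORM) (hX : S_XDEF) (hV : S_VERIF) : S_DIL := by
  intro s n q k a W u g hs hs1 hFun hk ha hWc hWp hWs hH hneg
  set A := LTG.Bs s * (∑ i, k i ^ (2 * s + 1)) with hA
  set B := ∑ i, k i ^ (2 * s) with hB
  set C := (s ^ s / (1 + s) ^ (1 + s)) * ∫ x, LTG.tp (1 + s) (toC (W x)) with hC
  have key : ∀ η > 0, (∀ i, η < 2 * k i) → A - η * B ≤ C := fun η hη hηk =>
    dil_eta hT hF hQ hX hV s k a W u g hs hs1 hFun hk ha hWc hWp hWs hH hneg η hη hηk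
  have hlim : Tendsto (fun η : ℝ => A - η * B) (𝓝[>] 0) (𝓝 (A - 0 * B)) := by
    refine Tendsto.mono_left ?_ nhdsWithin_le_nhds
    exact (continuous_const.sub (continuous_id.mul continuous_const)).tendsto 0
  rw [zero_mul, sub_zero] at hlim
  refine le_of_tendsto hlim ?_
  have hev : ∀ i, ∀ᶠ η in 𝓝[>] (0 : ℝ), η < 2 * k i := by
    intro i
    have : (0 : ℝ) < 2 * k i := by have := hk i; linarith
    exact nhdsWithin_le_nhds (eventually_lt_nhds this)
  filter_upwards [eventually_all.mpr hev, self_mem_nhdsWithin] with η h1 h2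
  exact key η h2 h1

end DIL

end LTH
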