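import Mathlib
import Vale.Agent.P371H.Defs
import Vale.Agent.P371.GStat
import Vale.Agent.P371.GLtlow
import Vale.Agent.P371.GCst
import Vale.Agent.P371.MFinal

/-!
# P371, all `1/2 < γ < 3/2`: the final theorem from the upper bound `S_MAIN`
-/

namespace LTH

open Matrix Set Filter MeasureTheory LTM LTG
open scoped ComplexOrder Topology ComplexConjugate ENNReal

namespace FINAL

/-- The upper bound for the Lieb-Thirring constant, from `S_MAIN`. -/
theorem lt_le (hMAIN : S_MAIN) {s : ℝ} (hs : 0 < s) (hs1 : s < 1) (m : ℕ) :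
    LT (s + 1 / 2) m ≤ ENNReal.ofReal (Kc s) := by
  have hB := CST.Bs_pos hs
  unfold LTM.LT
  refine iSup_le fun W => iSup_le fun hW => ?_
  refine ENNReal.div_le_of_le_mul ?_
  unfold LTM.traceNeg
  refine iSup_le fun n => iSup_le fun lam => iSup_le fun u => iSup_le fun g =>
    iSup_le fun h => ?_
  have hK : 0 ≤ Kc s := by unfold Kc; positivity
  rw [← ENNReal.ofReal_mul hK]
  refine ENNReal.ofReal_le_ofReal ?_
  have h1 := hMAIN s n m W lam u g hs hs1 hW h.1 h.2.1 h.2.2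
  have e0 : s + 1 / 2 + 1 / 2 = 1 + s := by ring
  have e1 : 1 + s = s + 1 := by ring
  rw [e0, Kc]
  have h4 : s ^ s / ((s + 1) ^ (s + 1) * Bs s) * (∫ x, LTM.trPow (1 + s) (W x))
      = (s ^ s / (1 + s) ^ (1 + s) * ∫ x, LTM.trPow (1 + s) (W x)) / Bs s := by
    rw [e1]
    field_simp
  rw [h4, le_div_iff₀ hB, mul_comm]
  exact h1

end FINAL

/-- The sharp constants for all `1/2 < γ < 3/2`. -/
theorem final (hMAIN : S_MAIN) {γ : ℝ} (h1 : 1 / 2 < γ) (h2 : γ < 3 / 2) {m : ℕ} (hm : 1 ≤ m) :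
    LT γ m = LTone γ ∧
      LT γ m = ENNReal.ofReal (2 * ((γ - 1 / 2) / (γ + 1 / 2)) ^ (γ - 1 / 2) * Lcl γ) := by
  have hs : 0 < γ - 1 / 2 := by linarith
  have hs1 : γ - 1 / 2 < 1 := by linarith
  have e : γ - 1 / 2 + 1 / 2 = γ := by ring
  have hup := fun m => FINAL.lt_le hMAIN hs hs1 m
  obtain ⟨l1, l2⟩ := ltlow (γ - 1 / 2) hs hs1
  have hc := cst (γ - 1 / 2) hs hs1
  rw [e] at hup l1 l2 hc
  have e2 : γ - 1 / 2 + 1 = γ + 1 / 2 := by ring
  rw [e2] at hc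
  have a1 : LT γ m = ENNReal.ofReal (Kc (γ - 1 / 2)) := le_antisymm (hup m) (l2 m hm)
  have a2 : LTone γ = ENNReal.ofReal (Kc (γ - 1 / 2)) :=
    le_antisymm ((LTone_le_LT γ).trans (hup 1)) l1
  exact ⟨a1.trans a2.symm, by rw [a1, hc]⟩

end LTH
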