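import Mathlib

/-!
# P371: globally Lipschitz bounded ordinary differential equations with a parameter
-/

namespace Vale.P371H.Ode

open Set Filter
open scoped Topology NNReal

variable {E : Type*} [NormedAddCommGroup E] [NormedSpace ℝ E]

theorem exists_sol [CompleteSpace E] {f : ℝ → E → E} {a b : ℝ} (hab : a ≤ b) {K L : ℝ≥0}
    (hl : ∀ t, LipschitzWith K (f t)) (hc : ∀ x, Continuous fun t => f t x)
    (hL : ∀ t x, ‖f t x‖ ≤ L) (x0 : E) :
    ∃ α : ℝ → E, α a = x0 ∧ ∀ t ∈ Icc a b, HasDerivWithinAt α (f t (α t)) (Icc a b) t := by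
  have ha : a ∈ Icc a b := ⟨le_rfl, hab⟩
  have hpl : IsPicardLindelof f (⟨a, ha⟩ : Icc a b) x0 (L * (b - a).toNNReal) 0 L K := by
    refine ⟨fun t _ => (hl t).lipschitzOnWith, fun x _ => (hc x).continuousOn,
      fun t _ x _ => hL t x, ?_⟩
    have : max (b - a) (a - a) = b - a := by
      rw [sub_self]; exact max_eq_left (by linarith)
    simp only [this]
    push_cast
    rw [Real.coe_toNNReal _ (by linarith)]
    linarith
  obtain ⟨α, h1, h2⟩ := hpl.exists_eq_forall_mem_Icc_hasDerivWithinAt₀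
  exact ⟨α, h1, h2⟩

lemma ici_of_icc {α : ℝ → E} {α' : E} {a b t : ℝ} (ht : t ∈ Ico a b)
    (h : HasDerivWithinAt α α' (Icc a b) t) : HasDerivWithinAt α α' (Ici t) t := by
  have h1 : HasDerivWithinAt α α' (Icc t b) t := h.mono (Icc_subset_Icc_left ht.1)
  exact h1.mono_of_mem_nhdsWithin (Icc_mem_nhdsGE ht.2)

/-- Gronwall comparison with a perturbed field -/
theorem dist_le {f : ℝ → E → E} {a b : ℝ} {K : ℝ≥0} {ε : ℝ}
    (hl : ∀ t, LipschitzWith K (f t)) {α β β' : ℝ → E} (h0 : α a = β a)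
    (hα : ∀ t ∈ Icc a b, HasDerivWithinAt α (f t (α t)) (Icc a b) t)
    (hβ : ∀ t ∈ Icc a b, HasDerivWithinAt β (β' t) (Icc a b) t)
    (hε : ∀ t ∈ Icc a b, ‖β' t - f t (β t)‖ ≤ ε) :
    ∀ t ∈ Icc a b, dist (α t) (β t) ≤ gronwallBound 0 K ε (t - a) := by
  have h := dist_le_of_approx_trajectories_ODE (v := f) (K := K) (εf := 0) (εg := ε) (δ := 0)
    (f := α) (g := β) (f' := fun t => f t (α t)) (g' := β') (a := a) (b := b) hl
    (fun t ht => (hα t ht).continuousWithinAt)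
    (fun t ht => ici_of_icc ht (hα t ⟨ht.1, ht.2.le⟩))
    (fun t _ => by rw [dist_self])
    (fun t ht => (hβ t ht).continuousWithinAt)
    (fun t ht => ici_of_icc ht (hβ t ⟨ht.1, ht.2.le⟩))
    (fun t ht => by rw [dist_eq_norm]; exact hε t ⟨ht.1, ht.2.le⟩)
    (by rw [h0, dist_self])
  intro t ht
  have := h t ht
  rwa [zero_add] at this

theorem unique {f : ℝ → E → E} {a b : ℝ} {K : ℝ≥0}
    (hl : ∀ t, LipschitzWith K (f t)) {α β : ℝ → E} (h0 : α a = β a)
    (hα : ∀ t ∈ Icc a b, HasDerivWithinAt α (f t (α t)) (Icc a b) t)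
    (hβ : ∀ t ∈ Icc a b, HasDerivWithinAt β (f t (β t)) (Icc a b) t) :
    ∀ t ∈ Icc a b, α t = β t := by
  intro t ht
  have h := dist_le (ε := 0) hl h0 hα hβ (fun t _ => by simp) t ht
  rw [gronwallBound_ε0_δ0] at h
  exact dist_le_zero.1 h

/-- joint continuity of the solutions in the parameter and in time -/
theorem continuousOn_param {W : Type*} [TopologicalSpace W] {f : W → ℝ → E → E} {a b : ℝ}
    {K : ℝ≥0} (hab : a ≤ b) (hl : ∀ w t, LipschitzWith K (f w t))
    (hc : Continuous fun p : W × ℝ × E => f p.1 p.2.1 p.2.2)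
    {α : W → ℝ → E} {x0 : E} (h0 : ∀ w, α w a = x0)
    (hα : ∀ w, ∀ t ∈ Icc a b, HasDerivWithinAt (α w) (f w t (α w t)) (Icc a b) t) :
    ContinuousOn (fun p : W × ℝ => α p.1 p.2) (univ ×ˢ Icc a b) := by
  rintro ⟨w0, t0⟩ ⟨-, ht0⟩
  rw [ContinuousWithinAt, tendsto_iff_dist_tendsto_zero]
  set A : ℝ → E := fun t => α w0 (projIcc a b hab t) with hA
  have hcont0 : ContinuousOn (α w0) (Icc a b) := fun t ht => (hα w0 t ht).continuousWithinAt
  have hAc : Continuous A := by
    have : Continuous fun t : Icc a b => α w0 t := continuousOn_iff_continuous_restrict.1 hcont0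
    exact this.comp continuous_projIcc
  have hAe : ∀ t ∈ Icc a b, A t = α w0 t := by
    intro t ht
    simp only [hA]
    rw [projIcc_of_mem hab ht]
  rw [Metric.tendsto_nhds]
  intro ε hε
  -- choose the size of the perturbation
  have hg : Tendsto (fun e : ℝ => gronwallBound 0 K e (b - a)) (𝓝 0) (𝓝 0) := by
    have h1 := (gronwallBound_continuous_ε 0 K (b - a)).tendsto 0
    rwa [gronwallBound_ε0_δ0] at h1
  obtain ⟨e, he0, he⟩ : ∃ e : ℝ, 0 < e ∧ gronwallBound 0 K e (b - a) < ε / 2 := by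
    have h1 := (Metric.tendsto_nhds.1 hg (ε / 2) (by positivity))
    obtain ⟨δ, hδ, h2⟩ := Metric.eventually_nhds_iff.1 h1
    refine ⟨δ / 2, by positivity, ?_⟩
    have h3 := h2 (y := δ / 2) (by
      rw [Real.dist_eq, sub_zero, abs_of_pos (by positivity)]; linarith)
    rw [Real.dist_eq, sub_zero] at h3
    exact lt_of_le_of_lt (le_abs_self _) h3
  have hev : ∀ᶠ w in 𝓝 w0, ∀ t ∈ Icc a b, ‖f w t (A t) - f w0 t (A t)‖ < e := by
    refine isCompact_Icc.eventually_forall_of_forall_eventually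
      (P := fun w t => ‖f w t (A t) - f w0 t (A t)‖ < e) ?_
    intro t _
    have hcc : Continuous fun z : W × ℝ => ‖f z.1 z.2 (A z.2) - f w0 z.2 (A z.2)‖ := by
      have h1 : Continuous fun z : W × ℝ => f z.1 z.2 (A z.2) :=
        hc.comp (continuous_fst.prodMk (continuous_snd.prodMk (hAc.comp continuous_snd)))
      have h2 : Continuous fun z : W × ℝ => f w0 z.2 (A z.2) :=
        hc.comp (continuous_const.prodMk (continuous_snd.prodMk (hAc.comp continuous_snd)))
      exact (h1.sub h2).norm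
    have h3 := hcc.tendsto (w0, t)
    simp only [sub_self, norm_zero] at h3
    exact h3.eventually_lt_const he0
  have h4 : ∀ᶠ p : W × ℝ in 𝓝[univ ×ˢ Icc a b] (w0, t0),
      dist (α p.1 p.2) (α w0 p.2) < ε / 2 := by
    have h5 : ∀ᶠ p : W × ℝ in 𝓝[univ ×ˢ Icc a b] (w0, t0),
        ∀ t ∈ Icc a b, ‖f p.1 t (A t) - f w0 t (A t)‖ < e := by
      have : Tendsto (Prod.fst : W × ℝ → W) (𝓝[univ ×ˢ Icc a b] (w0, t0)) (𝓝 w0) :=
        (continuous_fst.tendsto (w0, t0)).mono_left nhdsWithin_le_nhds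
      exact this.eventually hev
    filter_upwards [h5, self_mem_nhdsWithin] with p hp hp2
    have hpt : p.2 ∈ Icc a b := hp2.2
    have h6 := dist_le (f := f p.1) (ε := e) (hl p.1) (α := α p.1) (β := α w0)
      (β' := fun t => f w0 t (α w0 t)) (by rw [h0, h0]) (hα p.1) (hα w0)
      (fun t ht => by
        rw [← hAe t ht, ← norm_neg, neg_sub]
        exact (hp t ht).le) p.2 hpt
    refine lt_of_le_of_lt h6 (lt_of_le_of_lt ?_ he)
    exact gronwallBound_mono le_rfl he0.le K.2 (by linarith [hpt.2])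
  have h7 : ∀ᶠ p : W × ℝ in 𝓝[univ ×ˢ Icc a b] (w0, t0), dist (α w0 p.2) (α w0 t0) < ε / 2 := by
    have h8 : Tendsto (fun p : W × ℝ => α w0 p.2) (𝓝[univ ×ˢ Icc a b] (w0, t0))
        (𝓝 (α w0 t0)) := by
      have h9 : Tendsto (Prod.snd : W × ℝ → ℝ) (𝓝[univ ×ˢ Icc a b] (w0, t0))
          (𝓝[Icc a b] t0) := by
        refine tendsto_nhdsWithin_iff.2 ⟨?_, ?_⟩
        · exact (continuous_snd.tendsto (w0, t0)).mono_left nhdsWithin_le_nhds
        · filter_upwards [self_mem_nhdsWithin] with p hp using hp.2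
      exact (hcont0 t0 ht0).tendsto.comp h9
    exact (Metric.tendsto_nhds.1 h8) (ε / 2) (by positivity)
  filter_upwards [h4, h7] with p hp1 hp2
  rw [Real.dist_eq, sub_zero, abs_of_nonneg dist_nonneg]
  have := dist_triangle (α p.1 p.2) (α w0 p.2) (α w0 t0)
  linarith

end Vale.P371H.Ode
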