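import Mathlib

/-!
Global solutions of ordinary differential equations with globally Lipschitz right-hand side, and
their dependence on the right-hand side.
-/

namespace Vale.Agent.P371H.OdeGen

open Set

variable {E : Type*} [NormedAddCommGroup E] [NormedSpace ℝ E]

/-- Global existence for a bounded field. -/
theorem exists_flow_bounded [CompleteSpace E] (f : ℝ → E → E) {a b : ℝ} (hab : a ≤ b)
    {K : NNReal} {B : ℝ} (hL : ∀ t ∈ Icc a b, LipschitzWith K (f t))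
    (hc : ∀ x, ContinuousOn (fun t => f t x) (Icc a b))
    (hB : ∀ t ∈ Icc a b, ∀ x, ‖f t x‖ ≤ B) (x0 : E) :
    ∃ y : ℝ → E, y a = x0 ∧ ∀ t ∈ Icc a b, HasDerivWithinAt y (f t (y t)) (Icc a b) t := by
  have hB0 : 0 ≤ B := (norm_nonneg _).trans (hB a ⟨le_rfl, hab⟩ 0)
  have h : IsPicardLindelof f (tmin := a) (tmax := b) ⟨a, le_rfl, hab⟩ x0
      (Real.toNNReal (B * (b - a))) 0 (Real.toNNReal B) K := by
    refine ⟨fun t ht => (hL t ht).lipschitzOnWith, fun x _ => hc x, fun t ht x _ => ?_, ?_⟩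
    · rw [Real.coe_toNNReal _ hB0]
      exact hB t ht x
    · have h1 : 0 ≤ b - a := by linarith
      rw [Real.coe_toNNReal _ hB0, Real.coe_toNNReal _ (mul_nonneg hB0 h1)]
      simp [h1]
  obtain ⟨y, hy, hy'⟩ := h.exists_eq_forall_mem_Icc_hasDerivWithinAt₀
  exact ⟨y, hy, hy'⟩

/-- Radial retraction onto the ball of radius `R`. -/
noncomputable def retr (R : ℝ) (x : E) : E := (R / max R ‖x‖) • x

theorem retr_of_le {R : ℝ} (hR : 0 < R) {x : E} (hx : ‖x‖ ≤ R) : retr R x = x := by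
  unfold retr
  rw [max_eq_left hx, div_self hR.ne', one_smul]

theorem norm_retr_le {R : ℝ} (hR : 0 < R) (x : E) : ‖retr R x‖ ≤ R := by
  unfold retr
  have hm : 0 < max R ‖x‖ := lt_max_of_lt_left hR
  rw [norm_smul, Real.norm_of_nonneg (by positivity), div_mul_eq_mul_div, div_le_iff₀ hm]
  exact mul_le_mul_of_nonneg_left (le_max_right _ _) hR.le

theorem norm_retr_le_norm {R : ℝ} (hR : 0 < R) (x : E) : ‖retr R x‖ ≤ ‖x‖ := by
  unfold retr
  have hm : 0 < max R ‖x‖ := lt_max_of_lt_left hR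
  rw [norm_smul, Real.norm_of_nonneg (by positivity)]
  have : R / max R ‖x‖ ≤ 1 := (div_le_one hm).2 (le_max_left _ _)
  calc R / max R ‖x‖ * ‖x‖ ≤ 1 * ‖x‖ := mul_le_mul_of_nonneg_right this (norm_nonneg _)
    _ = ‖x‖ := one_mul _

theorem retr_lipschitz {R : ℝ} (hR : 0 < R) : LipschitzWith 2 (retr R : E → E) := by
  refine LipschitzWith.of_dist_le_mul fun x y => ?_
  rw [dist_eq_norm, dist_eq_norm]
  unfold retr
  have hx : 0 < max R ‖x‖ := lt_max_of_lt_left hR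
  have hy : 0 < max R ‖y‖ := lt_max_of_lt_left hR
  have e : (R / max R ‖x‖) • x - (R / max R ‖y‖) • y
      = (R / max R ‖x‖) • (x - y) + (R / max R ‖x‖ - R / max R ‖y‖) • y := by
    rw [smul_sub, sub_smul]; abel
  rw [e]
  have h1 : ‖(R / max R ‖x‖) • (x - y)‖ ≤ ‖x - y‖ := by
    rw [norm_smul, Real.norm_of_nonneg (by positivity)]
    have : R / max R ‖x‖ ≤ 1 := (div_le_one hx).2 (le_max_left _ _)
    calc R / max R ‖x‖ * ‖x - y‖ ≤ 1 * ‖x - y‖ := mul_le_mul_of_nonneg_right this (norm_nonneg _)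
      _ = ‖x - y‖ := one_mul _
  have h2 : ‖(R / max R ‖x‖ - R / max R ‖y‖) • y‖ ≤ ‖x - y‖ := by
    rw [norm_smul, div_sub_div _ _ hx.ne' hy.ne', norm_div]
    have h3 : |max R ‖y‖ - max R ‖x‖| ≤ ‖x - y‖ := by
      have := abs_max_sub_max_le_abs ‖y‖ ‖x‖ R
      rw [max_comm ‖y‖ R, max_comm ‖x‖ R] at this
      refine this.trans ?_
      rw [abs_sub_comm]
      exact abs_norm_sub_norm_le x y
    have h4 : ‖R * max R ‖y‖ - max R ‖x‖ * R‖ = R * |max R ‖y‖ - max R ‖x‖| := by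
      rw [Real.norm_eq_abs, mul_comm (max R ‖x‖) R, ← mul_sub, abs_mul, abs_of_pos hR]
    rw [h4, Real.norm_of_nonneg (by positivity : 0 ≤ max R ‖x‖ * max R ‖y‖), div_mul_eq_mul_div,
      div_le_iff₀ (by positivity)]
    calc R * |max R ‖y‖ - max R ‖x‖| * ‖y‖
        ≤ max R ‖x‖ * ‖x - y‖ * max R ‖y‖ := by
          apply mul_le_mul _ (le_max_right _ _) (norm_nonneg _) (by positivity)
          exact mul_le_mul (le_max_left _ _) h3 (abs_nonneg _) hx.le
      _ = ‖x - y‖ * (max R ‖x‖ * max R ‖y‖) := by ring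
  calc _ ≤ ‖x - y‖ + ‖x - y‖ := (norm_add_le _ _).trans (add_le_add h1 h2)
    _ = _ := by push_cast; ring

/-- Growth bound for solutions. -/
theorem norm_le_of_growth {y y' : ℝ → E} {a b K B : ℝ} (hK : 0 ≤ K) (hB : 0 ≤ B)
    (hy : ∀ t ∈ Icc a b, HasDerivWithinAt y (y' t) (Icc a b) t)
    (hy' : ∀ t ∈ Icc a b, ‖y' t‖ ≤ K * ‖y t‖ + B) :
    ∀ t ∈ Icc a b, ‖y t‖ ≤ gronwallBound ‖y a‖ K B (b - a) := by
  intro t ht
  have h := norm_le_gronwallBound_of_norm_deriv_right_le (f := y) (f' := y') (δ := ‖y a‖)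
    (K := K) (ε := B) (a := a) (b := b) (fun s hs => (hy s hs).continuousWithinAt)
    (fun s hs => ((hy s ⟨hs.1, hs.2.le⟩).mono_of_mem_nhdsWithin
      (Icc_mem_nhdsGE_of_mem hs))) le_rfl
    (fun s hs => hy' s ⟨hs.1, hs.2.le⟩) t ht
  exact h.trans (gronwallBound_mono (norm_nonneg _) hB hK (by linarith [ht.2]))

/-- Global existence for a globally Lipschitz field. -/
theorem exists_flow [CompleteSpace E] (f : ℝ → E → E) {a b : ℝ} (hab : a ≤ b)
    {K : NNReal} (hL : ∀ t ∈ Icc a b, LipschitzWith K (f t))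
    (hc : ∀ x, ContinuousOn (fun t => f t x) (Icc a b)) (x0 : E) :
    ∃ y : ℝ → E, y a = x0 ∧ ∀ t ∈ Icc a b, HasDerivWithinAt y (f t (y t)) (Icc a b) t := by
  obtain ⟨B, hB⟩ : ∃ B, ∀ t ∈ Icc a b, ‖f t 0‖ ≤ B := by
    obtain ⟨B, hB⟩ := isCompact_Icc.exists_bound_of_continuousOn (hc 0)
    exact ⟨B, hB⟩
  have hB0 : 0 ≤ B := (norm_nonneg _).trans (hB a ⟨le_rfl, hab⟩)
  have hgrow : ∀ t ∈ Icc a b, ∀ x, ‖f t x‖ ≤ K * ‖x‖ + B := by
    intro t ht x
    have h1 := (hL t ht).dist_le_mul x 0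
    rw [dist_eq_norm, dist_zero_right] at h1
    calc ‖f t x‖ = ‖(f t x - f t 0) + f t 0‖ := by rw [sub_add_cancel]
      _ ≤ ‖f t x - f t 0‖ + ‖f t 0‖ := norm_add_le _ _
      _ ≤ K * ‖x‖ + B := add_le_add h1 (hB t ht)
  set R : ℝ := gronwallBound ‖x0‖ K B (b - a) + 1 with hR
  have hRpos : 0 < R := by
    have : 0 ≤ gronwallBound ‖x0‖ K B (b - a) := by
      have h1 := gronwallBound_mono (norm_nonneg x0) hB0 K.2 (show (0 : ℝ) ≤ b - a by linarith)
      rw [gronwallBound_x0] at h1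
      exact (norm_nonneg _).trans h1
    linarith
  obtain ⟨y, hy0, hy⟩ := exists_flow_bounded (fun t x => f t (retr R x)) hab
    (K := K * 2) (B := K * R + B)
    (fun t ht => (hL t ht).comp (retr_lipschitz hRpos))
    (fun x => hc _)
    (fun t ht x => (hgrow t ht _).trans (by
      have := mul_le_mul_of_nonneg_left (norm_retr_le hRpos x) (NNReal.coe_nonneg K)
      linarith)) x0
  have hb : ∀ t ∈ Icc a b, ‖y t‖ ≤ R := by
    intro t ht
    have := norm_le_of_growth (K := K) (B := B) (NNReal.coe_nonneg K) hB0 hy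
      (fun s hs => (hgrow s hs _).trans (by
        have := mul_le_mul_of_nonneg_left (norm_retr_le_norm hRpos (y s)) (NNReal.coe_nonneg K)
        linarith)) t ht
    rw [hy0] at this
    linarith
  refine ⟨y, hy0, fun t ht => ?_⟩
  have := hy t ht
  rwa [retr_of_le hRpos (hb t ht)] at this

/-- Two solutions of nearby equations are close. -/
theorem dist_flow_le {f g : ℝ → E → E} {a b : ℝ} {K : NNReal} {δ ε : ℝ}
    (hL : ∀ t ∈ Icc a b, LipschitzWith K (f t)) {y z : ℝ → E}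
    (hy : ∀ t ∈ Icc a b, HasDerivWithinAt y (f t (y t)) (Icc a b) t)
    (hz : ∀ t ∈ Icc a b, HasDerivWithinAt z (g t (z t)) (Icc a b) t)
    (h0 : ‖y a - z a‖ ≤ δ) (hd : ∀ t ∈ Icc a b, ‖f t (z t) - g t (z t)‖ ≤ ε) :
    ∀ t ∈ Icc a b, ‖y t - z t‖ ≤ gronwallBound δ K ε (t - a) := by
  apply norm_le_gronwallBound_of_norm_deriv_right_le
    (f := fun t => y t - z t) (f' := fun t => f t (y t) - g t (z t))
  · exact fun s hs => ((hy s hs).sub (hz s hs)).continuousWithinAt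
  · exact fun s hs => (((hy s ⟨hs.1, hs.2.le⟩).sub (hz s ⟨hs.1, hs.2.le⟩)).mono_of_mem_nhdsWithin
      (Icc_mem_nhdsGE_of_mem hs))
  · exact h0
  · intro s hs
    have h1 := (hL s ⟨hs.1, hs.2.le⟩).dist_le_mul (y s) (z s)
    rw [dist_eq_norm, dist_eq_norm] at h1
    calc ‖f s (y s) - g s (z s)‖ = ‖(f s (y s) - f s (z s)) + (f s (z s) - g s (z s))‖ := by
          congr 1; abel
      _ ≤ ‖f s (y s) - f s (z s)‖ + ‖f s (z s) - g s (z s)‖ := norm_add_le _ _
      _ ≤ K * ‖y s - z s‖ + ε := add_le_add h1 (hd s ⟨hs.1, hs.2.le⟩)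

end Vale.Agent.P371H.OdeGen
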