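import Vale.Agent.P371H.Defs
import Vale.Agent.P371H.Ode
import Vale.Agent.P371H.OdeGen

/-!
# P371H, module FLOW: the clamped Riccati flow
-/

namespace LTH.FLOW

open Matrix Set Filter MeasureTheory
open scoped Topology NNReal
open Vale.P371H

/-- scalar clamp -/
noncomputable def cl (L x : ℝ) : ℝ := max (-L) (min L x)

lemma cl_abs {L : ℝ} (hL : 0 < L) (x : ℝ) : |cl L x| ≤ L := by
  unfold cl
  rw [abs_le]
  refine ⟨le_max_left _ _, max_le (by linarith) (min_le_left _ _)⟩

lemma cl_lip (L x y : ℝ) : |cl L x - cl L y| ≤ |x - y| := by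
  have h : LipschitzWith 1 (fun x : ℝ => max (-L) (min L x)) :=
    (LipschitzWith.id.const_min L).const_max (-L)
  have := h.dist_le_mul x y
  rw [Real.dist_eq, Real.dist_eq] at this
  simpa [cl] using this

lemma cl_continuous (L : ℝ) : Continuous (cl L) := by
  unfold cl; fun_prop

lemma cl_neg {L : ℝ} (hL : 0 < L) (x : ℝ) : cl L (-x) = -cl L x := by
  unfold cl
  rcases le_total L x with h | h
  · rw [min_eq_left h, max_eq_right (by linarith : -L ≤ L), min_eq_right (by linarith : -x ≤ L),
      max_eq_left (by linarith : -x ≤ -L)]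
  · rcases le_total x (-L) with h2 | h2
    · rw [min_eq_right h, max_eq_left h2, min_eq_left (by linarith : L ≤ -x),
        max_eq_right (by linarith : -L ≤ L)]
      ring
    · rw [min_eq_right h, max_eq_right h2, min_eq_right (by linarith : -x ≤ L),
        max_eq_right (by linarith : -L ≤ -x)]

lemma cl_sign {L : ℝ} (hL : 0 < L) {s : ℝ} (hs : s = 1 ∨ s = -1) (x : ℝ) :
    cl L (s * x) = s * cl L x := by
  rcases hs with rfl | rfl
  · simp
  · rw [neg_one_mul, neg_one_mul, cl_neg hL]

lemma cl_zero {L : ℝ} (hL : 0 < L) : cl L 0 = 0 := by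
  unfold cl
  rw [min_eq_right hL.le, max_eq_right (by linarith)]

variable {n : ℕ}

lemma clampM_apply (L : ℝ) (M : Matrix (Fin n) (Fin n) ℝ) (i j : Fin n) :
    clampM L M i j = cl L (M i j) := rfl

lemma rhs_apply (k : Fin n → ℝ) (Z X M : Matrix (Fin n) (Fin n) ℝ) (i j : Fin n) :
    rhs k Z X M i j = (if i = j then 1 else 0) - k i * M i j - M i j * k j
      + ∑ q, ∑ p, Z i p * X p q * Z q j := by
  have e : (Z * X * Z) i j = ∑ q, ∑ p, Z i p * X p q * Z q j := by
    simp only [Matrix.mul_apply, Finset.sum_mul]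
  unfold rhs
  rw [Matrix.add_apply, Matrix.sub_apply, Matrix.sub_apply, Matrix.one_apply,
    Matrix.diagonal_mul, Matrix.mul_diagonal, e]

/-- the field -/
noncomputable def fld (k : Fin n → ℝ) (L : ℝ) (X : ℝ → Matrix (Fin n) (Fin n) ℝ) (t : ℝ)
    (Y : Fin n → Fin n → ℝ) : Fin n → Fin n → ℝ := fun i j =>
  (if i = j then 1 else 0) - k i * Y i j - Y i j * k j
    + ∑ q, ∑ p, cl L (Y i p) * X t p q * cl L (Y q j)

lemma fld_eq (k : Fin n → ℝ) (L : ℝ) (X : ℝ → Matrix (Fin n) (Fin n) ℝ) (t : ℝ)
    (Y : Fin n → Fin n → ℝ) (i j : Fin n) :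
    fld k L X t Y i j = rhs k (clampM L (Matrix.of Y)) (X t) (Matrix.of Y) i j := by
  rw [rhs_apply]
  rfl

/-- the Lipschitz constant -/
noncomputable def Kc (k : Fin n → ℝ) (L B : ℝ) : ℝ :=
  2 * (∑ i, |k i|) + (n : ℝ) * (n * (2 * |B| * |L|))

lemma Kc_nonneg (k : Fin n → ℝ) (L B : ℝ) : 0 ≤ Kc k L B := by
  unfold Kc
  have : 0 ≤ ∑ i, |k i| := Finset.sum_nonneg fun _ _ => abs_nonneg _
  positivity

lemma fld_lip (k : Fin n → ℝ) {L B : ℝ} (hL : 0 < L) {X : ℝ → Matrix (Fin n) (Fin n) ℝ} {t : ℝ}
    (hB : ∀ p q, |X t p q| ≤ B) :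
    LipschitzWith (Real.toNNReal (Kc k L B)) (fld k L X t) := by
  refine LipschitzWith.of_dist_le_mul fun Y Y' => ?_
  rw [Real.coe_toNNReal _ (Kc_nonneg k L B)]
  have hD : ∀ i j, |Y i j - Y' i j| ≤ dist Y Y' := by
    intro i j
    rw [← Real.dist_eq]
    exact (dist_le_pi_dist (Y i) (Y' i) j).trans (dist_le_pi_dist Y Y' i)
  have hD0 : 0 ≤ dist Y Y' := dist_nonneg
  have hKD : 0 ≤ Kc k L B * dist Y Y' := mul_nonneg (Kc_nonneg _ _ _) hD0
  have hk : ∀ i, |k i| ≤ ∑ i, |k i| := fun i =>
    Finset.single_le_sum (f := fun i => |k i|) (fun _ _ => abs_nonneg _) (Finset.mem_univ i)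
  rw [dist_pi_le_iff hKD]
  intro i
  rw [dist_pi_le_iff hKD]
  intro j
  rw [Real.dist_eq]
  have hn : 0 ≤ B := (abs_nonneg _).trans (hB i i)
  have hterm : ∀ q p, |cl L (Y i p) * X t p q * cl L (Y q j)
      - cl L (Y' i p) * X t p q * cl L (Y' q j)| ≤ 2 * |B| * |L| * dist Y Y' := by
    intro q p
    have e : cl L (Y i p) * X t p q * cl L (Y q j) - cl L (Y' i p) * X t p q * cl L (Y' q j)
        = (cl L (Y i p) - cl L (Y' i p)) * X t p q * cl L (Y q j)
          + cl L (Y' i p) * X t p q * (cl L (Y q j) - cl L (Y' q j)) := by ring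
    rw [e]
    have h1 : |cl L (Y i p) - cl L (Y' i p)| ≤ dist Y Y' := (cl_lip _ _ _).trans (hD i p)
    have h2 : |cl L (Y q j) - cl L (Y' q j)| ≤ dist Y Y' := (cl_lip _ _ _).trans (hD q j)
    have h3 := cl_abs hL (Y q j)
    have h4 := cl_abs hL (Y' i p)
    have h5 := hB p q
    rw [abs_of_nonneg hn, abs_of_pos hL]
    calc |(cl L (Y i p) - cl L (Y' i p)) * X t p q * cl L (Y q j)
          + cl L (Y' i p) * X t p q * (cl L (Y q j) - cl L (Y' q j))|
        ≤ |(cl L (Y i p) - cl L (Y' i p))| * |X t p q| * |cl L (Y q j)|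
          + |cl L (Y' i p)| * |X t p q| * |(cl L (Y q j) - cl L (Y' q j))| := by
          refine (abs_add_le _ _).trans ?_
          rw [abs_mul, abs_mul, abs_mul, abs_mul]
      _ ≤ dist Y Y' * B * L + L * B * dist Y Y' := by gcongr
      _ = 2 * B * L * dist Y Y' := by ring
  have hsum : |∑ q, ∑ p, cl L (Y i p) * X t p q * cl L (Y q j)
      - ∑ q, ∑ p, cl L (Y' i p) * X t p q * cl L (Y' q j)|
      ≤ (n : ℝ) * (n * (2 * |B| * |L|)) * dist Y Y' := by
    rw [← Finset.sum_sub_distrib]
    refine (Finset.abs_sum_le_sum_abs _ _).trans ?_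
    calc ∑ q, |∑ p, cl L (Y i p) * X t p q * cl L (Y q j)
          - ∑ p, cl L (Y' i p) * X t p q * cl L (Y' q j)|
        ≤ ∑ _q : Fin n, (n : ℝ) * (2 * |B| * |L| * dist Y Y') := by
          refine Finset.sum_le_sum fun q _ => ?_
          rw [← Finset.sum_sub_distrib]
          refine (Finset.abs_sum_le_sum_abs _ _).trans ?_
          calc _ ≤ ∑ _p : Fin n, (2 * |B| * |L| * dist Y Y') :=
                Finset.sum_le_sum fun p _ => hterm q p
            _ = _ := by rw [Finset.sum_const, Finset.card_univ, Fintype.card_fin, nsmul_eq_mul]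
      _ = _ := by
          rw [Finset.sum_const, Finset.card_univ, Fintype.card_fin, nsmul_eq_mul]; ring
  have e2 : fld k L X t Y i j - fld k L X t Y' i j
      = -(k i * (Y i j - Y' i j)) - (Y i j - Y' i j) * k j
        + (∑ q, ∑ p, cl L (Y i p) * X t p q * cl L (Y q j)
      - ∑ q, ∑ p, cl L (Y' i p) * X t p q * cl L (Y' q j)) := by
    unfold fld; ring
  rw [e2]
  have h6 : |-(k i * (Y i j - Y' i j)) - (Y i j - Y' i j) * k j|
      ≤ 2 * (∑ i, |k i|) * dist Y Y' := by
    have e3 : -(k i * (Y i j - Y' i j)) - (Y i j - Y' i j) * k j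
        = -((k i + k j) * (Y i j - Y' i j)) := by ring
    rw [e3, abs_neg, abs_mul]
    have h7 : |k i + k j| ≤ 2 * ∑ i, |k i| := by
      refine (abs_add_le _ _).trans ?_
      linarith [hk i, hk j]
    exact mul_le_mul h7 (hD i j) (abs_nonneg _) ((abs_nonneg _).trans h7)
  refine (abs_add_le _ _).trans ?_
  unfold Kc
  linarith


lemma continuous_fld {W : Type*} [TopologicalSpace W] (k : Fin n → ℝ) (L : ℝ)
    {X : W → ℝ → Matrix (Fin n) (Fin n) ℝ} {T : W → ℝ} {A : W → Fin n → Fin n → ℝ}
    (hX : ∀ i j, Continuous fun w => X w (T w) i j) (hA : Continuous A) :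
    Continuous fun w => fld k L (X w) (T w) (A w) := by
  have hA' : ∀ i j, Continuous fun w => A w i j := fun i j =>
    (continuous_apply j).comp ((continuous_apply i).comp hA)
  refine continuous_pi fun i => continuous_pi fun j => ?_
  unfold fld
  refine Continuous.add ?_ ?_
  · exact (continuous_const.sub (continuous_const.mul (hA' i j))).sub
      ((hA' i j).mul continuous_const)
  · refine continuous_finsetSum _ fun q _ => continuous_finsetSum _ fun p _ => ?_
    exact (((cl_continuous L).comp (hA' i p)).mul (hX p q)).mul ((cl_continuous L).comp (hA' q j))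

section flow

variable {k : Fin n → ℝ} {a L : ℝ} {X : Cal n → ℝ → Matrix (Fin n) (Fin n) ℝ}

lemma exists_bd (hX : ∀ i j, Continuous fun p : Cal n × ℝ => X p.1 p.2 i j) (w0 : Cal n) (a : ℝ) :
    ∃ B : ℝ, ∀ w ∈ Metric.closedBall w0 1, ∀ t ∈ Icc (-a) a, ∀ p q, |X w t p q| ≤ B := by
  have hK : IsCompact (Metric.closedBall w0 1 ×ˢ Icc (-a) a) :=
    (isCompact_closedBall w0 1).prod isCompact_Icc
  have h : ∀ p q : Fin n, ∃ B : ℝ, ∀ z ∈ Metric.closedBall w0 1 ×ˢ Icc (-a) a,
      ‖X z.1 z.2 p q‖ ≤ B := fun p q => hK.exists_bound_of_continuousOn (hX p q).continuousOn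
  choose B hB using h
  refine ⟨∑ p, ∑ q, |B p q|, fun w hw t ht p q => ?_⟩
  have h1 := hB p q (w, t) ⟨hw, ht⟩
  rw [Real.norm_eq_abs] at h1
  refine h1.trans ((le_abs_self _).trans ?_)
  refine le_trans ?_ (Finset.single_le_sum (f := fun p => ∑ q, |B p q|)
    (fun p _ => Finset.sum_nonneg fun _ _ => abs_nonneg _) (Finset.mem_univ p))
  exact Finset.single_le_sum (f := fun q => |B p q|) (fun _ _ => abs_nonneg _) (Finset.mem_univ q)

/-- solution of the clamped equation -/
def IsSol (k : Fin n → ℝ) (a L : ℝ) (X : ℝ → Matrix (Fin n) (Fin n) ℝ)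
    (M : ℝ → Fin n → Fin n → ℝ) : Prop :=
  ∀ t ∈ Icc (-a) a, HasDerivWithinAt M (fld k L X t (M t)) (Icc (-a) a) t

lemma exists_isSol (hX : ∀ i j, Continuous fun p : Cal n × ℝ => X p.1 p.2 i j) (ha : 0 < a)
    (hL : 0 < L) (w : Cal n) (x0 : Fin n → Fin n → ℝ) :
    ∃ M : ℝ → Fin n → Fin n → ℝ, M (-a) = x0 ∧ IsSol k a L (X w) M := by
  obtain ⟨B, hB⟩ := exists_bd hX w a
  have hX' : ∀ i j, Continuous fun t => X w t i j := fun i j =>
    (hX i j).comp (continuous_const.prodMk continuous_id)
  exact Vale.Agent.P371H.OdeGen.exists_flow (fld k L (X w)) (by linarith : -a ≤ a)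
    (fun t ht => fld_lip k hL (hB w (Metric.mem_closedBall_self zero_le_one) t ht))
    (fun Y => (continuous_fld (X := fun _ => X w) (T := fun t => t) (A := fun _ => Y) k L hX'
      continuous_const).continuousOn) x0

lemma sol_unique (hX : ∀ i j, Continuous fun p : Cal n × ℝ => X p.1 p.2 i j)
    (hL : 0 < L) (w : Cal n) {M N : ℝ → Fin n → Fin n → ℝ} (h0 : M (-a) = N (-a))
    (hM : IsSol k a L (X w) M) (hN : IsSol k a L (X w) N) :
    ∀ t ∈ Icc (-a) a, M t = N t := by
  obtain ⟨B, hB⟩ := exists_bd hX w a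
  intro t ht
  have h := Vale.Agent.P371H.OdeGen.dist_flow_le (δ := 0) (ε := 0)
    (fun t ht => fld_lip k hL (hB w (Metric.mem_closedBall_self zero_le_one) t ht)) hM hN
    (by rw [h0, sub_self, norm_zero]) (fun t _ => by rw [sub_self, norm_zero]) t ht
  rw [gronwallBound_ε0_δ0] at h
  exact sub_eq_zero.1 (norm_le_zero_iff.1 h)

lemma sol_continuous (hX : ∀ i j, Continuous fun p : Cal n × ℝ => X p.1 p.2 i j) (ha : 0 < a)
    (hL : 0 < L) {M : Cal n → ℝ → Fin n → Fin n → ℝ} {x0 : Fin n → Fin n → ℝ}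
    (h0 : ∀ w, M w (-a) = x0) (hM : ∀ w, IsSol k a L (X w) (M w)) {t : ℝ}
    (ht : t ∈ Icc (-a) a) : Continuous fun w => M w t := by
  rw [continuous_iff_continuousAt]
  intro w0
  obtain ⟨B, hB⟩ := exists_bd hX w0 a
  have hab : -a ≤ a := by linarith
  have h := Ode.continuousOn_param (W := Metric.closedBall w0 1)
    (f := fun w t => fld k L (X w) (projIcc (-a) a hab t)) (K := Real.toNNReal (Kc k L B)) hab
    (fun w t => fld_lip k hL (hB w w.2 _ (projIcc (-a) a hab t).2)) ?_
    (α := fun w => M w) (x0 := x0) (fun w => h0 w) ?_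
  · have h1 : Continuous fun w : Metric.closedBall w0 1 => M w t := by
      have h2 : Continuous fun w : Metric.closedBall w0 1 => ((w, t) : _ × ℝ) :=
        continuous_id.prodMk continuous_const
      exact h.comp_continuous h2 fun w => ⟨mem_univ _, ht⟩
    have h3 : ContinuousOn (fun w => M w t) (Metric.closedBall w0 1) := by
      rw [continuousOn_iff_continuous_domRestrict]
      exact h1
    exact h3.continuousAt (Metric.closedBall_mem_nhds w0 one_pos)
  · refine continuous_fld (W := Metric.closedBall w0 1 × ℝ × (Fin n → Fin n → ℝ))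
      (X := fun z => X z.1) (T := fun z => projIcc (-a) a hab z.2.1) (A := fun z => z.2.2) k L
      (fun i j => ?_) (continuous_snd.comp continuous_snd)
    have h4 : Continuous fun z : Metric.closedBall w0 1 × ℝ × (Fin n → Fin n → ℝ) =>
        (((z.1 : Cal n), ((projIcc (-a) a hab z.2.1 : Icc (-a) a) : ℝ)) : Cal n × ℝ) :=
      (continuous_subtype_val.comp continuous_fst).prodMk
        (continuous_subtype_val.comp (continuous_projIcc.comp
          (continuous_fst.comp continuous_snd)))
    exact (hX i j).comp h4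
  · intro w t ht
    have := hM w t ht
    rw [projIcc_of_mem hab ht]
    exact this


lemma sol_comp {M : ℝ → Fin n → Fin n → ℝ} {X : ℝ → Matrix (Fin n) (Fin n) ℝ}
    (h : IsSol k a L X M) {t : ℝ} (ht : t ∈ Icc (-a) a) (i j : Fin n) :
    HasDerivWithinAt (fun y => M y i j) (fld k L X t (M t) i j) (Icc (-a) a) t :=
  hasDerivWithinAt_pi.1 (hasDerivWithinAt_pi.1 (h t ht) i) j

lemma isSol_of_comp {M : ℝ → Fin n → Fin n → ℝ} {X : ℝ → Matrix (Fin n) (Fin n) ℝ}
    (h : ∀ t ∈ Icc (-a) a, ∀ i j, HasDerivWithinAt (fun y => M y i j)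
      (fld k L X t (M t) i j) (Icc (-a) a) t) : IsSol k a L X M := fun t ht =>
  hasDerivWithinAt_pi.2 fun i => hasDerivWithinAt_pi.2 fun j => h t ht i j

/-- the transpose is a solution -/
lemma isSol_transpose {M : ℝ → Fin n → Fin n → ℝ} {X : ℝ → Matrix (Fin n) (Fin n) ℝ}
    (hX : ∀ x i j, X x i j = X x j i) (h : IsSol k a L X M) :
    IsSol k a L X fun t i j => M t j i := by
  refine isSol_of_comp fun t ht i j => ?_
  have h1 := sol_comp h ht j i
  have e : fld k L X t (M t) j i = fld k L X t (fun i j => M t j i) i j := by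
    unfold fld
    rw [Finset.sum_comm]
    congr 1
    · by_cases hij : i = j
      · subst hij; simp
      · rw [if_neg hij, if_neg (fun h => hij h.symm)]; ring
    · refine Finset.sum_congr rfl fun q _ => Finset.sum_congr rfl fun p _ => ?_
      rw [hX t q p]; ring
  rw [e] at h1
  exact h1

/-- conjugation by signs -/
lemma isSol_sign (hL : 0 < L) {M : ℝ → Fin n → Fin n → ℝ}
    {X X' : ℝ → Matrix (Fin n) (Fin n) ℝ} {s : Fin n → ℝ} (hs : ∀ i, s i = 1 ∨ s i = -1)
    (hX : ∀ x i j, X' x i j = s i * s j * X x i j) (h : IsSol k a L X M) :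
    IsSol k a L X' fun t i j => s i * s j * M t i j := by
  have hss : ∀ i, s i * s i = 1 := fun i => by rcases hs i with h | h <;> rw [h] <;> norm_num
  have hsp : ∀ i j, s i * s j = 1 ∨ s i * s j = -1 := fun i j => by
    rcases hs i with h | h <;> rcases hs j with h' | h' <;> rw [h, h'] <;> norm_num
  refine isSol_of_comp fun t ht i j => ?_
  have h1 := (sol_comp h ht i j).const_mul (s i * s j)
  have e : fld k L X' t (fun i j => s i * s j * M t i j) i j
      = s i * s j * fld k L X t (M t) i j := by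
    unfold fld
    rw [mul_add, Finset.mul_sum]
    congr 1
    · by_cases hij : i = j
      · subst hij
        simp only [if_true]
        linear_combination (-1 : ℝ) * hss i
      · rw [if_neg hij]; ring
    · refine Finset.sum_congr rfl fun q _ => ?_
      rw [Finset.mul_sum]
      refine Finset.sum_congr rfl fun p _ => ?_
      rw [cl_sign hL (hsp i p), cl_sign hL (hsp q j), hX]
      calc s i * s p * cl L (M t i p) * (s p * s q * X t p q) * (s q * s j * cl L (M t q j))
          = (s p * s p) * (s q * s q) * (s i * s j * (cl L (M t i p) * X t p q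
            * cl L (M t q j))) := by ring
        _ = _ := by rw [hss, hss]; ring
  rw [e]
  exact h1


lemma quad_form (A : Matrix (Fin n) (Fin n) ℝ) (z : Fin n → ℝ) :
    star z ⬝ᵥ (A *ᵥ z) = ∑ i, ∑ j, z i * A i j * z j := by
  simp only [dotProduct, Matrix.mulVec, Pi.star_apply, star_trivial, Finset.mul_sum]
  refine Finset.sum_congr rfl fun i _ => Finset.sum_congr rfl fun j _ => ?_
  ring

lemma M0_apply (k : Fin n → ℝ) (i j : Fin n) : M0 k i j = if i = j then 1 / (2 * k i) else 0 := by
  unfold M0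
  rw [Matrix.diagonal_apply]

/-- a channel in which the potential vanishes is decoupled -/
lemma decoupled (hX : ∀ i j, Continuous fun p : Cal n × ℝ => X p.1 p.2 i j) (hk : ∀ i, 0 < k i)
    (hL : 0 < L) (w : Cal n) (hs : ∀ x i j, X w x i j = X w x j i)
    {M : ℝ → Fin n → Fin n → ℝ} (h0 : M (-a) = fun i j => M0 k i j)
    (hM : IsSol k a L (X w) M) (i : Fin n) (hi : ∀ x j, X w x i j = 0) :
    ∀ x ∈ Icc (-a) a, M x i i = 1 / (2 * k i) := by
  -- off-diagonal entries vanish
  set s : Fin n → ℝ := fun l => if l = i then -1 else 1 with hsdef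
  have hs1 : ∀ l, s l = 1 ∨ s l = -1 := by
    intro l
    by_cases h : l = i
    · right; simp [hsdef, h]
    · left; simp [hsdef, h]
  have hs2 : ∀ l, s l * s l = 1 := fun l => by rcases hs1 l with h | h <;> rw [h] <;> norm_num
  have hXs : ∀ x p q, X w x p q = s p * s q * X w x p q := by
    intro x p q
    by_cases hp : p = i
    · rw [hp, hi x q]; ring
    · by_cases hq : q = i
      · rw [hq, hs x p i, hi x p]; ring
      · simp [hsdef, hp, hq]
  have hN := isSol_sign (k := k) (a := a) hL hs1 hXs hM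
  have hoff : ∀ x ∈ Icc (-a) a, ∀ j, j ≠ i → M x i j = 0 ∧ M x j i = 0 := by
    intro x hx j hj
    have h1 := sol_unique hX hL w (M := M) (N := fun t i j => s i * s j * M t i j) (by
      rw [h0]
      funext p q
      simp only [M0_apply]
      by_cases hpq : p = q
      · subst hpq
        rw [hs2, one_mul]
      · rw [if_neg hpq, mul_zero]) hM hN x hx
    have hsi : s i = -1 := by simp [hsdef]
    have hsj : s j = 1 := by simp [hsdef, hj]
    constructor
    · have h2 := congrFun (congrFun h1 i) j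
      simp only [hsi, hsj] at h2
      linarith
    · have h2 := congrFun (congrFun h1 j) i
      simp only [hsi, hsj] at h2
      linarith
  -- the diagonal entry
  have hder : ∀ t ∈ Icc (-a) a, HasDerivWithinAt (fun y => M y i i)
      ((fun (_ : ℝ) (z : ℝ) => 1 - (2 * k i) * z) t (M t i i)) (Icc (-a) a) t := by
    intro t ht
    have h1 := sol_comp hM ht i i
    have e : fld k L (X w) t (M t) i i = 1 - (2 * k i) * M t i i := by
      unfold fld
      rw [if_pos rfl]
      have : ∑ q, ∑ p, cl L (M t i p) * X w t p q * cl L (M t q i) = 0 := by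
        refine Finset.sum_eq_zero fun q _ => Finset.sum_eq_zero fun p _ => ?_
        by_cases hp : p = i
        · rw [hp, hi t q]; ring
        · rw [(hoff t ht p hp).1, cl_zero hL]; ring
      rw [this]; ring
    rw [e] at h1
    exact h1
  intro x hx
  have hlip : ∀ t ∈ Icc (-a) a, LipschitzWith (Real.toNNReal (2 * k i))
      ((fun (_ : ℝ) (z : ℝ) => 1 - (2 * k i) * z) t) := by
    intro t _
    refine LipschitzWith.of_dist_le_mul fun y z => ?_
    rw [Real.coe_toNNReal _ (by linarith [hk i]), Real.dist_eq, Real.dist_eq]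
    have e : 1 - 2 * k i * y - (1 - 2 * k i * z) = -((2 * k i) * (y - z)) := by ring
    rw [e, abs_neg, abs_mul, abs_of_pos (by linarith [hk i] : 0 < 2 * k i)]
  have hconst : ∀ t ∈ Icc (-a) a, HasDerivWithinAt (fun _ : ℝ => 1 / (2 * k i))
      ((fun (_ : ℝ) (z : ℝ) => 1 - (2 * k i) * z) t (1 / (2 * k i))) (Icc (-a) a) t := by
    intro t _
    have e : 1 - (2 * k i) * (1 / (2 * k i)) = 0 := by
      have := hk i
      field_simp
      ring
    simp only [e]
    exact hasDerivWithinAt_const _ _ _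
  have h := Vale.Agent.P371H.OdeGen.dist_flow_le (δ := 0) (ε := 0)
    (f := fun (_ : ℝ) (z : ℝ) => 1 - (2 * k i) * z)
    (g := fun (_ : ℝ) (z : ℝ) => 1 - (2 * k i) * z)
    (y := fun y => M y i i) (z := fun _ => 1 / (2 * k i)) hlip hder hconst
    (by
      rw [h0]
      simp [M0_apply]) (fun t _ => by rw [sub_self, norm_zero]) x hx
  rw [gronwallBound_ε0_δ0] at h
  exact sub_eq_zero.1 (norm_le_zero_iff.1 h)

/-- Duhamel comparison, quadratic form version -/
lemma duhamel (hk : ∀ i, 0 < k i) {X : ℝ → Matrix (Fin n) (Fin n) ℝ}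
    (hX : ∀ x, (X x).PosSemidef) {M : ℝ → Fin n → Fin n → ℝ}
    (hM : IsSol k a L X M) (hsym : ∀ t ∈ Icc (-a) a, ∀ i j, M t i j = M t j i)
    {x y : ℝ} (hx : x ∈ Icc (-a) a) (hy : y ∈ Icc x a) (v : Fin n → ℝ) :
    ∑ i, ∑ j, v i * (Real.exp (-(k i * (y - x))) * (M x i j - M0 k i j)
        * Real.exp (-(k j * (y - x)))) * v j
      ≤ ∑ i, ∑ j, v i * (M y i j - M0 k i j) * v j := by
  set e : Fin n → ℝ → ℝ := fun i t => Real.exp (-(k i * (y - t))) with he
  have hed : ∀ i t, HasDerivAt (e i) (k i * e i t) t := by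
    intro i t
    have h1 : HasDerivAt (fun t : ℝ => -(k i * (y - t))) (k i) t := by
      have h2 := ((hasDerivAt_id' t).const_sub y).const_mul (-(k i))
      exact (h2.congr_deriv (by ring)).congr_of_eventuallyEq
        (Eventually.of_forall fun t => by ring)
    have h3 := h1.exp
    rw [mul_comm] at h3
    exact h3
  set φ : ℝ → ℝ := fun t => ∑ i, ∑ j, v i * (e i t * (M t i j - M0 k i j) * e j t) * v j with hφ
  set φ' : ℝ → ℝ := fun t => ∑ i, ∑ j, (v i * e i t)
    * (∑ q, ∑ p, cl L (M t i p) * X t p q * cl L (M t q j)) * (v j * e j t) with hφ'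
  have hsub : Icc x y ⊆ Icc (-a) a := Icc_subset_Icc hx.1 hy.2
  have hderiv : ∀ t ∈ Icc x y, HasDerivWithinAt φ (φ' t) (Icc x y) t := by
    intro t ht
    refine HasDerivWithinAt.fun_sum fun i _ => HasDerivWithinAt.fun_sum fun j _ => ?_
    have h1 := (sol_comp hM (hsub ht) i j).mono hsub
    have h2 := (((((hed i t).hasDerivWithinAt (s := Icc x y)).mul (h1.sub_const (M0 k i j))).mul
      ((hed j t).hasDerivWithinAt (s := Icc x y))).const_mul (v i)).mul_const (v j)
    refine h2.congr_deriv ?_
    have hM0 : (k i + k j) * M0 k i j = if i = j then 1 else 0 := by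
      rw [M0_apply]
      by_cases hij : i = j
      · subst hij
        rw [if_pos rfl, if_pos rfl]
        have := hk i
        field_simp
        ring
      · rw [if_neg hij, if_neg hij, mul_zero]
    simp only [Pi.mul_apply]
    unfold fld
    linear_combination (-(v i * e i t * e j t * v j)) * hM0
  have hnn : ∀ t ∈ Icc x y, 0 ≤ φ' t := by
    intro t ht
    set C : Matrix (Fin n) (Fin n) ℝ := Matrix.of fun i j => cl L (M t i j) with hC
    have hCs : Cᴴ = C := by
      ext i j
      rw [Matrix.conjTranspose_apply, star_trivial]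
      simp only [hC, Matrix.of_apply]
      rw [hsym t (hsub ht) j i]
    have hp := (hX t).conjTranspose_mul_mul_same C
    rw [hCs] at hp
    have h3 := hp.dotProduct_mulVec_nonneg (fun i => v i * e i t)
    rw [quad_form] at h3
    refine h3.trans_eq ?_
    simp only [hφ']
    refine Finset.sum_congr rfl fun i _ => Finset.sum_congr rfl fun j _ => ?_
    have h4 : (C * X t * C) i j = ∑ q, ∑ p, cl L (M t i p) * X t p q * cl L (M t q j) := by
      simp only [Matrix.mul_apply, Finset.sum_mul]
      rfl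
    rw [h4]
  have hxy : x ≤ y := hy.1
  have hmono : MonotoneOn φ (Icc x y) := by
    refine monotoneOn_of_deriv_nonneg (convex_Icc x y)
      (fun t ht => (hderiv t ht).continuousWithinAt) ?_ ?_
    · intro t ht
      rw [interior_Icc] at ht
      exact ((hderiv t ⟨ht.1.le, ht.2.le⟩).hasDerivAt
        (Icc_mem_nhds ht.1 ht.2)).differentiableAt.differentiableWithinAt
    · intro t ht
      rw [interior_Icc] at ht
      rw [((hderiv t ⟨ht.1.le, ht.2.le⟩).hasDerivAt (Icc_mem_nhds ht.1 ht.2)).deriv]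
      exact hnn t ⟨ht.1.le, ht.2.le⟩
  have h5 := hmono (left_mem_Icc.2 hxy) (right_mem_Icc.2 hxy) hxy
  have e1 : φ y = ∑ i, ∑ j, v i * (M y i j - M0 k i j) * v j := by
    simp only [hφ, he, sub_self, mul_zero, neg_zero, Real.exp_zero, one_mul, mul_one]
  rw [e1] at h5
  exact h5

end flow

end LTH.FLOW

namespace LTH

open Matrix Set Filter MeasureTheory
open scoped Topology

/-- Module FLOW. -/
theorem flow : S_FLOW := by
  intro n k a L X hk ha hL hX hXp
  have hXs : ∀ w x i j, X w x i j = X w x j i := by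
    intro w x i j
    have h := (hXp w x).isHermitian.apply j i
    rw [star_trivial] at h
    exact h
  have hex := fun w => FLOW.exists_isSol (k := k) hX ha hL w (fun i j => M0 k i j)
  choose M h0 hM using hex
  have hma : -a ∈ Icc (-a) a := ⟨le_rfl, by linarith⟩
  have haa : a ∈ Icc (-a) a := ⟨by linarith, le_rfl⟩
  have hsym : ∀ w, ∀ x ∈ Icc (-a) a, ∀ i j, M w x i j = M w x j i := by
    intro w x hx i j
    have h1 := FLOW.isSol_transpose (hXs w) (hM w)
    have h2 := FLOW.sol_unique hX hL w (M := M w) (N := fun t i j => M w t j i) (by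
      rw [h0]
      funext p q
      simp only [FLOW.M0_apply]
      by_cases hpq : p = q
      · subst hpq; rfl
      · rw [if_neg hpq, if_neg (fun h => hpq h.symm)]) (hM w) h1 x hx
    exact congrFun (congrFun h2 i) j
  refine ⟨fun w x => Matrix.of (M w x), ?_, ?_, ?_, ?_, ?_, ?_, ?_⟩
  · intro w
    ext i j
    simp only [Matrix.of_apply, h0]
  · intro w x hx i j
    have h1 := FLOW.sol_comp (hM w) hx i j
    rw [FLOW.fld_eq] at h1
    exact h1
  · intro w x hx
    ext i j
    simp only [Matrix.transpose_apply, Matrix.of_apply]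
    exact hsym w x hx j i
  · intro i j
    have h1 := FLOW.sol_continuous hX ha hL h0 hM haa
    exact (continuous_apply j).comp ((continuous_apply i).comp h1)
  · intro s hs w w' hw x hx i j
    have h1 := FLOW.isSol_sign (k := k) (a := a) hL hs (X := X w) (X' := X w') hw (hM w)
    have hss : ∀ i, s i * s i = 1 := fun i => by
      rcases hs i with h | h <;> rw [h] <;> norm_num
    have h2 := FLOW.sol_unique hX hL w' (M := M w')
      (N := fun t i j => s i * s j * M w t i j) (by
        rw [h0, h0]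
        funext p q
        simp only [FLOW.M0_apply]
        by_cases hpq : p = q
        · subst hpq
          rw [hss, one_mul]
        · rw [if_neg hpq, mul_zero]) (hM w') h1 x hx
    exact congrFun (congrFun h2 i) j
  · intro w i hi x hx
    exact FLOW.decoupled hX hk hL w (hXs w) (h0 w) (hM w) i hi x hx
  · intro w x hx y hy
    refine Matrix.PosSemidef.of_dotProduct_mulVec_nonneg ?_ fun v => ?_
    · ext i j
      have hy' : y ∈ Icc (-a) a := ⟨hx.1.trans hy.1, hy.2⟩
      have e1 := hsym w y hy' i j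
      have e2 := hsym w x hx i j
      have e3 : M0 k i j = M0 k j i := by
        simp only [FLOW.M0_apply]
        by_cases hpq : i = j
        · subst hpq; rfl
        · rw [if_neg hpq, if_neg (fun h => hpq h.symm)]
      rw [Matrix.conjTranspose_apply, star_trivial]
      simp only [Ek, Matrix.sub_apply, Matrix.of_apply, Matrix.mul_diagonal,
        Matrix.diagonal_mul]
      rw [e1, e2, e3]
      ring
    · rw [FLOW.quad_form]
      have h1 := FLOW.duhamel (k := k) (a := a) (L := L) hk (hXp w) (hM w) (hsym w) hx hy v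
      have e : ∑ i, ∑ j, v i * (Matrix.of (M w y) - M0 k
          - Ek k (y - x) * (Matrix.of (M w x) - M0 k) * Ek k (y - x)) i j * v j
          = (∑ i, ∑ j, v i * (M w y i j - M0 k i j) * v j)
            - ∑ i, ∑ j, v i * (Real.exp (-(k i * (y - x))) * (M w x i j - M0 k i j)
              * Real.exp (-(k j * (y - x)))) * v j := by
        rw [← Finset.sum_sub_distrib]
        refine Finset.sum_congr rfl fun i _ => ?_
        rw [← Finset.sum_sub_distrib]
        refine Finset.sum_congr rfl fun j _ => ?_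
        simp only [Ek, Matrix.sub_apply, Matrix.of_apply, Matrix.mul_diagonal,
          Matrix.diagonal_mul]
        ring
      rw [e]
      linarith

end LTH
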