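import Mathlib
import Vale.Agent.P371H.Defs
import Vale.Agent.P371.Prim

open MeasureTheory Set Filter Matrix
open scoped Topology

namespace LTH.FORM

open Vale.P371

/-- C¹ functions on `[a,b]` extend to primitives. -/
theorem exists_prim {a b : ℝ} {f f' : ℝ → ℝ}
    (hd : ∀ x ∈ Icc a b, HasDerivWithinAt f (f' x) (Icc a b) x) (hc : ContinuousOn f' (Icc a b)) :
    ∃ F : ℝ → ℝ, Prim F ((Icc a b).indicator f') ∧ ∀ x ∈ Icc a b, F x = f x := by
  have hi : IntegrableOn f' (Icc a b) := hc.integrableOn_Icc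
  have hI : Integrable ((Icc a b).indicator f') := hi.integrable_indicator measurableSet_Icc
  refine ⟨fun x => f a + ∫ t in a..x, (Icc a b).indicator f' t, ?_, ?_⟩
  · intro c d
    refine ⟨hI.intervalIntegrable, ?_⟩
    have := intervalIntegral.integral_interval_sub_left (μ := volume)
      (f := (Icc a b).indicator f') (a := a) (b := d) (c := c) hI.intervalIntegrable
      hI.intervalIntegrable
    rw [← this]; ring
  · intro x hx
    have h1 : ∫ t in a..x, (Icc a b).indicator f' t = ∫ t in a..x, f' t := by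
      apply intervalIntegral.integral_congr
      intro t ht
      rw [uIcc_of_le hx.1] at ht
      have hm : t ∈ Icc a b := ⟨ht.1, ht.2.trans hx.2⟩
      simp only [Set.indicator, hm, if_true]
    have hsub : Icc a x ⊆ Icc a b := Icc_subset_Icc le_rfl hx.2
    have h2 : ∫ t in a..x, f' t = f x - f a := by
      apply intervalIntegral.integral_eq_sub_of_hasDerivAt_of_le hx.1
      · exact fun t ht => ((hd t (hsub ht)).continuousWithinAt).mono hsub
      · intro t ht
        exact (hd t (hsub (Ioo_subset_Icc_self ht))).hasDerivAt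
          (Icc_mem_nhds ht.1 (ht.2.trans_le hx.2))
      · exact (hc.mono hsub).intervalIntegrable_of_Icc hx.1
    show f a + ∫ t in a..x, (Icc a b).indicator f' t = f x
    rw [h1, h2]; ring

/-- half-line estimate -/
theorem tail {u g : ℝ → ℝ} (h : Prim u g) (hu : MemLp u 2 volume) (hg : MemLp g 2 volume)
    (k : ℝ) (a : ℝ) :
    k * u a ^ 2 ≤ ∫ x in Ioi a, (g x ^ 2 + k ^ 2 * u x ^ 2) := by
  have hu2 : Integrable (fun x => u x ^ 2) := hu.integrable_sq
  have hg2 : Integrable (fun x => g x ^ 2) := hg.integrable_sq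
  have hug : Integrable (fun x => g x * u x) := by
    have := hg.integrable_mul hu
    exact this
  have hp : Prim (fun x => u x * u x) (fun x => g x * u x + u x * g x) := h.mul h
  have hi : Integrable (fun x => g x * u x + u x * g x) := by
    have : (fun x => g x * u x + u x * g x) = fun x => 2 * (g x * u x) := by
      funext x; ring
    rw [this]; exact hug.const_mul 2
  have hq : Integrable (fun x => u x * u x) := by simpa [sq] using hu2
  have h0 := hp.tendsto_atTop_zero hi hq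
  have h1 : Tendsto (fun b => u b * u b - u a * u a) atTop
      (𝓝 (∫ x in Ioi a, (g x * u x + u x * g x))) := by
    have := intervalIntegral_tendsto_integral_Ioi a hi.integrableOn tendsto_id
    refine this.congr (fun b => ?_)
    exact (hp.sub_eq a b).symm
  have h2 := tendsto_nhds_unique h1 (h0.sub_const (u a * u a))
  have h3 : k * u a ^ 2 = ∫ x in Ioi a, (-(k * (g x * u x + u x * g x))) := by
    rw [integral_neg, integral_const_mul, h2]; ring
  rw [h3]
  apply setIntegral_mono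
  · exact (hi.const_mul k).neg.integrableOn
  · exact (hg2.add (hu2.const_mul _)).integrableOn
  · intro x
    simp only
    nlinarith [sq_nonneg (g x + k * u x)]

theorem tail' {u g : ℝ → ℝ} (h : Prim u g) (hu : MemLp u 2 volume) (hg : MemLp g 2 volume)
    (k : ℝ) (a : ℝ) :
    k * u a ^ 2 ≤ ∫ x in Iic a, (g x ^ 2 + k ^ 2 * u x ^ 2) := by
  have hr : Prim (fun x => u (-x)) (fun x => - g (-x)) := h.comp_neg
  have hmp : MeasurePreserving (fun x : ℝ => -x) volume volume := Measure.measurePreserving_neg _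
  have hu' : MemLp (fun x => u (-x)) 2 volume := hu.comp_measurePreserving hmp
  have hg' : MemLp (fun x => - g (-x)) 2 volume := (hg.comp_measurePreserving hmp).neg
  have := tail hr hu' hg' k (-a)
  simp only [neg_neg] at this
  refine this.trans (le_of_eq ?_)
  have e := integral_comp_neg_Ioi (-a) (fun x => g x ^ 2 + k ^ 2 * u x ^ 2)
  rw [neg_neg] at e
  rw [← e]
  congr 1
  funext x
  ring


theorem continuousAt_inv {n : ℕ} (A : Matrix (Fin n) (Fin n) ℝ) (h : A.det ≠ 0) :
    ContinuousAt (fun B : Matrix (Fin n) (Fin n) ℝ => B⁻¹) A := by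
  have e : (fun B : Matrix (Fin n) (Fin n) ℝ => B⁻¹) = fun B => (B.det)⁻¹ • B.adjugate := by
    funext B
    rw [Matrix.inv_def, Ring.inverse_eq_inv']
  rw [e]
  exact (continuous_id.matrix_det.continuousAt.inv₀ h).smul continuous_id.matrix_adjugate.continuousAt

theorem hasDerivWithinAt_inv {n : ℕ} {M : ℝ → Matrix (Fin n) (Fin n) ℝ}
    {M' : Matrix (Fin n) (Fin n) ℝ} {s : Set ℝ} {x : ℝ} (hx : x ∈ s)
    (hd : ∀ i j, HasDerivWithinAt (fun y => M y i j) (M' i j) s x)
    (hinv : ∀ y ∈ s, (M y).det ≠ 0) (i j : Fin n) :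
    HasDerivWithinAt (fun y => (M y)⁻¹ i j) (-((M x)⁻¹ * M' * (M x)⁻¹) i j) s x := by
  have hM : Tendsto M (𝓝[s] x) (𝓝 (M x)) := by
    exact tendsto_pi_nhds.mpr fun a => tendsto_pi_nhds.mpr fun b => (hd a b).continuousWithinAt
  have hN : Tendsto (fun y => (M y)⁻¹) (𝓝[s \ {x}] x) (𝓝 ((M x)⁻¹)) :=
    ((continuousAt_inv (M x) (hinv x hx)).tendsto.comp hM).mono_left
      (nhdsWithin_mono x sdiff_subset)
  have hS : Tendsto (fun y => (Matrix.of fun a b => slope (fun z => M z a b) x y :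
      Matrix (Fin n) (Fin n) ℝ)) (𝓝[s \ {x}] x) (𝓝 M') := by
    exact tendsto_pi_nhds.mpr fun a => tendsto_pi_nhds.mpr fun b =>
      hasDerivWithinAt_iff_tendsto_slope.mp (hd a b)
  rw [hasDerivWithinAt_iff_tendsto_slope]
  have hlim : Tendsto (fun y => -((M y)⁻¹ * (Matrix.of fun a b => slope (fun z => M z a b) x y :
      Matrix (Fin n) (Fin n) ℝ) * (M x)⁻¹)) (𝓝[s \ {x}] x) (𝓝 (-((M x)⁻¹ * M' * (M x)⁻¹))) :=
    ((hN.mul hS).mul tendsto_const_nhds).neg
  have hlim2 := (tendsto_pi_nhds.mp ((tendsto_pi_nhds.mp hlim) i)) j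
  refine hlim2.congr' ?_
  filter_upwards [self_mem_nhdsWithin] with y hy
  have h1 : (M y)⁻¹ - (M x)⁻¹ = -((M y)⁻¹ * (M y - M x) * (M x)⁻¹) := by
    have u1 : (M y)⁻¹ * M y = 1 := Matrix.nonsing_inv_mul _ (isUnit_iff_ne_zero.mpr (hinv y hy.1))
    have u2 : M x * (M x)⁻¹ = 1 := Matrix.mul_nonsing_inv _ (isUnit_iff_ne_zero.mpr (hinv x hx))
    rw [mul_sub, sub_mul, u1, one_mul, mul_assoc, u2, mul_one]
    abel
  have h2 : (Matrix.of fun a b => slope (fun z => M z a b) x y : Matrix (Fin n) (Fin n) ℝ)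
      = (y - x)⁻¹ • (M y - M x) := by
    ext a b
    simp [slope_def_field, div_eq_inv_mul]
  rw [h2, Matrix.mul_smul, Matrix.smul_mul, slope_def_field, div_eq_inv_mul]
  have h3 : (M y)⁻¹ i j - (M x)⁻¹ i j = ((M y)⁻¹ - (M x)⁻¹) i j := rfl
  rw [h3, h1]
  simp


theorem prim_of {n : ℕ} {u g : ℝ → Fin n → ℝ} (h : IsH1R u g) (i : Fin n) :
    Prim (fun x => u x i) (fun x => g x i) := by
  intro a b
  refine ⟨?_, h.ftc i a b⟩
  have h1 : LocallyIntegrable (fun x => g x i) volume := (h.memLp' i).locallyIntegrable (by norm_num)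
  rw [intervalIntegrable_iff']
  exact h1.integrableOn_isCompact isCompact_uIcc

/-- algebra of the Riccati equation for `F = M⁻¹ - κ`. -/
theorem riccati_alg {n : ℕ} (k : Fin n → ℝ) (M X : Matrix (Fin n) (Fin n) ℝ) (h : M.det ≠ 0) :
    -(M⁻¹ * rhs k M X M * M⁻¹) = diagonal k * diagonal k
      - (M⁻¹ - diagonal k) * (M⁻¹ - diagonal k) - X := by
  have u1 : M⁻¹ * M = 1 := Matrix.nonsing_inv_mul _ (isUnit_iff_ne_zero.mpr h)
  have u2 : M * M⁻¹ = 1 := Matrix.mul_nonsing_inv _ (isUnit_iff_ne_zero.mpr h)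
  have e : M⁻¹ * rhs k M X M * M⁻¹ = M⁻¹ * M⁻¹ - M⁻¹ * diagonal k * (M * M⁻¹)
      - (M⁻¹ * M) * diagonal k * M⁻¹ + (M⁻¹ * M) * X * (M * M⁻¹) := by
    unfold rhs
    noncomm_ring
  rw [e, u1, u2]
  noncomm_ring

/-- pointwise completion of the square -/
theorem pointwise {n : ℕ} (k : Fin n → ℝ) (F X : Matrix (Fin n) (Fin n) ℝ) (hF : F.IsSymm)
    (u g : Fin n → ℝ) :
    (∑ i, ∑ j, ((g i * F i j + u i * (diagonal k * diagonal k - F * F - X) i j) * u j
      + u i * F i j * g j)) ≤ (∑ i, ((g i) ^ 2 + (k i) ^ 2 * (u i) ^ 2)) - u ⬝ᵥ (X *ᵥ u) := by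
  have e1 : (∑ i, ∑ j, ((g i * F i j + u i * (diagonal k * diagonal k - F * F - X) i j) * u j
      + u i * F i j * g j)) = g ⬝ᵥ (F *ᵥ u)
        + u ⬝ᵥ ((diagonal k * diagonal k - F * F - X) *ᵥ u) + u ⬝ᵥ (F *ᵥ g) := by
    simp only [dotProduct, mulVec, Finset.mul_sum, ← Finset.sum_add_distrib]
    refine Finset.sum_congr rfl fun i _ => Finset.sum_congr rfl fun j _ => ?_
    ring
  have e2 : u ⬝ᵥ (F *ᵥ g) = g ⬝ᵥ (F *ᵥ u) := by
    rw [dotProduct_mulVec, ← mulVec_transpose, hF.eq, dotProduct_comm]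
  have e3 : u ⬝ᵥ ((F * F) *ᵥ u) = (F *ᵥ u) ⬝ᵥ (F *ᵥ u) := by
    rw [← mulVec_mulVec, dotProduct_mulVec, ← mulVec_transpose, hF.eq]
  have e4 : u ⬝ᵥ ((diagonal k * diagonal k) *ᵥ u) = ∑ i, (k i) ^ 2 * (u i) ^ 2 := by
    rw [diagonal_mul_diagonal]
    simp only [dotProduct, mulVec_diagonal]
    refine Finset.sum_congr rfl fun i _ => ?_
    ring
  have e5 : 0 ≤ (g - F *ᵥ u) ⬝ᵥ (g - F *ᵥ u) := by
    simp only [dotProduct]
    exact Finset.sum_nonneg fun i _ => mul_self_nonneg _
  have e6 : g ⬝ᵥ g = ∑ i, (g i) ^ 2 := by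
    simp only [dotProduct, sq]
  have e7 : (g - F *ᵥ u) ⬝ᵥ (g - F *ᵥ u) = g ⬝ᵥ g - 2 * (g ⬝ᵥ (F *ᵥ u)) + (F *ᵥ u) ⬝ᵥ (F *ᵥ u) := by
    rw [sub_dotProduct, dotProduct_sub, dotProduct_sub, dotProduct_comm (F *ᵥ u) g]
    ring
  rw [e1, e2, sub_mulVec, sub_mulVec, dotProduct_sub, dotProduct_sub, e3, e4,
    Finset.sum_add_distrib, ← e6]
  linarith


theorem posDef_of {n : ℕ} (k : Fin n → ℝ) (hk : ∀ i, 0 < k i) (M : Matrix (Fin n) (Fin n) ℝ)
    (h : (M - M0 k).PosSemidef) : M.PosDef := by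
  have h0 : (M0 k).PosDef := by
    unfold M0
    rw [posDef_diagonal_iff]
    intro i
    have := hk i
    positivity
  have := h0.add_posSemidef h
  rwa [add_sub_cancel] at this

theorem continuousOn_of {n : ℕ} {s : Set ℝ} {F : ℝ → Matrix (Fin n) (Fin n) ℝ}
    (h : ∀ i j, ContinuousOn (fun x => F x i j) s) : ContinuousOn F s :=
  continuousOn_pi.mpr fun i => continuousOn_pi.mpr fun j => h i j

theorem main {n : ℕ} (k : Fin n → ℝ) (a : ℝ) (X M : ℝ → Matrix (Fin n) (Fin n) ℝ)
    (hk : ∀ i, 0 < k i) (ha : 0 < a) (hX : ∀ i j, Continuous fun x => X x i j)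
    (hM0 : M (-a) = M0 k)
    (hM : ∀ x ∈ Icc (-a) a, ∀ i j, HasDerivWithinAt (fun y => M y i j)
      (rhs k (M x) (X x) (M x) i j) (Icc (-a) a) x)
    (hge : ∀ x ∈ Icc (-a) a, (M x - M0 k).PosSemidef)
    (u g : ℝ → Fin n → ℝ) (hu : IsH1R u g) :
    ∫ x in (-a)..a, (u x) ⬝ᵥ ((X x).mulVec (u x))
      ≤ (∫ x in (-a)..a, ∑ i, ((g x i) ^ 2 + (k i) ^ 2 * (u x i) ^ 2))
        + ∑ i, k i * u (-a) i ^ 2 + ∑ i, k i * u a i ^ 2 := by
  have haa : -a ≤ a := by linarith
  have hpd : ∀ x ∈ Icc (-a) a, (M x).PosDef := fun x hx => posDef_of k hk _ (hge x hx)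
  have hdet : ∀ x ∈ Icc (-a) a, (M x).det ≠ 0 := fun x hx => (hpd x hx).det_pos.ne'
  set F : ℝ → Matrix (Fin n) (Fin n) ℝ := fun x => (M x)⁻¹ - diagonal k with hF
  have hsymm : ∀ x ∈ Icc (-a) a, (F x).IsSymm := by
    intro x hx
    have h1 : (M x)⁻¹.IsSymm := by
      have := (hpd x hx).inv.isHermitian
      rwa [Matrix.IsHermitian, conjTranspose_eq_transpose_of_trivial] at this
    exact h1.sub (isSymm_diagonal k)
  have hFd : ∀ x ∈ Icc (-a) a, ∀ i j, HasDerivWithinAt (fun y => F y i j)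
      ((diagonal k * diagonal k - F x * F x - X x) i j) (Icc (-a) a) x := by
    intro x hx i j
    have h1 := hasDerivWithinAt_inv hx (hM x hx) hdet i j
    have h2 := h1.sub_const (diagonal k i j)
    have e : (diagonal k * diagonal k - F x * F x - X x) i j
        = -((M x)⁻¹ * rhs k (M x) (X x) (M x) * (M x)⁻¹) i j := by
      rw [hF]
      have := riccati_alg k (M x) (X x) (hdet x hx)
      rw [← this]; rfl
    rw [e]
    exact h2
  have hFc : ContinuousOn F (Icc (-a) a) :=
    continuousOn_of fun i j x hx => (hFd x hx i j).continuousWithinAt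
  have hXc : Continuous X := continuous_pi fun i => continuous_pi fun j => hX i j
  have hF'c : ContinuousOn (fun x => diagonal k * diagonal k - F x * F x - X x) (Icc (-a) a) :=
    (continuousOn_const.sub (hFc.mul hFc)).sub hXc.continuousOn
  have hF'e : ∀ i j, ContinuousOn (fun x => (diagonal k * diagonal k - F x * F x - X x) i j)
      (Icc (-a) a) := fun i j =>
    continuousOn_pi.mp (continuousOn_pi.mp hF'c i) j
  choose Φ hΦ hΦe using fun i j => exists_prim (fun x hx => hFd x hx i j) (hF'e i j)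
  have hpu : ∀ i, Prim (fun x => u x i) (fun x => g x i) := fun i => prim_of hu i
  have hΨ := Prim.sum (Finset.univ : Finset (Fin n)) (fun i _ =>
    Prim.sum (Finset.univ : Finset (Fin n)) (fun j _ => ((hpu i).mul (hΦ i j)).mul (hpu j)))
  have hsub := hΨ.sub_eq (-a) a
  have hii := hΨ.intervalIntegrable (-a) a
  have huc : Continuous u := continuous_pi fun i => (hpu i).continuous
  have hq : Continuous (fun x => (u x) ⬝ᵥ ((X x).mulVec (u x))) :=
    huc.dotProduct (hXc.matrix_mulVec huc)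
  have hgi : IntervalIntegrable (fun x => ∑ i, ((g x i) ^ 2 + (k i) ^ 2 * (u x i) ^ 2))
      volume (-a) a := by
    apply Integrable.intervalIntegrable
    apply integrable_finsetSum
    intro i _
    exact (hu.memLp' i).integrable_sq.add ((hu.memLp i).integrable_sq.const_mul _)
  have hle : ∫ x in (-a)..a, (∑ i, ∑ j, ((g x i * Φ i j x + u x i *
        (Icc (-a) a).indicator (fun x => (diagonal k * diagonal k - F x * F x - X x) i j) x) * u x j
      + u x i * Φ i j x * g x j))
      ≤ ∫ x in (-a)..a, ((∑ i, ((g x i) ^ 2 + (k i) ^ 2 * (u x i) ^ 2))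
        - (u x) ⬝ᵥ ((X x).mulVec (u x))) := by
    apply intervalIntegral.integral_mono_on haa hii (hgi.sub (hq.intervalIntegrable _ _))
    intro x hx
    have := pointwise k (F x) (X x) (hsymm x hx) (u x) (g x)
    refine le_of_eq_of_le ?_ this
    refine Finset.sum_congr rfl fun i _ => Finset.sum_congr rfl fun j _ => ?_
    rw [hΦe i j x hx]
    simp only [Set.indicator, hx, if_true]
  rw [intervalIntegral.integral_sub hgi (hq.intervalIntegrable _ _)] at hle
  have hΨa : -(∑ i, k i * u a i ^ 2) ≤ ∑ i, ∑ j, u a i * Φ i j a * u a j := by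
    have hma : a ∈ Icc (-a) a := ⟨haa, le_rfl⟩
    have e : ∑ i, ∑ j, u a i * Φ i j a * u a j = u a ⬝ᵥ ((M a)⁻¹ *ᵥ u a)
        - ∑ i, k i * u a i ^ 2 := by
      have e1 : ∑ i, ∑ j, u a i * Φ i j a * u a j = u a ⬝ᵥ (F a *ᵥ u a) := by
        simp only [dotProduct, mulVec, Finset.mul_sum]
        refine Finset.sum_congr rfl fun i _ => Finset.sum_congr rfl fun j _ => ?_
        rw [hΦe i j a hma]; ring
      rw [e1, hF]
      simp only [sub_mulVec, dotProduct_sub]
      congr 1
      simp only [dotProduct, mulVec_diagonal]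
      refine Finset.sum_congr rfl fun i _ => ?_
      ring
    rw [e]
    have h1 : 0 ≤ u a ⬝ᵥ ((M a)⁻¹ *ᵥ u a) := by
      have := (hpd a hma).inv.posSemidef.dotProduct_mulVec_nonneg (u a)
      simpa using this
    linarith
  have hΨb : ∑ i, ∑ j, u (-a) i * Φ i j (-a) * u (-a) j = ∑ i, k i * u (-a) i ^ 2 := by
    have hma : -a ∈ Icc (-a) a := ⟨le_rfl, haa⟩
    have e0 : F (-a) = diagonal k := by
      rw [hF]
      simp only [hM0]
      have : (M0 k)⁻¹ = diagonal (fun i => 2 * k i) := by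
        apply Matrix.inv_eq_right_inv
        unfold M0
        rw [diagonal_mul_diagonal, ← diagonal_one]
        congr 1
        funext i
        have := (hk i).ne'
        field_simp
      rw [this, diagonal_sub]
      congr 1
      funext i
      ring
    refine Finset.sum_congr rfl fun i _ => ?_
    rw [Finset.sum_eq_single i]
    · rw [hΦe i i (-a) hma, e0, diagonal_apply_eq]; ring
    · intro j _ hj
      rw [hΦe i j (-a) hma, e0, diagonal_apply_ne _ hj.symm]; ring
    · simp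
  rw [hΨb] at hsub
  linarith

theorem split {f : ℝ → ℝ} (hf : Integrable f) (a : ℝ) :
    ∫ x, f x = (∫ x in Iic (-a), f x) + (∫ x in (-a)..a, f x) + ∫ x in Ioi a, f x := by
  have h1 := intervalIntegral.integral_Iic_add_Ioi (b := -a) hf.integrableOn hf.integrableOn
  have h2 := intervalIntegral.integral_interval_add_Ioi (a := -a) (b := a)
    hf.integrableOn hf.integrableOn
  linarith

end LTH.FORM

namespace LTH

open LTH.FORM Vale.P371

theorem form : S_FORM := by
  intro n k a X M hk ha hX _ hM0 hM hge u g hu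
  have h1 := main k a X M hk ha hX hM0 hM hge u g hu
  refine h1.trans ?_
  have hg2 : ∀ i, Integrable fun x => (g x i) ^ 2 := fun i => (hu.memLp' i).integrable_sq
  have hu2 : ∀ i, Integrable fun x => (u x i) ^ 2 := fun i => (hu.memLp i).integrable_sq
  have hs : ∀ i, Integrable fun x => (g x i) ^ 2 + (k i) ^ 2 * (u x i) ^ 2 :=
    fun i => (hg2 i).add ((hu2 i).const_mul _)
  rw [intervalIntegral.integral_finsetSum (fun i _ => (hs i).intervalIntegrable),
    ← Finset.sum_add_distrib, ← Finset.sum_add_distrib]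
  refine Finset.sum_le_sum fun i _ => ?_
  have t1 := tail (prim_of hu i) (hu.memLp i) (hu.memLp' i) (k i) a
  have t2 := tail' (prim_of hu i) (hu.memLp i) (hu.memLp' i) (k i) (-a)
  have e := split (hs i) a
  rw [integral_add (hg2 i) ((hu2 i).const_mul _), integral_const_mul] at e
  linarith

end LTH

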