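import Vale.Agent.P371H.Defs

/-!
# P371H, module MAIN (helper14): the upper bound from DIL, NICE, REAL, FUN
-/

namespace LTH

open Matrix Set Filter MeasureTheory
open scoped ComplexOrder Topology ComplexConjugate

namespace MAIN

theorem int_sq {N : ℕ} (f : Fin N → ℝ → ℝ) (hf : ∀ j, MemLp (f j) 2 volume) (c : Fin N → ℝ) :
    ∫ x, (∑ j, c j * f j x) ^ 2 = ∑ j, ∑ l, c j * c l * ∫ x, f j x * f l x := by
  have h1 : ∀ x, (∑ j, c j * f j x) ^ 2 = ∑ j, ∑ l, c j * c l * (f j x * f l x) := by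
    intro x
    rw [sq, Finset.sum_mul_sum]
    refine Finset.sum_congr rfl fun j _ => Finset.sum_congr rfl fun l _ => ?_
    ring
  have hi : ∀ j l, Integrable (fun x => c j * c l * (f j x * f l x)) := fun j l =>
    ((hf j).integrable_mul (hf l)).const_mul _
  simp_rw [h1]
  rw [integral_finsetSum _ fun j _ => integrable_finsetSum _ fun l _ => hi j l]
  refine Finset.sum_congr rfl fun j _ => ?_
  rw [integral_finsetSum _ fun l _ => hi j l]
  refine Finset.sum_congr rfl fun l _ => ?_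
  rw [integral_const_mul]

theorem form_expand {N q : ℕ} (u : Fin N → Fin q → ℝ) (W : Matrix (Fin q) (Fin q) ℝ)
    (c : Fin N → ℝ) :
    (fun b => ∑ j, c j * u j b) ⬝ᵥ (W.mulVec (fun b => ∑ j, c j * u j b))
      = ∑ j, ∑ l, c j * c l * (u j ⬝ᵥ (W.mulVec (u l))) := by
  have h1 : (fun b => ∑ j, c j * u j b) = ∑ j, c j • u j := by
    ext b
    simp [Finset.sum_apply]
  rw [h1, Matrix.mulVec_sum, sum_dotProduct]
  refine Finset.sum_congr rfl fun j _ => ?_
  rw [dotProduct_sum]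
  refine Finset.sum_congr rfl fun l _ => ?_
  rw [Matrix.mulVec_smul, smul_dotProduct, dotProduct_smul, smul_eq_mul, smul_eq_mul, mul_assoc]

theorem integrable_form {q : ℕ} {a : ℝ} {W : ℝ → Matrix (Fin q) (Fin q) ℝ}
    (hc : ∀ c d, Continuous fun x => W x c d) (h0 : ∀ x, x ∉ Icc (-a) a → W x = 0)
    {u v : ℝ → Fin q → ℝ} (hu : ∀ c, MemLp (fun x => u x c) 2 volume)
    (hv : ∀ c, MemLp (fun x => v x c) 2 volume) :
    Integrable fun x => (u x) ⬝ᵥ ((W x).mulVec (v x)) := by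
  have h1 : ∀ x, (u x) ⬝ᵥ ((W x).mulVec (v x)) = ∑ c, ∑ d, W x c d * (u x c * v x d) := by
    intro x
    simp only [dotProduct, Matrix.mulVec, Finset.mul_sum]
    refine Finset.sum_congr rfl fun c _ => Finset.sum_congr rfl fun d _ => ?_
    ring
  simp_rw [h1]
  refine integrable_finsetSum _ fun c _ => integrable_finsetSum _ fun d _ => ?_
  obtain ⟨C, hC⟩ := (isCompact_Icc (a := -a) (b := a)).exists_bound_of_continuousOn
    (hc c d).continuousOn
  refine Integrable.bdd_mul (c := max C 0) ((hu c).integrable_mul (hv d))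
    (hc c d).aestronglyMeasurable (Eventually.of_forall fun x => ?_)
  by_cases hx : x ∈ Icc (-a) a
  · exact (hC x hx).trans (le_max_left _ _)
  · rw [h0 x hx]
    simp

theorem int_form {N q : ℕ} {W : ℝ → Matrix (Fin q) (Fin q) ℝ} {u : Fin N → ℝ → Fin q → ℝ}
    (hi : ∀ j l, Integrable fun x => (u j x) ⬝ᵥ ((W x).mulVec (u l x))) (c : Fin N → ℝ) :
    ∫ x, (fun b => ∑ j, c j * u j x b) ⬝ᵥ ((W x).mulVec (fun b => ∑ j, c j * u j x b))
      = ∑ j, ∑ l, c j * c l * ∫ x, (u j x) ⬝ᵥ ((W x).mulVec (u l x)) := by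
  have h1 : ∀ x, (fun b => ∑ j, c j * u j x b) ⬝ᵥ ((W x).mulVec (fun b => ∑ j, c j * u j x b))
      = ∑ j, ∑ l, c j * c l * ((u j x) ⬝ᵥ ((W x).mulVec (u l x))) := fun x =>
    form_expand (fun j => u j x) (W x) c
  simp_rw [h1]
  have hi' : ∀ j l, Integrable fun x => c j * c l * ((u j x) ⬝ᵥ ((W x).mulVec (u l x))) :=
    fun j l => (hi j l).const_mul _
  rw [integral_finsetSum _ fun j _ => integrable_finsetSum _ fun l _ => hi' j l]
  refine Finset.sum_congr rfl fun j _ => ?_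
  rw [integral_finsetSum _ fun l _ => hi' j l]
  refine Finset.sum_congr rfl fun l _ => ?_
  rw [integral_const_mul]

/-- the quadratic form bound -/
theorem quad_le {N : ℕ} (A : Fin N → Fin N → ℝ) (lam : Fin N → ℝ) (δ : ℝ)
    (hA : ∀ j l, |A j l - (if j = l then lam j else 0)| ≤ δ) (c : Fin N → ℝ) :
    ∑ j, ∑ l, c j * c l * A j l ≤ (∑ j, c j ^ 2 * lam j) + δ * N * ∑ j, c j ^ 2 := by
  have h1 : ∑ j, ∑ l, c j * c l * A j l
      = (∑ j, c j ^ 2 * lam j) + ∑ j, ∑ l, c j * c l * (A j l - (if j = l then lam j else 0)) := by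
    have h2 : ∑ j, c j ^ 2 * lam j = ∑ j, ∑ l, c j * c l * (if j = l then lam j else 0) := by
      refine Finset.sum_congr rfl fun j _ => ?_
      rw [Finset.sum_eq_single j]
      · simp only [if_true]; ring
      · intro b _ hb
        rw [if_neg (Ne.symm hb), mul_zero]
      · intro h; exact absurd (Finset.mem_univ j) h
    rw [h2, ← Finset.sum_add_distrib]
    refine Finset.sum_congr rfl fun j _ => ?_
    rw [← Finset.sum_add_distrib]
    refine Finset.sum_congr rfl fun l _ => ?_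
    ring
  rw [h1]
  have h3 : ∑ j, ∑ l, c j * c l * (A j l - (if j = l then lam j else 0))
      ≤ ∑ j : Fin N, ∑ l : Fin N, δ * ((c j ^ 2 + c l ^ 2) / 2) := by
    refine Finset.sum_le_sum fun j _ => Finset.sum_le_sum fun l _ => ?_
    have hδ : 0 ≤ δ := (abs_nonneg _).trans (hA j l)
    calc c j * c l * (A j l - (if j = l then lam j else 0))
        ≤ |c j * c l * (A j l - (if j = l then lam j else 0))| := le_abs_self _
      _ = |c j * c l| * |A j l - (if j = l then lam j else 0)| := abs_mul _ _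
      _ ≤ |c j * c l| * δ := mul_le_mul_of_nonneg_left (hA j l) (abs_nonneg _)
      _ ≤ ((c j ^ 2 + c l ^ 2) / 2) * δ := by
          refine mul_le_mul_of_nonneg_right ?_ hδ
          rw [abs_mul]
          nlinarith [sq_nonneg (|c j| - |c l|), sq_abs (c j), sq_abs (c l)]
      _ = _ := by ring
  have h4 : ∑ j : Fin N, ∑ l : Fin N, δ * ((c j ^ 2 + c l ^ 2) / 2) = δ * N * ∑ j, c j ^ 2 := by
    simp only [← Finset.mul_sum, add_div, Finset.sum_add_distrib, Finset.sum_const,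
      Finset.card_univ, Fintype.card_fin, nsmul_eq_mul, ← Finset.sum_div]
    ring
  linarith

/-- the diagonal case of `quad` for an orthonormal family -/
theorem quad_one {N : ℕ} (c : Fin N → ℝ) :
    ∑ j, ∑ l, c j * c l * (if j = l then (1 : ℝ) else 0) = ∑ j, c j ^ 2 := by
  refine Finset.sum_congr rfl fun j _ => ?_
  rw [Finset.sum_eq_single j]
  · simp only [if_true]; ring
  · intro b _ hb
    rw [if_neg (Ne.symm hb), mul_zero]
  · intro h; exact absurd (Finset.mem_univ j) h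

theorem sum_int_sq {N q : ℕ} (f : Fin N → ℝ → Fin q → ℝ)
    (hf : ∀ j b, MemLp (fun x => f j x b) 2 volume) (c : Fin N → ℝ) :
    ∑ b, ∫ x, (∑ j, c j * f j x b) ^ 2
      = ∑ j, ∑ l, c j * c l * ∑ b, ∫ x, f j x b * f l x b := by
  have h1 : ∀ b, ∫ x, (∑ j, c j * f j x b) ^ 2
      = ∑ j, ∑ l, c j * c l * ∫ x, f j x b * f l x b := fun b =>
    int_sq (fun j x => f j x b) (fun j => hf j b) c
  simp_rw [h1]
  rw [Finset.sum_comm]
  refine Finset.sum_congr rfl fun j _ => ?_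
  rw [Finset.sum_comm]
  refine Finset.sum_congr rfl fun l _ => ?_
  rw [Finset.mul_sum]

theorem real_step (hDIL : S_DIL) (hNICE : S_NICE) (hFUN : S_FUN) {s : ℝ} {N q : ℕ}
    {V : ℝ → Matrix (Fin q) (Fin q) ℝ} {u g : Fin N → ℝ → Fin q → ℝ} {lam : Fin N → ℝ}
    (hs0 : 0 < s) (hs1 : s < 1) (hVm : ∀ c d, Measurable fun x => V x c d)
    (hVp : ∀ x, (V x).PosSemidef) (hint : Integrable fun x => LTG.tp (1 + s) (toC (V x)))
    (hH : ∀ i, IsH1R (u i) (g i))
    (horth : ∀ p r, (∑ b, ∫ x, u p x b * u r x b) = if p = r then 1 else 0)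
    (hform : ∀ p r, (∑ b, ∫ x, g p x b * g r x b)
      - (∫ x, (u p x) ⬝ᵥ ((V x).mulVec (u r x))) = if p = r then lam p else 0)
    (hneg : ∀ p, lam p < 0) (hmono : Monotone lam) {t : ℝ} (ht0 : 0 < t) (ht1 : t < 1) :
    LTG.Bs s * ((1 - t) ^ (s + 1 / 2) * ∑ i, |lam i| ^ (s + 1 / 2))
      ≤ (s ^ s / (1 + s) ^ (1 + s)) * ∫ x, LTG.tp (1 + s) (toC (V x)) := by
  -- a positive lower bound of the eigenvalues
  obtain ⟨m0, hm0, hm⟩ : ∃ m0 : ℝ, 0 < m0 ∧ ∀ i, m0 ≤ -lam i := by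
    rcases isEmpty_or_nonempty (Fin N) with h | h
    · exact ⟨1, one_pos, fun i => (h.false i).elim⟩
    · obtain ⟨i0, hi0⟩ := Finite.exists_min fun i => -lam i
      exact ⟨-lam i0, by linarith [hneg i0], hi0⟩
  set δ : ℝ := t * m0 / (2 * (N + 1)) with hδ
  have hN : (0 : ℝ) ≤ N := Nat.cast_nonneg N
  have hδ0 : 0 < δ := by positivity
  have hδN : δ * N < t * m0 := by
    rw [hδ, div_mul_eq_mul_div, div_lt_iff₀ (by positivity)]
    have : 0 < t * m0 := by positivity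
    nlinarith
  obtain ⟨a, W, ha, hWc, hWp, hW0, hWint, hWd⟩ := hNICE s N q V u g δ hs0 hδ0 hVm hVp hint hH
  set k : Fin N → ℝ := fun i => Real.sqrt ((1 - t) * |lam i|) with hk
  have h1t : 0 < 1 - t := by linarith
  have hlam : ∀ i, 0 < |lam i| := fun i => abs_pos.mpr (hneg i).ne
  have hkpos : ∀ i, 0 < k i := fun i => Real.sqrt_pos.mpr (mul_pos h1t (hlam i))
  have hksq : ∀ i, (k i) ^ 2 = (1 - t) * (-lam i) := by
    intro i
    rw [hk]
    simp only
    rw [Real.sq_sqrt (mul_pos h1t (hlam i)).le, abs_of_neg (hneg i)]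
  have hkey := hDIL s N q k a W u g hs0 hs1 (hFUN s N hs0 hs1) hkpos ha hWc hWp hW0 hH (by
    intro i c hc hc0
    rw [sum_int_sq g (fun j b => (hH j).memLp' b) c, sum_int_sq u (fun j b => (hH j).memLp b) c,
      int_form (fun j l => integrable_form hWc hW0 (hH j).memLp (hH l).memLp) c]
    rw [← Finset.sum_sub_distrib]
    have e1 : ∀ j, (∑ l, c j * c l * ∑ b, ∫ x, g j x b * g l x b)
        - (∑ l, c j * c l * ∫ x, (u j x) ⬝ᵥ ((W x).mulVec (u l x)))
        = ∑ l, c j * c l * ((∑ b, ∫ x, g j x b * g l x b)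
          - ∫ x, (u j x) ⬝ᵥ ((W x).mulVec (u l x))) := by
      intro j
      rw [← Finset.sum_sub_distrib]
      exact Finset.sum_congr rfl fun l _ => by ring
    simp_rw [e1, horth]
    rw [quad_one]
    have e2 := quad_le (fun j l => (∑ b, ∫ x, g j x b * g l x b)
          - ∫ x, (u j x) ⬝ᵥ ((W x).mulVec (u l x))) lam δ (by
        intro j l
        rw [← hform j l]
        have := hWd j l
        rw [show (∑ b, ∫ x, g j x b * g l x b) - (∫ x, (u j x) ⬝ᵥ ((W x).mulVec (u l x)))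
          - ((∑ b, ∫ x, g j x b * g l x b) - ∫ x, (u j x) ⬝ᵥ ((V x).mulVec (u l x)))
          = -((∫ x, (u j x) ⬝ᵥ ((W x).mulVec (u l x)))
            - ∫ x, (u j x) ⬝ᵥ ((V x).mulVec (u l x))) by ring, abs_neg]
        exact this) c
    refine lt_of_le_of_lt e2 ?_
    have e3 : ∑ j, c j ^ 2 * lam j ≤ lam i * ∑ j, c j ^ 2 := by
      rw [Finset.mul_sum]
      refine Finset.sum_le_sum fun j _ => ?_
      rcases le_or_gt j i with h | h
      · have := hmono h
        nlinarith [sq_nonneg (c j)]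
      · rw [hc j h]
        simp
    have e4 : 0 < ∑ j, c j ^ 2 := by
      obtain ⟨j, hj⟩ := Function.ne_iff.mp hc0
      refine Finset.sum_pos' (fun j _ => sq_nonneg _) ⟨j, Finset.mem_univ j, ?_⟩
      have : c j ≠ 0 := hj
      positivity
    have e5 := hksq i
    have e6 := hm i
    have e7 : lam i + δ * N < -(k i) ^ 2 := by
      rw [e5]
      nlinarith
    nlinarith)
  have hkp : ∀ i, k i ^ (2 * s + 1) = (1 - t) ^ (s + 1 / 2) * |lam i| ^ (s + 1 / 2) := by
    intro i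
    rw [hk]
    simp only
    rw [Real.sqrt_eq_rpow, ← Real.rpow_mul (mul_pos h1t (hlam i)).le,
      show (1 / 2 : ℝ) * (2 * s + 1) = s + 1 / 2 by ring,
      Real.mul_rpow h1t.le (hlam i).le]
  simp_rw [hkp] at hkey
  rw [← Finset.mul_sum] at hkey
  refine hkey.trans ?_
  refine mul_le_mul_of_nonneg_left hWint ?_
  positivity

theorem real_case (hDIL : S_DIL) (hNICE : S_NICE) (hFUN : S_FUN) {s : ℝ} {N q : ℕ}
    {V : ℝ → Matrix (Fin q) (Fin q) ℝ} {u g : Fin N → ℝ → Fin q → ℝ} {lam : Fin N → ℝ}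
    (hs0 : 0 < s) (hs1 : s < 1) (hVm : ∀ c d, Measurable fun x => V x c d)
    (hVp : ∀ x, (V x).PosSemidef) (hint : Integrable fun x => LTG.tp (1 + s) (toC (V x)))
    (hH : ∀ i, IsH1R (u i) (g i))
    (horth : ∀ p r, (∑ b, ∫ x, u p x b * u r x b) = if p = r then 1 else 0)
    (hform : ∀ p r, (∑ b, ∫ x, g p x b * g r x b)
      - (∫ x, (u p x) ⬝ᵥ ((V x).mulVec (u r x))) = if p = r then lam p else 0)
    (hneg : ∀ p, lam p < 0) (hmono : Monotone lam) :
    LTG.Bs s * ∑ i, |lam i| ^ (s + 1 / 2)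
      ≤ (s ^ s / (1 + s) ^ (1 + s)) * ∫ x, LTG.tp (1 + s) (toC (V x)) := by
  have hcont : ContinuousAt (fun t : ℝ =>
      LTG.Bs s * ((1 - t) ^ (s + 1 / 2) * ∑ i, |lam i| ^ (s + 1 / 2))) 0 := by
    refine ContinuousAt.mul continuousAt_const (ContinuousAt.mul ?_ continuousAt_const)
    refine ContinuousAt.rpow_const (by fun_prop) (Or.inl (by norm_num))
  have hlim : Tendsto (fun t : ℝ =>
      LTG.Bs s * ((1 - t) ^ (s + 1 / 2) * ∑ i, |lam i| ^ (s + 1 / 2))) (𝓝[>] 0)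
      (𝓝 (LTG.Bs s * ∑ i, |lam i| ^ (s + 1 / 2))) := by
    have := hcont.tendsto.mono_left (nhdsWithin_le_nhds (s := Ioi (0 : ℝ)))
    simpa using this
  refine le_of_tendsto hlim ?_
  filter_upwards [Ioo_mem_nhdsGT (zero_lt_one' ℝ)] with t ht
  exact real_step hDIL hNICE hFUN hs0 hs1 hVm hVp hint hH horth hform hneg hmono ht.1 ht.2

end MAIN

/-- **Module MAIN.** -/
theorem main_ub (hDIL : S_DIL) (hNICE : S_NICE) (hREAL : S_REAL) (hFUN : S_FUN) : S_MAIN := by
  intro s n m W lam u g hs0 hs1 hW hneg hb horth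
  obtain ⟨V, U, G, hVm, hVp, htp, hint, hH, hO, hF⟩ := hREAL s n m W lam u g hs0 hW hb horth
  -- sorting
  set f0 : Fin (n * 2) → ℝ := fun i => lam (finProdFinEquiv.symm i).1 with hf0
  set e : Fin (n * 2) ≃ Fin n × Fin 2 := (Tuple.sort f0).trans finProdFinEquiv.symm with he
  have hmono : Monotone fun i => lam (e i).1 := Tuple.monotone_sort f0
  have h := MAIN.real_case hDIL hNICE hFUN (u := fun i => U (e i)) (g := fun i => G (e i))
    (lam := fun i => lam (e i).1) hs0 hs1 hVm hVp hint (fun i => hH (e i))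
    (fun p r => by rw [hO]; simp [e.injective.eq_iff])
    (fun p r => by rw [hF]; simp [e.injective.eq_iff])
    (fun p => hneg _) hmono
  have e1 : ∑ i, |lam (e i).1| ^ (s + 1 / 2) = 2 * ∑ j, |lam j| ^ (s + 1 / 2) := by
    rw [Equiv.sum_comp e (fun p : Fin n × Fin 2 => |lam p.1| ^ (s + 1 / 2)),
      Fintype.sum_prod_type]
    simp [Finset.mul_sum]
  have e2 : ∫ x, LTG.tp (1 + s) (toC (V x)) = 2 * ∫ x, LTM.trPow (1 + s) (W x) := by
    simp_rw [htp]
    rw [integral_const_mul]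
  rw [e1, e2] at h
  nlinarith

end LTH
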