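import Vale.Agent.P371H.RealAlg
import Vale.Agent.P371.GLtup

/-! # P371H, module REAL: realification of complex bound states -/

namespace LTH.REAL

open Matrix Set Filter MeasureTheory
open scoped ComplexOrder Topology ComplexConjugate

variable {m n : ℕ}

/-- `1` and `i` -/
def zz (t : Fin 2) : ℂ := if t = 0 then 1 else Complex.I

lemma zz_re (t t' : Fin 2) (r : ℝ) : (zz t * conj (zz t') * (r : ℂ)).re = if t = t' then r else 0 := by
  fin_cases t <;> fin_cases t' <;> simp [zz]

/-- multiply by a phase -/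
def zs (z : ℂ) (f : ℝ → Fin m → ℂ) : ℝ → Fin m → ℂ := fun x c => z * f x c

lemma pair_zs (z w : ℂ) (f h : ℝ → Fin m → ℂ) (x : ℝ) :
    LTM.pair (zs z f x) (zs w h x) = z * conj w * LTM.pair (f x) (h x) := by
  simp only [LTM.pair, zs, map_mul, Finset.mul_sum]
  exact Finset.sum_congr rfl fun c _ => by ring

lemma mulVec_zs (A : Matrix (Fin m) (Fin m) ℂ) (z : ℂ) (f : ℝ → Fin m → ℂ) (x : ℝ) :
    A.mulVec (zs z f x) = fun c => z * A.mulVec (f x) c := by
  funext c
  simp only [mulVec, dotProduct, zs, Finset.mul_sum]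
  exact Finset.sum_congr rfl fun d _ => by ring

lemma pair_herm {A : Matrix (Fin m) (Fin m) ℂ} (hA : A.IsHermitian) (v w : Fin m → ℂ) :
    LTM.pair v (A.mulVec w) = LTM.pair (A.mulVec v) w := by
  simp only [LTM.pair, mulVec, dotProduct, map_sum, map_mul, Finset.mul_sum, Finset.sum_mul]
  rw [Finset.sum_comm]
  refine Finset.sum_congr rfl fun c _ => Finset.sum_congr rfl fun d _ => ?_
  have : conj (A d c) = A c d := hA.apply c d
  rw [this]
  ring

lemma memLp_zs {z : ℂ} {f : ℝ → Fin m → ℂ} (hf : ∀ c, MemLp (fun x => f x c) 2 volume) (c : Fin m) :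
    MemLp (fun x => zs z f x c) 2 volume := (hf c).const_mul z

lemma memLp_rv {f : ℝ → Fin m → ℂ} (hf : ∀ c, MemLp (fun x => f x c) 2 volume)
    (b : Fin (m + m)) : MemLp (fun x => rv (f x) b) 2 volume := by
  obtain ⟨b, rfl⟩ := finSumFinEquiv.surjective b
  rcases b with c | c
  · simp only [rv_inl]; exact (hf c).re
  · simp only [rv_inr]; exact (hf c).im

lemma isH1R_rv {f h : ℝ → Fin m → ℂ} (H : LTM.IsH1 f h) (z : ℂ) :
    IsH1R (fun x => rv (zs z f x)) (fun x => rv (zs z h x)) := by
  refine ⟨fun b => memLp_rv (memLp_zs H.memLp) b, fun b => memLp_rv (memLp_zs H.memLp') b,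
    fun b x y => ?_⟩
  obtain ⟨b, rfl⟩ := finSumFinEquiv.surjective b
  have hint : ∀ c, IntervalIntegrable (fun t => zs z h t c) volume x y := fun c =>
    (((memLp_zs (z := z) H.memLp' c).locallyIntegrable one_le_two).integrableOn_isCompact
      isCompact_uIcc).intervalIntegrable
  have hftc : ∀ c, zs z f y c - zs z f x c = ∫ t in x..y, zs z h t c := by
    intro c
    simp only [zs]
    rw [intervalIntegral.integral_const_mul, ← H.ftc c x y]
    ring
  rcases b with c | c
  · simp only [rv_inl]
    rw [← Complex.sub_re, hftc]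
    exact (Complex.reCLM.intervalIntegral_comp_comm (hint c)).symm
  · simp only [rv_inr]
    rw [← Complex.sub_im, hftc]
    exact (Complex.imCLM.intervalIntegral_comp_comm (hint c)).symm

lemma integrable_pair {f h : ℝ → Fin m → ℂ} (hf : ∀ c, MemLp (fun x => f x c) 2 volume)
    (hh : ∀ c, MemLp (fun x => h x c) 2 volume) :
    Integrable fun x => LTM.pair (f x) (h x) := by
  simp only [LTM.pair]
  exact integrable_finsetSum _ fun c _ => Vale.P371.integrable_mul_conj (hf c) (hh c)

lemma sum_integral_rv {f h : ℝ → Fin m → ℂ} (hf : ∀ c, MemLp (fun x => f x c) 2 volume)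
    (hh : ∀ c, MemLp (fun x => h x c) 2 volume) (z w : ℂ) :
    ∑ b, ∫ x, rv (zs z f x) b * rv (zs w h x) b
      = (z * conj w * ∫ x, LTM.pair (f x) (h x)).re := by
  have hi : ∀ b, Integrable fun x => rv (zs z f x) b * rv (zs w h x) b := fun b =>
    (memLp_rv (memLp_zs hf) b).integrable_mul (memLp_rv (memLp_zs hh) b)
  rw [← integral_finsetSum _ fun b _ => hi b]
  have e : ∀ x, ∑ b, rv (zs z f x) b * rv (zs w h x) b
      = (z * conj w * LTM.pair (f x) (h x)).re := by
    intro x
    rw [← pair_zs, ← rv_dot]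
    rfl
  simp only [e]
  rw [← integral_const_mul]
  exact integral_re ((integrable_pair hf hh).const_mul _)

lemma integrable_form {s : ℝ} (hs : 0 < s) {W : ℝ → Matrix (Fin m) (Fin m) ℂ}
    (hW : LTM.IsPotential (s + 1 / 2) W) {u g : Fin n → ℝ → Fin m → ℂ}
    (h : ∀ j, LTM.IsH1 (u j) (g j)) (j : Fin n) :
    Integrable fun x => (LTM.pair ((W x).mulVec (u j x)) (u j x)).re := by
  have e0 : s + 1 / 2 + 1 / 2 = s + 1 := by ring
  have i1 : Integrable fun x => s ^ s / (s + 1) ^ (s + 1) * LTM.trPow (s + 1) (W x) := by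
    have := hW.integrable
    rw [e0] at this
    exact this.const_mul _
  have i2 := LTG.Up.integrable_specSum hs (LTM.fam_swap h)
  have hdom := i1.add i2
  have hz : (fun t : ℝ => t ^ (1 + 1 / s)) 0 = 0 := by
    have : 0 < 1 / s := by positivity
    exact Real.zero_rpow (by linarith)
  have hpt : ∀ x, ∑ j, (LTM.pair ((W x).mulVec (u j x)) (u j x)).re
      ≤ s ^ s / (s + 1) ^ (s + 1) * LTM.trPow (s + 1) (W x)
        + LTM.specSum (fun t => t ^ (1 + 1 / s)) (Vale.P371.Xm (LTM.swap u) x) := by
    intro x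
    have := LTG.Up.dual_pointwise hs (hW.posSemidef x) (LTM.Rm_posSemidef u x)
    rw [← Complex.re_sum, LTM.sum_pair_eq, LTG.Up.specSum_Xm hz]
    exact this
  refine hdom.mono (Complex.continuous_re.comp_aestronglyMeasurable
    (LTM.aesm_pair hW.measurable h j)) (Eventually.of_forall fun x => ?_)
  have h0 := LTM.pair_nonneg (hW.posSemidef x) (u j x)
  rw [Real.norm_of_nonneg h0, Real.norm_eq_abs]
  refine le_trans ?_ (le_abs_self _)
  refine le_trans ?_ (hpt x)
  exact Finset.single_le_sum (f := fun j => (LTM.pair ((W x).mulVec (u j x)) (u j x)).re)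
    (fun i _ => LTM.pair_nonneg (hW.posSemidef x) (u i x)) (Finset.mem_univ j)

/-- off-diagonal bound -/
lemma abs_pair_le {A : Matrix (Fin m) (Fin m) ℂ} (hA : A.PosSemidef) (v w : Fin m → ℂ) :
    ‖LTM.pair (A.mulVec v) w‖
      ≤ (LTM.pair (A.mulVec v) v).re + (LTM.pair (A.mulVec w) w).re := by
  have key : ∀ z : ℂ, conj z * z = 1 →
      2 * (conj z * LTM.pair (A.mulVec v) w).re
        ≤ (LTM.pair (A.mulVec v) v).re + (LTM.pair (A.mulVec w) w).re := by
    intro z hz
    have h := LTM.pair_nonneg hA (fun c => v c - z * w c)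
    have e : LTM.pair (A.mulVec fun c => v c - z * w c) (fun c => v c - z * w c)
        = LTM.pair (A.mulVec v) v + conj z * z * LTM.pair (A.mulVec w) w
          - (conj z * LTM.pair (A.mulVec v) w + conj (conj z * LTM.pair (A.mulVec v) w)) := by
      have e1 : (A.mulVec fun c => v c - z * w c) = fun c => A.mulVec v c - z * A.mulVec w c := by
        funext c
        simp only [mulVec, dotProduct, mul_sub, Finset.sum_sub_distrib, Finset.mul_sum]
        congr 1
        exact Finset.sum_congr rfl fun d _ => by ring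
      have e2 : conj (LTM.pair (A.mulVec v) w) = LTM.pair (A.mulVec w) v := by
        rw [← pair_conj, pair_herm hA.isHermitian]
      rw [e1, map_mul, e2, Complex.conj_conj]
      simp only [LTM.pair, map_sub, map_mul, Finset.mul_sum]
      rw [← Finset.sum_add_distrib, ← Finset.sum_add_distrib, ← Finset.sum_sub_distrib]
      exact Finset.sum_congr rfl fun c _ => by ring
    rw [e, hz, one_mul, Complex.sub_re, Complex.add_re, Complex.add_re, Complex.conj_re] at h
    linarith
  have k1 := key 1 (by simp)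
  have k2 := key (-1) (by simp)
  have k3 := key Complex.I (by simp)
  have k4 := key (-Complex.I) (by simp)
  simp only [map_one, one_mul, map_neg, neg_mul, Complex.neg_re, Complex.conj_I, Complex.mul_re,
    Complex.I_re, Complex.I_im, zero_mul, zero_sub, neg_neg] at k1 k2 k3 k4
  refine (Complex.norm_le_abs_re_add_abs_im _).trans ?_
  have a1 : |(LTM.pair (A.mulVec v) w).re| ≤ ((LTM.pair (A.mulVec v) v).re
      + (LTM.pair (A.mulVec w) w).re) / 2 := abs_le.mpr ⟨by linarith, by linarith⟩
  have a2 : |(LTM.pair (A.mulVec v) w).im| ≤ ((LTM.pair (A.mulVec v) v).re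
      + (LTM.pair (A.mulVec w) w).re) / 2 := abs_le.mpr ⟨by linarith, by linarith⟩
  linarith

lemma integrable_off {s : ℝ} (hs : 0 < s) {W : ℝ → Matrix (Fin m) (Fin m) ℂ}
    (hW : LTM.IsPotential (s + 1 / 2) W) {u g : Fin n → ℝ → Fin m → ℂ}
    (h : ∀ j, LTM.IsH1 (u j) (g j)) (i j : Fin n) :
    Integrable fun x => LTM.pair ((W x).mulVec (u i x)) (u j x) := by
  refine ((integrable_form hs hW h i).add (integrable_form hs hW h j)).mono' ?_
    (Eventually.of_forall fun x => abs_pair_le (hW.posSemidef x) _ _)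
  simp only [LTM.pair, mulVec, dotProduct]
  refine Finset.aestronglyMeasurable_fun_sum _ fun c _ => ?_
  refine (Finset.aestronglyMeasurable_fun_sum _ fun d _ => ?_).mul
    (Complex.continuous_conj.comp_aestronglyMeasurable ((h j).memLp c).1)
  exact (hW.measurable c d).aestronglyMeasurable.mul ((h i).memLp d).1

end LTH.REAL

namespace LTH

open Matrix Set Filter MeasureTheory REAL
open scoped ComplexOrder Topology ComplexConjugate

theorem real : S_REAL := by
  intro s n m W lam u g hs hW hb ho
  have h : ∀ j, LTM.IsH1 (u j) (g j) := fun j => (hb j).isH1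
  have e0 : s + 1 / 2 + 1 / 2 = 1 + s := by ring
  have htp : ∀ x, LTG.tp (1 + s) (toC (rm (W x))) = 2 * LTM.trPow (1 + s) (W x) := fun x =>
    tp_rm (1 + s) (hW.posSemidef x).isHermitian
  refine ⟨fun x => rm (W x), fun p x => rv (zs (zz p.2) (u p.1) x),
    fun p x => rv (zs (zz p.2) (g p.1) x), ?_, fun x => rm_posSemidef (hW.posSemidef x), htp, ?_,
    fun p => isH1R_rv (h p.1) _, ?_, ?_⟩
  · intro c d
    obtain ⟨c, rfl⟩ := finSumFinEquiv.surjective c
    obtain ⟨d, rfl⟩ := finSumFinEquiv.surjective d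
    rcases c with c | c <;> rcases d with d | d <;>
      simp only [rm, submatrix_apply, Equiv.symm_apply_apply, bm, fromBlocks_apply₁₁,
        fromBlocks_apply₁₂, fromBlocks_apply₂₁, fromBlocks_apply₂₂, map_apply, Matrix.neg_apply]
    · exact Complex.measurable_re.comp (hW.measurable c d)
    · exact (Complex.measurable_im.comp (hW.measurable c d)).neg
    · exact Complex.measurable_im.comp (hW.measurable c d)
    · exact Complex.measurable_re.comp (hW.measurable c d)
  · simp only [htp]
    have := hW.integrable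
    rw [e0] at this
    exact this.const_mul 2
  · intro p r
    rw [sum_integral_rv (h p.1).memLp (h r.1).memLp, ho p.1 r.1]
    by_cases h1 : p.1 = r.1
    · rw [if_pos h1]
      have := zz_re p.2 r.2 1
      rw [Complex.ofReal_one] at this
      rw [this]
      by_cases h2 : p.2 = r.2
      · rw [if_pos h2, if_pos (Prod.ext h1 h2)]
      · rw [if_neg h2, if_neg (fun h3 => h2 (congrArg Prod.snd h3))]
    · rw [if_neg h1, if_neg (fun h3 => h1 (congrArg Prod.fst h3)), mul_zero, Complex.zero_re]
  · intro p r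
    have e1 : ∀ x, rv (zs (zz p.2) (u p.1) x) ⬝ᵥ (rm (W x)).mulVec (rv (zs (zz r.2) (u r.1) x))
        = (zz p.2 * conj (zz r.2) * LTM.pair ((W x).mulVec (u p.1 x)) (u r.1 x)).re := by
      intro x
      rw [rm_mulVec, rv_dot, pair_herm (hW.posSemidef x).isHermitian, mulVec_zs]
      congr 1
      exact pair_zs _ _ (fun x => (W x).mulVec (u p.1 x)) (u r.1) x
    simp only [e1]
    rw [sum_integral_rv (h p.1).memLp' (h r.1).memLp']
    have e2 : ∫ x, (zz p.2 * conj (zz r.2) * LTM.pair ((W x).mulVec (u p.1 x)) (u r.1 x)).re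
        = (zz p.2 * conj (zz r.2) * ∫ x, LTM.pair ((W x).mulVec (u p.1 x)) (u r.1 x)).re := by
      rw [← integral_const_mul]
      exact integral_re ((integrable_off hs hW h p.1 r.1).const_mul _)
    rw [e2, ← Complex.sub_re, ← mul_sub, (hb p.1).eqn (u r.1) (g r.1) (h r.1), ho p.1 r.1]
    by_cases h1 : p.1 = r.1
    · rw [if_pos h1, mul_one, zz_re]
      by_cases h2 : p.2 = r.2
      · rw [if_pos h2, if_pos (Prod.ext h1 h2)]
      · rw [if_neg h2, if_neg (fun h3 => h2 (congrArg Prod.snd h3))]
    · rw [if_neg h1, if_neg (fun h3 => h1 (congrArg Prod.fst h3)), mul_zero, mul_zero,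
        Complex.zero_re]

end LTH
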