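import Vale.Agent.P371H.FunAll
import Vale.Agent.P371.GPow
import Vale.Agent.P371.GArg

/-! # The verification step at fixed `K = k²` -/

namespace Vale.P371H

open MeasureTheory Set Filter Matrix
open scoped Topology ComplexOrder ComplexConjugate

variable {n : ℕ}

lemma tp_smul {A : Matrix (Fin n) (Fin n) ℂ} (hA : A.PosSemidef) {c : ℝ} (hc : 0 ≤ c) (p : ℝ) :
    LTG.tp p ((c : ℂ) • A) = c ^ p * LTG.tp p A := by
  have hH := hA.isHermitian
  have hcA : ((c : ℂ) • A).IsHermitian := by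
    rw [Matrix.IsHermitian, conjTranspose_smul, hH.eq]
    simp
  rw [Vale.P371G.tp_eq hcA, Vale.P371G.tp_eq hH]
  have e : ((c : ℂ) • A) = c • A := by
    ext i j
    simp
  rw [e]
  have h1 : Vale.P371G.mpow p (c • A) = c ^ p • Vale.P371G.mpow p A := by
    unfold Vale.P371G.mpow
    have hsa : IsSelfAdjoint A := hH
    have h2 : cfc (fun x : ℝ => x ^ p) (c • A) = cfc (fun x : ℝ => (c • x) ^ p) A := by
      refine (cfc_comp_smul c (fun x : ℝ => x ^ p) A ?_ hsa).symm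
      exact (Set.Finite.continuousOn ((Matrix.finite_real_spectrum (A := A)).image _) _)
    rw [h2, ← cfc_smul (c ^ p) (fun x : ℝ => x ^ p) A
      (Set.Finite.continuousOn (Matrix.finite_real_spectrum (A := A)) _)]
    refine cfc_congr fun x hx => ?_
    have hx0 : 0 ≤ x := by
      rw [hH.spectrum_real_eq_range_eigenvalues] at hx
      obtain ⟨i, rfl⟩ := hx
      exact hA.eigenvalues_nonneg i
    simp only [smul_eq_mul]
    exact Real.mul_rpow hc hx0
  rw [h1]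
  unfold Vale.P371G.rt
  rw [Matrix.trace_smul, Complex.smul_re, smul_eq_mul]

/-- the constant `s^s / (1+s)^(1+s)` -/
noncomputable def cs (s : ℝ) : ℝ := s ^ s / (1 + s) ^ (1 + s)

lemma cs_eq {s : ℝ} (h0 : 0 < s) : 1 / s * (s / (1 + s)) ^ (1 + s) = cs s := by
  have h1 : 0 < 1 + s := by linarith
  unfold cs
  rw [Real.div_rpow h0.le h1.le, Real.rpow_add h0 1 s, Real.rpow_one]
  field_simp

/-- convexity of the domain in `Q` -/
lemma dom_seg {Q Q' k : Matrix (Fin n) (Fin n) ℂ} (h : LTG.Dom Q k) (h' : LTG.Dom Q' k) {θ : ℝ}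
    (hθ : θ ∈ Icc (0 : ℝ) 1) : LTG.Dom (Q + (θ : ℂ) • (Q' - Q)) k := by
  have c1 : (0 : ℂ) ≤ ((1 - θ : ℝ) : ℂ) := by
    rw [Complex.zero_le_real]; linarith [hθ.2]
  have c2 : (0 : ℂ) ≤ (θ : ℂ) := by
    rw [Complex.zero_le_real]; exact hθ.1
  constructor
  · have e : Q + (θ : ℂ) • (Q' - Q) = ((1 - θ : ℝ) : ℂ) • Q + (θ : ℂ) • Q' := by
      push_cast; module
    rw [e]
    exact (h.1.smul c1).add (h'.1.smul c2)
  · have e : (2 : ℂ) • k - (Q + (θ : ℂ) • (Q' - Q))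
        = ((1 - θ : ℝ) : ℂ) • ((2 : ℂ) • k - Q) + (θ : ℂ) • ((2 : ℂ) • k - Q') := by
      push_cast; module
    rw [e]
    rcases hθ.1.eq_or_lt with h0 | h0
    · rw [← h0]
      simpa using h.2
    · refine PosDef.posSemidef_add (h.2.posSemidef.smul c1) ?_
      refine h'.2.smul ?_
      rw [Complex.zero_lt_real]; exact h0

/-- the pointwise Hamilton-Jacobi bound -/
lemma hj_bound {s : ℝ} (h0 : 0 < s) (C : LTG.Fun s (Fin n)) {Q k X : Matrix (Fin n) (Fin n) ℂ}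
    (hD : LTG.Dom Q k) (hX : X.PosSemidef) :
    (((X - LTG.Am Q k) * C.B Q k).trace).re ≤ cs s * LTG.tp (1 + s) X := by
  have h1 : 0 < 1 + s := by linarith
  set t : ℝ := s / (1 + s) with ht
  have ht0 : 0 < t := by positivity
  have hc : (0 : ℂ) ≤ (t : ℂ) := by rw [Complex.zero_le_real]; exact ht0.le
  have h := C.HJ Q k ((t : ℂ) • X) hD (hX.smul hc)
  rw [tp_smul hX ht0.le, Matrix.mul_smul, Matrix.trace_smul, smul_eq_mul,
    Complex.re_ofReal_mul] at h
  have e1 : (1 + 1 / s) * (t * ((C.B Q k * X).trace).re) = ((C.B Q k * X).trace).re := by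
    rw [ht]; field_simp; ring
  rw [e1, ← mul_assoc, cs_eq h0] at h
  rw [Matrix.sub_mul, Matrix.trace_sub, Complex.sub_re, Matrix.trace_mul_comm X,
    Matrix.trace_mul_comm (LTG.Am Q k)]
  linarith

/-- the slope of `G` along the path -/
lemma slope_ev {s : ℝ} (h0 : 0 < s) (C : LTG.Fun s (Fin n)) {k : Matrix (Fin n) (Fin n) ℂ}
    {Q X : ℝ → Matrix (Fin n) (Fin n) ℂ} {a b : ℝ}
    (hX : ∀ x, (X x).PosSemidef)
    (hD : ∀ x ∈ Icc a b, LTG.Dom (Q x) k) (hQc : ContinuousOn Q (Icc a b))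
    {x : ℝ} (hx : x ∈ Ico a b)
    (hQ : ∀ i j,
      HasDerivWithinAt (fun x => Q x i j) ((X x - LTG.Am (Q x) k) i j) (Ici x) x)
    {r : ℝ} (hr : cs s * LTG.tp (1 + s) (X x) < r) :
    ∀ᶠ z in 𝓝[>] x, slope (fun x => C.G (Q x) k) x z < r := by
  have hxI : x ∈ Icc a b := ⟨hx.1, hx.2.le⟩
  have hDx := hD x hxI
  -- points to the right of `x`
  have hev : ∀ᶠ z in 𝓝[>] x, z ∈ Icc a b := by
    filter_upwards [Ioc_mem_nhdsGT hx.2] with z hz
    exact ⟨hx.1.trans hz.1.le, hz.2⟩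
  have hth : ∀ z, ∃ θ : ℝ, θ ∈ Icc (0 : ℝ) 1 ∧ (z ∈ Icc a b →
      C.G (Q z) k - C.G (Q x) k
        ≤ (((Q z - Q x) * C.B (Q x + (θ : ℂ) • (Q z - Q x)) k).trace).re) := by
    intro z
    by_cases hz : z ∈ Icc a b
    · obtain ⟨θ, h1, h2⟩ := C.G_mvt (Q x) (Q z) k hDx (hD z hz)
      exact ⟨θ, h1, fun _ => h2⟩
    · exact ⟨0, ⟨le_rfl, zero_le_one⟩, fun h => absurd h hz⟩
  choose θ hθ1 hθ2 using hth
  -- the slope of `Q`
  have hsl : Tendsto (fun z => (((z - x)⁻¹ : ℝ) : ℂ) • (Q z - Q x)) (𝓝[>] x)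
      (𝓝 (X x - LTG.Am (Q x) k)) := by
    refine tendsto_pi_nhds.mpr fun i => tendsto_pi_nhds.mpr fun j => ?_
    have h1 := hasDerivWithinAt_iff_tendsto_slope.mp (hQ i j)
    have h2 : Tendsto (slope (fun x => Q x i j) x) (𝓝[>] x)
        (𝓝 ((X x - LTG.Am (Q x) k) i j)) :=
      h1.mono_left (nhdsWithin_mono x fun z hz =>
        ⟨le_of_lt (show x < z from hz), ne_of_gt (show x < z from hz)⟩)
    refine h2.congr fun z => ?_
    rw [slope_def_module, Matrix.smul_apply, Matrix.sub_apply, smul_eq_mul]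
    rw [Complex.real_smul]
  -- convergence of `Q`
  have hQt : Tendsto Q (𝓝[>] x) (𝓝 (Q x)) := by
    have h1 : Tendsto Q (𝓝[Icc a b] x) (𝓝 (Q x)) := hQc x hxI
    refine h1.mono_left ?_
    rw [nhdsWithin_le_iff]
    exact hev
  have hPt : Tendsto (fun z => Q x + ((θ z : ℝ) : ℂ) • (Q z - Q x)) (𝓝[>] x) (𝓝 (Q x)) := by
    refine tendsto_pi_nhds.mpr fun i => tendsto_pi_nhds.mpr fun j => ?_
    have h1 : Tendsto (fun z => Q z i j - Q x i j) (𝓝[>] x) (𝓝 0) := by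
      have := ((tendsto_pi_nhds.mp (tendsto_pi_nhds.mp hQt i)) j).sub_const (Q x i j)
      simpa using this
    have h2 : Tendsto (fun z => ((θ z : ℝ) : ℂ) * (Q z i j - Q x i j)) (𝓝[>] x) (𝓝 0) := by
      refine squeeze_zero_norm (fun z => ?_) (tendsto_zero_iff_norm_tendsto_zero.mp h1)
      rw [norm_mul, Complex.norm_real, Real.norm_eq_abs, abs_of_nonneg (hθ1 z).1]
      exact mul_le_of_le_one_left (norm_nonneg _) (hθ1 z).2
    have h3 := h2.const_add (Q x i j)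
    rw [add_zero] at h3
    exact h3
  have hBt : Tendsto (fun z => C.B (Q x + ((θ z : ℝ) : ℂ) • (Q z - Q x)) k) (𝓝[>] x)
      (𝓝 (C.B (Q x) k)) := by
    have h1 : ContinuousWithinAt (fun p : Matrix (Fin n) (Fin n) ℂ × Matrix (Fin n) (Fin n) ℂ =>
        C.B p.1 p.2) {p | LTG.Dom p.1 p.2} (Q x, k) := C.B_cont (Q x, k) hDx
    have h2 : Tendsto (fun z => (Q x + ((θ z : ℝ) : ℂ) • (Q z - Q x), k)) (𝓝[>] x)
        (𝓝[{p | LTG.Dom p.1 p.2}] (Q x, k)) := by
      refine tendsto_nhdsWithin_iff.mpr ⟨hPt.prodMk_nhds tendsto_const_nhds, ?_⟩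
      filter_upwards [hev] with z hz
      exact dom_seg hDx (hD z hz) (hθ1 z)
    exact h1.tendsto.comp h2
  have hup : Tendsto (fun z => ((((((z - x)⁻¹ : ℝ) : ℂ) • (Q z - Q x))
      * C.B (Q x + ((θ z : ℝ) : ℂ) • (Q z - Q x)) k).trace).re) (𝓝[>] x)
      (𝓝 (((X x - LTG.Am (Q x) k) * C.B (Q x) k).trace).re) := by
    have c1 : Continuous fun q : Matrix (Fin n) (Fin n) ℂ × Matrix (Fin n) (Fin n) ℂ =>
        ((q.1 * q.2).trace).re := by fun_prop
    have h5 := (c1.tendsto (X x - LTG.Am (Q x) k, C.B (Q x) k)).comp (hsl.prodMk_nhds hBt)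
    simp only [Function.comp_def] at h5
    exact h5
  have hlt : (((X x - LTG.Am (Q x) k) * C.B (Q x) k).trace).re < r :=
    lt_of_le_of_lt (hj_bound h0 C hDx (hX x)) hr
  filter_upwards [hup.eventually_lt_const hlt, self_mem_nhdsWithin, hev] with z hz hxz hzI
  have hxz' : x < z := hxz
  have hp : 0 < (z - x)⁻¹ := inv_pos.mpr (by linarith)
  rw [slope_def_field, div_eq_inv_mul]
  refine lt_of_le_of_lt ?_ hz
  have h3 := hθ2 z hzI
  rw [Matrix.smul_mul, Matrix.trace_smul, smul_eq_mul, Complex.re_ofReal_mul]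
  exact mul_le_mul_of_nonneg_left h3 hp.le

/-- **Verification.** -/
theorem verif {s : ℝ} (h0 : 0 < s) (C : LTG.Fun s (Fin n)) {k : Matrix (Fin n) (Fin n) ℂ}
    {Q X : ℝ → Matrix (Fin n) (Fin n) ℂ} {a b η : ℝ} (hab : a ≤ b) (hη : 0 < η)
    (hX : ∀ x, (X x).PosSemidef) (hXc : Continuous X)
    (hD : ∀ x ∈ Icc a b, LTG.Dom (Q x) k) (hQc : ContinuousOn Q (Icc a b))
    (hQ : ∀ x ∈ Ico a b, ∀ i j,
      HasDerivWithinAt (fun x => Q x i j) ((X x - LTG.Am (Q x) k) i j) (Ici x) x)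
    (hQa : Q a = 0) (hQb : Q b = (2 : ℂ) • k - (η : ℂ) • 1) :
    LTG.Bs s * LTG.tp (2 * s + 1) k - η * LTG.tp (2 * s) k
      ≤ cs s * ∫ x in a..b, LTG.tp (1 + s) (X x) := by
  have htc : Continuous fun x => LTG.tp (1 + s) (X x) :=
    LTG.tpc n (1 + s) X (by linarith) hXc hX
  set S : ℝ → ℝ := fun x => C.G (Q x) k with hS
  set φ : ℝ → ℝ := fun x => cs s * LTG.tp (1 + s) (X x) with hφ
  have hφc : Continuous φ := continuous_const.mul htc
  have hSc : ContinuousOn S (Icc a b) := by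
    have h1 : ContinuousOn (fun x => (Q x, k)) (Icc a b) := hQc.prodMk continuousOn_const
    exact C.G_cont.comp h1 fun x hx => hD x hx
  have hmain : ∀ ⦃x⦄, x ∈ Icc a b → S x ≤ S a + ∫ t in a..x, φ t := by
    refine image_le_of_liminf_slope_right_le_deriv_boundary (f := S)
      (B := fun x => S a + ∫ t in a..x, φ t) (B' := φ) hSc ?_ ?_ ?_ ?_
    · simp
    · exact (continuous_const.add (intervalIntegral.continuous_primitive
        (fun _ _ => hφc.intervalIntegrable _ _) a)).continuousOn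
    · intro x _
      refine HasDerivAt.hasDerivWithinAt (HasDerivAt.const_add _ ?_)
      exact intervalIntegral.integral_hasDerivAt_right (hφc.intervalIntegrable _ _)
        (hφc.stronglyMeasurableAtFilter _ _) hφc.continuousAt
    · intro x hx r hr
      exact (slope_ev h0 C hX hD hQc hx (hQ x hx) hr).frequently
  have hend := hmain ⟨hab, le_rfl⟩
  have hDa := hD a ⟨le_rfl, hab⟩
  have hDb := hD b ⟨hab, le_rfl⟩
  have h1 : S a = 0 := by
    simp only [hS]
    rw [hQa]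
    exact C.G_zero k hDa.posDef
  have h2 := C.G_end (Q b) η hDb.1 hη
  have e : (1 / 2 : ℂ) • (Q b + (η : ℂ) • (1 : Matrix (Fin n) (Fin n) ℂ)) = k := by
    rw [hQb, sub_add_cancel, smul_smul]; norm_num
  rw [e] at h2
  rw [h1, zero_add] at hend
  have h3 : (∫ t in a..b, φ t) = cs s * ∫ x in a..b, LTG.tp (1 + s) (X x) := by
    simp only [hφ]
    rw [intervalIntegral.integral_const_mul]
  rw [h3] at hend
  linarith

end Vale.P371H
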