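import Vale.Agent.P371H.Defs
import Vale.Agent.P371H.Verif
import Vale.Agent.P371.GLtup

/-! # The verification step in the `M`-flow form -/

namespace LTH.VERIF

open Matrix Set Filter MeasureTheory Vale.P371H
open scoped ComplexOrder Topology ComplexConjugate

variable {n : ℕ}

lemma toC_apply {α β : Type*} (A : Matrix α β ℝ) (i : α) (j : β) : toC A i j = (A i j : ℂ) := rfl

lemma toC_mul (A B : Matrix (Fin n) (Fin n) ℝ) : toC (A * B) = toC A * toC B := by
  ext i j
  simp [toC, Matrix.mul_apply]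

lemma toC_add (A B : Matrix (Fin n) (Fin n) ℝ) : toC (A + B) = toC A + toC B := by
  ext i j
  simp [toC]

lemma toC_sub (A B : Matrix (Fin n) (Fin n) ℝ) : toC (A - B) = toC A - toC B := by
  ext i j
  simp [toC]

lemma toC_one : toC (1 : Matrix (Fin n) (Fin n) ℝ) = 1 := by
  ext i j
  by_cases h : i = j <;> simp [toC, h, Matrix.one_apply]

lemma toC_diagonal (d : Fin n → ℝ) : toC (diagonal d) = diagonal (fun i => (d i : ℂ)) := by
  ext i j
  by_cases h : i = j <;> simp [toC, h]

lemma toC_isHermitian {A : Matrix (Fin n) (Fin n) ℝ} (hA : A.IsHermitian) :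
    (toC A).IsHermitian := by
  ext i j
  have := congrFun (congrFun hA.eq i) j
  simp only [conjTranspose_apply, star_trivial] at this
  simp [toC, this]

/-- complexification of a real positive semidefinite matrix -/
lemma toC_posSemidef {A : Matrix (Fin n) (Fin n) ℝ} (hA : A.PosSemidef) :
    (toC A).PosSemidef := by
  refine PosSemidef.of_dotProduct_mulVec_nonneg (toC_isHermitian hA.isHermitian) fun z => ?_
  have hx := hA.dotProduct_mulVec_nonneg (fun i => (z i).re)
  have hy := hA.dotProduct_mulVec_nonneg (fun i => (z i).im)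
  have hsym : ∀ i j, A i j = A j i := by
    intro i j
    have := congrFun (congrFun hA.isHermitian.eq i) j
    simp only [conjTranspose_apply, star_trivial] at this
    exact this.symm
  rw [Complex.le_def]
  simp only [dotProduct, mulVec, Pi.star_apply, star_trivial, Finset.mul_sum] at hx hy ⊢
  constructor
  · have e : (∑ i, ∑ j, star (z i) * (toC A i j * z j)).re
        = (∑ i, ∑ j, (z i).re * (A i j * (z j).re)) + ∑ i, ∑ j, (z i).im * (A i j * (z j).im) := by
      rw [Complex.re_sum, ← Finset.sum_add_distrib]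
      refine Finset.sum_congr rfl fun i _ => ?_
      rw [Complex.re_sum, ← Finset.sum_add_distrib]
      refine Finset.sum_congr rfl fun j _ => ?_
      simp [toC, Complex.mul_re, Complex.mul_im]
    rw [e]
    simpa using add_nonneg hx hy
  · have e : (∑ i, ∑ j, star (z i) * (toC A i j * z j)).im
        = (∑ i, ∑ j, (z i).re * (A i j * (z j).im)) - ∑ i, ∑ j, (z i).im * (A i j * (z j).re) := by
      rw [Complex.im_sum, ← Finset.sum_sub_distrib]
      refine Finset.sum_congr rfl fun i _ => ?_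
      rw [Complex.im_sum, ← Finset.sum_sub_distrib]
      refine Finset.sum_congr rfl fun j _ => ?_
      simp [toC, Complex.mul_re, Complex.mul_im]
      ring
    have e2 : (∑ i, ∑ j, (z i).im * (A i j * (z j).re))
        = ∑ i, ∑ j, (z i).re * (A i j * (z j).im) := by
      rw [Finset.sum_comm]
      refine Finset.sum_congr rfl fun i _ => Finset.sum_congr rfl fun j _ => ?_
      rw [hsym j i]; ring
    rw [e, e2, sub_self]
    simp

lemma tp_diagonal (p : ℝ) (k : Fin n → ℝ) :
    LTG.tp p (diagonal (fun i => (k i : ℂ))) = ∑ i, k i ^ p := by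
  have hH : (diagonal (fun i => (k i : ℂ)) : Matrix (Fin n) (Fin n) ℂ).IsHermitian := by
    rw [← toC_diagonal]
    exact toC_isHermitian (by simp [Matrix.IsHermitian])
  have h := LTG.Up.specSum_eq_roots (fun x => x ^ p) hH
  have e : (diagonal (fun i => (k i : ℂ)) : Matrix (Fin n) (Fin n) ℂ).charpoly.roots
      = Finset.univ.val.map fun i => (k i : ℂ) := by
    rw [charpoly_diagonal]
    have e1 : ∏ i, (Polynomial.X - Polynomial.C ((k i : ℂ)))
        = ((Finset.univ.val.map fun i => (k i : ℂ)).map fun a =>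
          Polynomial.X - Polynomial.C a).prod := by
      rw [Multiset.map_map]; rfl
    rw [e1, Polynomial.roots_multiset_prod_X_sub_C]
  rw [e, Multiset.map_map] at h
  simp only [Function.comp_def, Complex.ofReal_re] at h
  exact h

/-- `Q = 2κ - M⁻¹` is in the domain -/
lemma dom_of {k : Fin n → ℝ} (hk : ∀ i, 0 < k i) {M : Matrix (Fin n) (Fin n) ℝ}
    (hM : (M - M0 k).PosSemidef) :
    (toC M).PosDef ∧
      LTG.Dom ((2 : ℂ) • diagonal (fun i => (k i : ℂ)) - (toC M)⁻¹)
        (diagonal (fun i => (k i : ℂ))) := by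
  set κ : Matrix (Fin n) (Fin n) ℂ := diagonal (fun i => (k i : ℂ)) with hκ
  set m0 : Matrix (Fin n) (Fin n) ℂ := toC (M0 k) with hm0
  have hm : m0 = diagonal (fun i => ((1 / (2 * k i) : ℝ) : ℂ)) := by
    rw [hm0, M0, toC_diagonal]
  have hm0pos : m0.PosDef := by
    rw [hm]
    refine PosDef.diagonal fun i => ?_
    rw [Complex.zero_lt_real]
    have := hk i
    positivity
  have hD := toC_posSemidef hM
  rw [toC_sub] at hD
  set D : Matrix (Fin n) (Fin n) ℂ := toC M - m0 with hDdef
  have hMC : toC M = m0 + D := by rw [hDdef]; abel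
  have hMpos : (toC M).PosDef := by
    rw [hMC]
    exact hm0pos.add_posSemidef hD
  refine ⟨hMpos, ?_, ?_⟩
  · have hu : IsUnit (toC M).det := (Matrix.isUnit_iff_isUnit_det _).mp hMpos.isUnit
    set N := (toC M)⁻¹ with hN
    have h1 : N * toC M = 1 := Matrix.nonsing_inv_mul _ hu
    have h2 : toC M * N = 1 := Matrix.mul_nonsing_inv _ hu
    have hmk : m0 * ((2 : ℂ) • κ) = 1 := by
      rw [hm, hκ, Matrix.mul_smul, diagonal_mul_diagonal, ← Matrix.diagonal_smul,
        ← Matrix.diagonal_one]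
      congr 1
      funext i
      have : (k i : ℂ) ≠ 0 := by exact_mod_cast (hk i).ne'
      simp only [Pi.smul_apply, smul_eq_mul]
      push_cast
      field_simp
    have hkm : ((2 : ℂ) • κ) * m0 = 1 := by
      rw [hm, hκ, Matrix.smul_mul, diagonal_mul_diagonal, ← Matrix.diagonal_smul,
        ← Matrix.diagonal_one]
      congr 1
      funext i
      have : (k i : ℂ) ≠ 0 := by exact_mod_cast (hk i).ne'
      simp only [Pi.smul_apply, smul_eq_mul]
      push_cast
      field_simp
    have hkpos : ((2 : ℂ) • κ).PosSemidef := by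
      rw [hκ, ← Matrix.diagonal_smul]
      refine PosSemidef.diagonal fun i => ?_
      simp only [Pi.smul_apply, smul_eq_mul]
      have : (2 : ℂ) * (k i : ℂ) = ((2 * k i : ℝ) : ℂ) := by push_cast; ring
      rw [this, Pi.zero_apply, Complex.zero_le_real]
      have := hk i
      positivity
    have hNH : N.IsHermitian := hMpos.inv.isHermitian
    have key : (2 : ℂ) • κ - N = N * (D + D * ((2 : ℂ) • κ) * D) * Nᴴ := by
      rw [hNH.eq]
      set c : Matrix (Fin n) (Fin n) ℂ := (2 : ℂ) • κ with hc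
      have e1 : D + D * c * D = toC M * c * toC M - toC M := by
        rw [hMC]
        have : (m0 + D) * c * (m0 + D)
            = m0 * c * m0 + m0 * c * D + D * (c * m0) + D * c * D := by noncomm_ring
        rw [this, hmk, hkm]
        noncomm_ring
      rw [e1]
      have e2 : N * (toC M * c * toC M - toC M) * N
          = (N * toC M) * c * (toC M * N) - (N * toC M) * N := by noncomm_ring
      rw [e2, h1, h2]
      simp
    rw [key]
    refine PosSemidef.mul_mul_conjTranspose_same ?_ N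
    refine hD.add ?_
    have := hkpos.mul_mul_conjTranspose_same D
    rwa [hD.isHermitian.eq] at this
  · have : (2 : ℂ) • κ - ((2 : ℂ) • κ - (toC M)⁻¹) = (toC M)⁻¹ := by abel
    rw [this]
    exact hMpos.inv

/-- continuity of the inverse within a set -/
lemma contWithin_inv {M : ℝ → Matrix (Fin n) (Fin n) ℂ} {S : Set ℝ} {x : ℝ}
    (hM : ContinuousWithinAt M S x) (hx : (M x).PosDef) :
    ContinuousWithinAt (fun y => (M y)⁻¹) S x := by
  have hdet : (M x).det ≠ 0 := hx.det_pos.ne'
  have h1 : ContinuousAt (Inv.inv : Matrix (Fin n) (Fin n) ℂ → _) (M x) := by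
    refine continuousAt_matrix_inv _ ?_
    rw [Ring.inverse_eq_inv']
    exact continuousAt_inv₀ hdet
  exact h1.comp_continuousWithinAt hM

/-- derivative of the inverse -/
lemma hasDeriv_inv {M : ℝ → Matrix (Fin n) (Fin n) ℂ} {M' : Matrix (Fin n) (Fin n) ℂ} {S : Set ℝ}
    {x : ℝ} (hxS : x ∈ S) (hd : ∀ i j, HasDerivWithinAt (fun y => M y i j) (M' i j) S x)
    (hpos : ∀ y ∈ S, (M y).PosDef) (i j : Fin n) :
    HasDerivWithinAt (fun y => (M y)⁻¹ i j) ((-((M x)⁻¹ * M' * (M x)⁻¹)) i j) S x := by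
  have hMc : ContinuousWithinAt M S x :=
    continuousWithinAt_pi.mpr fun i => continuousWithinAt_pi.mpr fun j =>
      (hd i j).continuousWithinAt
  have hNc := contWithin_inv hMc (hpos x hxS)
  rw [hasDerivWithinAt_iff_tendsto_slope]
  have hsl : Tendsto (fun y => (((y - x)⁻¹ : ℝ) : ℂ) • (M y - M x)) (𝓝[S \ {x}] x) (𝓝 M') := by
    refine tendsto_pi_nhds.mpr fun i => tendsto_pi_nhds.mpr fun j => ?_
    refine (hasDerivWithinAt_iff_tendsto_slope.mp (hd i j)).congr fun y => ?_
    rw [slope_def_module, Matrix.smul_apply, Matrix.sub_apply, smul_eq_mul, Complex.real_smul]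
  have hN : Tendsto (fun y => (M y)⁻¹) (𝓝[S \ {x}] x) (𝓝 (M x)⁻¹) :=
    hNc.tendsto.mono_left (nhdsWithin_mono _ sdiff_subset)
  have h1 : Tendsto (fun y => (-((M y)⁻¹ * ((((y - x)⁻¹ : ℝ) : ℂ) • (M y - M x)) * (M x)⁻¹)) i j)
      (𝓝[S \ {x}] x) (𝓝 ((-((M x)⁻¹ * M' * (M x)⁻¹)) i j)) := by
    have c1 : Continuous fun q : Matrix (Fin n) (Fin n) ℂ × Matrix (Fin n) (Fin n) ℂ =>
        (-(q.1 * q.2 * (M x)⁻¹)) i j := by fun_prop
    have h5 := (c1.tendsto ((M x)⁻¹, M')).comp (hN.prodMk_nhds hsl)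
    simp only [Function.comp_def] at h5
    exact h5
  refine h1.congr' ?_
  filter_upwards [self_mem_nhdsWithin] with y hy
  have hu1 : IsUnit (M y).det := (Matrix.isUnit_iff_isUnit_det _).mp (hpos y hy.1).isUnit
  have hu2 : IsUnit (M x).det := (Matrix.isUnit_iff_isUnit_det _).mp (hpos x hxS).isUnit
  have a1 : (M y)⁻¹ * M y = 1 := Matrix.nonsing_inv_mul _ hu1
  have a2 : M x * (M x)⁻¹ = 1 := Matrix.mul_nonsing_inv _ hu2
  have e : -((M y)⁻¹ * ((((y - x)⁻¹ : ℝ) : ℂ) • (M y - M x)) * (M x)⁻¹)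
      = (((y - x)⁻¹ : ℝ) : ℂ) • ((M y)⁻¹ - (M x)⁻¹) := by
    rw [Matrix.mul_smul, Matrix.smul_mul, ← smul_neg]
    congr 1
    have : (M y)⁻¹ * (M y - M x) * (M x)⁻¹
        = ((M y)⁻¹ * M y) * (M x)⁻¹ - (M y)⁻¹ * (M x * (M x)⁻¹) := by noncomm_ring
    rw [this, a1, a2]
    simp
  rw [e, slope_def_module, Matrix.smul_apply, Matrix.sub_apply, smul_eq_mul, Complex.real_smul]

theorem verifR : S_VERIF := by
  intro s n k a η X M h0 h1 hF hk ha hη hXc hX hMa hMb hd hpsd
  obtain ⟨C⟩ := hF
  have hab : -a ≤ a := by linarith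
  set κ : Matrix (Fin n) (Fin n) ℂ := diagonal (fun i => (k i : ℂ)) with hκ
  have hdom := fun x (hx : x ∈ Icc (-a) a) => dom_of hk (hpsd x hx)
  set Q : ℝ → Matrix (Fin n) (Fin n) ℂ := fun x => (2 : ℂ) • κ - (toC (M x))⁻¹ with hQdef
  have hdC : ∀ x ∈ Icc (-a) a, ∀ i j, HasDerivWithinAt (fun y => toC (M y) i j)
      (toC (rhs k (M x) (X x) (M x)) i j) (Icc (-a) a) x := fun x hx i j =>
    (hd x hx i j).ofReal_comp
  have hdI := fun x (hx : x ∈ Icc (-a) a) =>
    hasDeriv_inv hx (hdC x hx) (fun y hy => (hdom y hy).1)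
  have hQd : ∀ x ∈ Icc (-a) a, ∀ i j, HasDerivWithinAt (fun y => Q y i j)
      ((toC (X x) - LTG.Am (Q x) κ) i j) (Icc (-a) a) x := by
    intro x hx i j
    have h2 := (hdI x hx i j).const_sub (((2 : ℂ) • κ) i j)
    have hu : IsUnit (toC (M x)).det :=
      (Matrix.isUnit_iff_isUnit_det _).mp (hdom x hx).1.isUnit
    set N := (toC (M x))⁻¹ with hN
    have a1 : N * toC (M x) = 1 := Matrix.nonsing_inv_mul _ hu
    have a2 : toC (M x) * N = 1 := Matrix.mul_nonsing_inv _ hu
    have hr : toC (rhs k (M x) (X x) (M x))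
        = 1 - κ * toC (M x) - toC (M x) * κ + toC (M x) * toC (X x) * toC (M x) := by
      simp only [rhs, toC_add, toC_sub, toC_mul, toC_one, toC_diagonal, hκ]
    have e : N * toC (rhs k (M x) (X x) (M x)) * N = toC (X x) - LTG.Am (Q x) κ := by
      rw [hr]
      have e1 : N * (1 - κ * toC (M x) - toC (M x) * κ + toC (M x) * toC (X x) * toC (M x)) * N
          = N * N - N * κ * (toC (M x) * N) - (N * toC (M x)) * κ * N
            + (N * toC (M x)) * toC (X x) * (toC (M x) * N) := by noncomm_ring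
      rw [e1, a1, a2]
      simp only [LTG.Am, hQdef, ← hN, mul_one, one_mul]
      simp only [Matrix.mul_sub, Matrix.sub_mul, Matrix.mul_smul, Matrix.smul_mul]
      module
    have e3 : -((-(N * toC (rhs k (M x) (X x) (M x)) * N)) i j)
        = (toC (X x) - LTG.Am (Q x) κ) i j := by
      rw [e, Matrix.neg_apply, neg_neg]
    rw [e3] at h2
    exact h2
  have hXC : Continuous fun x => toC (X x) :=
    continuous_pi fun i => continuous_pi fun j => Complex.continuous_ofReal.comp (hXc i j)
  have hv := verif h0 C (k := κ) (Q := Q) (X := fun x => toC (X x)) (η := η) hab hη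
    (fun x => toC_posSemidef (hX x)) hXC (fun x hx => (hdom x hx).2)
    (fun x hx => continuousWithinAt_pi.mpr fun i => continuousWithinAt_pi.mpr fun j =>
      (hQd x hx i j).continuousWithinAt)
    (fun x hx i j => ?_) ?_ ?_
  · rw [hκ, tp_diagonal, tp_diagonal] at hv
    exact hv
  · have h2 := hQd x ⟨hx.1, hx.2.le⟩ i j
    have h3 : HasDerivWithinAt (fun y => Q y i j) ((toC (X x) - LTG.Am (Q x) κ) i j)
        (Icc x a) x := h2.mono (Icc_subset_Icc hx.1 le_rfl)
    exact h3.mono_of_mem_nhdsWithin (Icc_mem_nhdsGE hx.2)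
  · simp only [hQdef]
    rw [hMa, M0, toC_diagonal]
    have : (diagonal fun i => ((1 / (2 * k i) : ℝ) : ℂ))⁻¹ = (2 : ℂ) • κ := by
      refine Matrix.inv_eq_right_inv ?_
      rw [hκ, Matrix.mul_smul, diagonal_mul_diagonal, ← Matrix.diagonal_smul,
        ← Matrix.diagonal_one]
      congr 1
      funext i
      have : (k i : ℂ) ≠ 0 := by exact_mod_cast (hk i).ne'
      simp only [Pi.smul_apply, smul_eq_mul]
      push_cast
      field_simp
    rw [this, sub_self]
  · simp only [hQdef]
    rw [hMb, toC_diagonal]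
    have : (diagonal fun _ : Fin n => ((1 / η : ℝ) : ℂ))⁻¹ = (η : ℂ) • 1 := by
      refine Matrix.inv_eq_right_inv ?_
      rw [Matrix.mul_smul, Matrix.mul_one, ← Matrix.diagonal_smul, ← Matrix.diagonal_one]
      congr 1
      funext i
      have : (η : ℂ) ≠ 0 := by exact_mod_cast hη.ne'
      simp only [Pi.smul_apply, smul_eq_mul]
      push_cast
      field_simp
    rw [this]

end LTH.VERIF

namespace LTH

theorem verif_module : S_VERIF := VERIF.verifR

theorem fun_module : S_FUN := fun s n h0 h1 => Vale.P371H.fun_all s n h0 h1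

end LTH
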