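import Vale.Agent.P371H.XdefA

/-!
# P371H, module XDEF
-/

namespace LTH

open Matrix Set Filter MeasureTheory
open scoped ComplexOrder Topology ComplexConjugate

namespace XDEF

variable {m n q : ℕ}

open Classical in
/-- the square root of `G + ε` -/
noncomputable def sq (ε : ℝ) (hε : 0 < ε) (G : Matrix (Fin q) (Fin q) ℝ) : Matrix (Fin q) (Fin q) ℝ :=
  if h : G.PosSemidef then (exists_sqrt h hε.le).choose else 0

lemma sq_spec {ε : ℝ} (hε : 0 < ε) {G : Matrix (Fin q) (Fin q) ℝ} (h : G.PosSemidef) :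
    (sq ε hε G - √ε • (1 : Matrix (Fin q) (Fin q) ℝ)).PosSemidef ∧
      sq ε hε G * sq ε hε G = G + ε • 1 := by
  unfold sq
  rw [dif_pos h]
  exact (exists_sqrt h hε.le).choose_spec

lemma gram (w : Matrix (Fin n) (Fin q) ℝ) : (wᵀ * w).PosSemidef := by
  have := Matrix.posSemidef_conjTranspose_mul_self w
  rwa [conjTranspose_eq_transpose_of_trivial] at this

/-- `(wᵀ w + ε)^{1/2}` -/
noncomputable def Sw (ε : ℝ) (hε : 0 < ε) (w : Matrix (Fin n) (Fin q) ℝ) :
    Matrix (Fin q) (Fin q) ℝ := sq ε hε (wᵀ * w)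

lemma continuous_Sw {ε : ℝ} (hε : 0 < ε) :
    Continuous fun w : Matrix (Fin n) (Fin q) ℝ => Sw ε hε w := by
  have hc : 0 < √ε := Real.sqrt_pos.2 hε
  refine continuous_matrix fun i j => ?_
  rw [continuous_iff_continuousAt]
  intro w0
  have key : ∀ w : Matrix (Fin n) (Fin q) ℝ, |Sw ε hε w i j - Sw ε hε w0 i j|
      ≤ √(1 / (4 * √ε ^ 2) * ∑ i, ∑ j, ((wᵀ * w) i j - (w0ᵀ * w0) i j) ^ 2) := by
    intro w
    obtain ⟨a1, a2⟩ := sq_spec hε (gram w)
    obtain ⟨b1, b2⟩ := sq_spec hε (gram w0)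
    have h1 := lip hc a1 b1
    apply Real.abs_le_sqrt
    have h2 : (Sw ε hε w i j - Sw ε hε w0 i j) ^ 2
        ≤ ∑ i, ∑ j, (Sw ε hε w i j - Sw ε hε w0 i j) ^ 2 := by
      refine le_trans ?_ (Finset.single_le_sum (f := fun i => ∑ j,
        (Sw ε hε w i j - Sw ε hε w0 i j) ^ 2) (fun i _ => Finset.sum_nonneg fun j _ =>
        sq_nonneg _) (Finset.mem_univ i))
      exact Finset.single_le_sum (f := fun j => (Sw ε hε w i j - Sw ε hε w0 i j) ^ 2)
        (fun j _ => sq_nonneg _) (Finset.mem_univ j)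
    refine h2.trans (h1.trans (le_of_eq ?_))
    congr 1
    refine Finset.sum_congr rfl fun i _ => Finset.sum_congr rfl fun j _ => ?_
    rw [a2, b2]
    simp only [Matrix.add_apply]
    ring
  have hlim : Tendsto (fun w : Matrix (Fin n) (Fin q) ℝ =>
      √(1 / (4 * √ε ^ 2) * ∑ i, ∑ j, ((wᵀ * w) i j - (w0ᵀ * w0) i j) ^ 2)) (𝓝 w0) (𝓝 0) := by
    have hcont : Continuous fun w : Matrix (Fin n) (Fin q) ℝ =>
        √(1 / (4 * √ε ^ 2) * ∑ i, ∑ j, ((wᵀ * w) i j - (w0ᵀ * w0) i j) ^ 2) := by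
      have hg : Continuous fun w : Matrix (Fin n) (Fin q) ℝ => wᵀ * w :=
        (continuous_id.matrix_transpose).matrix_mul continuous_id
      refine Real.continuous_sqrt.comp (continuous_const.mul ?_)
      refine continuous_finsetSum _ fun i _ => continuous_finsetSum _ fun j _ => ?_
      exact ((hg.matrix_elem i j).sub continuous_const).pow 2
    have := hcont.tendsto w0
    simpa using this
  rw [ContinuousAt, tendsto_iff_dist_tendsto_zero]
  refine squeeze_zero (fun _ => dist_nonneg) (fun w => ?_) hlim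
  rw [Real.dist_eq]
  exact key w

lemma det_ne {ε : ℝ} (hε : 0 < ε) {G : Matrix (Fin q) (Fin q) ℝ} (h : G.PosSemidef) :
    (G + ε • (1 : Matrix (Fin q) (Fin q) ℝ)).det ≠ 0 := by
  have h1 : (G + ε • (1 : Matrix (Fin q) (Fin q) ℝ)).PosDef :=
    Matrix.PosDef.posSemidef_add h (Matrix.PosDef.one.smul hε)
  exact h1.det_pos.ne'

/-- `(wᵀ w + ε)^{-1/2}` -/
noncomputable def Rw (ε : ℝ) (hε : 0 < ε) (w : Matrix (Fin n) (Fin q) ℝ) :
    Matrix (Fin q) (Fin q) ℝ := Sw ε hε w * (wᵀ * w + ε • 1)⁻¹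

lemma continuous_Rw {ε : ℝ} (hε : 0 < ε) :
    Continuous fun w : Matrix (Fin n) (Fin q) ℝ => Rw ε hε w := by
  unfold Rw
  refine (continuous_Sw hε).matrix_mul ?_
  have hg : Continuous fun w : Matrix (Fin n) (Fin q) ℝ => wᵀ * w + ε • 1 :=
    ((continuous_id.matrix_transpose).matrix_mul continuous_id).add continuous_const
  simp_rw [Matrix.inv_def, Ring.inverse_eq_inv']
  exact (hg.matrix_det.inv₀ fun w => det_ne hε (gram w)).smul hg.matrix_adjugate

section facts

variable {ε : ℝ} (hε : 0 < ε) (w : Matrix (Fin n) (Fin q) ℝ)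

lemma SR : Sw ε hε w * Rw ε hε w = 1 := by
  have h := (sq_spec hε (gram w)).2
  have hd : IsUnit (wᵀ * w + ε • (1 : Matrix (Fin q) (Fin q) ℝ)).det :=
    isUnit_iff_ne_zero.2 (det_ne hε (gram w))
  unfold Rw
  rw [← Matrix.mul_assoc]
  have h' : Sw ε hε w * Sw ε hε w = wᵀ * w + ε • 1 := h
  rw [h', Matrix.mul_nonsing_inv _ hd]

lemma RS : Rw ε hε w * Sw ε hε w = 1 := mul_eq_one_comm.1 (SR hε w)

lemma S_symm : (Sw ε hε w)ᵀ = Sw ε hε w := herm_of_sub (sq_spec hε (gram w)).1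

lemma R_symm : (Rw ε hε w)ᵀ = Rw ε hε w := by
  have h1 : (Rw ε hε w)ᵀ * Sw ε hε w = 1 := by
    have := congrArg Matrix.transpose (SR hε w)
    rwa [transpose_mul, S_symm, transpose_one] at this
  calc (Rw ε hε w)ᵀ = (Rw ε hε w)ᵀ * (Sw ε hε w * Rw ε hε w) := by rw [SR, Matrix.mul_one]
    _ = Rw ε hε w := by rw [← Matrix.mul_assoc, h1, Matrix.one_mul]

lemma RG : Rw ε hε w * (wᵀ * w) = Sw ε hε w - ε • Rw ε hε w := by
  have h' : Sw ε hε w * Sw ε hε w = wᵀ * w + ε • 1 := (sq_spec hε (gram w)).2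
  have h2 : wᵀ * w = Sw ε hε w * Sw ε hε w - ε • 1 := by rw [h']; abel
  rw [h2, Matrix.mul_sub, ← Matrix.mul_assoc, RS, Matrix.one_mul, Matrix.mul_smul, Matrix.mul_one]

lemma GR : (wᵀ * w) * Rw ε hε w = Sw ε hε w - ε • Rw ε hε w := by
  have h' : Sw ε hε w * Sw ε hε w = wᵀ * w + ε • 1 := (sq_spec hε (gram w)).2
  have h2 : wᵀ * w = Sw ε hε w * Sw ε hε w - ε • 1 := by rw [h']; abel
  rw [h2, Matrix.sub_mul, Matrix.mul_assoc, SR, Matrix.mul_one, Matrix.smul_mul, Matrix.one_mul]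

lemma RGR : Rw ε hε w * (wᵀ * w) * Rw ε hε w = 1 - ε • (Rw ε hε w * Rw ε hε w) := by
  rw [RG, Matrix.sub_mul, SR, Matrix.smul_mul]

lemma RGGR : Rw ε hε w * (wᵀ * w) * ((wᵀ * w) * Rw ε hε w)
    = wᵀ * w - ε • 1 + (ε ^ 2) • (Rw ε hε w * Rw ε hε w) := by
  have h' : Sw ε hε w * Sw ε hε w = wᵀ * w + ε • 1 := (sq_spec hε (gram w)).2
  rw [RG, GR, Matrix.sub_mul, Matrix.mul_sub, Matrix.mul_sub, h', Matrix.mul_smul, SR,
    Matrix.smul_mul, RS, Matrix.smul_mul, Matrix.mul_smul, smul_smul]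
  ext i j
  simp only [Matrix.add_apply, Matrix.sub_apply, Matrix.smul_apply, smul_eq_mul]
  ring

end facts

lemma toC_mul {α β γ : Type*} [Fintype β] (A : Matrix α β ℝ) (B : Matrix β γ ℝ) :
    toC (A * B) = toC A * toC B := by
  unfold toC
  exact Matrix.map_mul (f := Complex.ofRealHom)

lemma toC_transpose {α β : Type*} (A : Matrix α β ℝ) : toC Aᵀ = (toC A)ᴴ := by
  unfold toC
  ext i j
  simp [Matrix.conjTranspose_apply]

lemma tp_gram_comm {p : ℝ} (hp : 1 ≤ p) (V : Matrix (Fin n) (Fin q) ℂ) :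
    LTG.tp p (V * Vᴴ) = LTG.tp p (Vᴴ * V) :=
  LTG.Up.specSum_mul_comm (f := fun t => t ^ p) (Real.zero_rpow (by linarith)) V

end XDEF

open XDEF in
theorem xdef : S_XDEF := by
  intro n q ε hε
  refine ⟨fun W w => w * Rw ε hε w * W * (w * Rw ε hε w)ᵀ, ?_, ?_, ?_, ?_, ?_, ?_⟩
  · intro i j
    have h1 : Continuous fun p : Matrix (Fin q) (Fin q) ℝ × Matrix (Fin n) (Fin q) ℝ =>
        p.2 * Rw ε hε p.2 := continuous_snd.matrix_mul ((continuous_Rw hε).comp continuous_snd)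
    exact ((h1.matrix_mul continuous_fst).matrix_mul h1.matrix_transpose).matrix_elem i j
  · intro W w hW
    have := hW.mul_mul_conjTranspose_same (w * Rw ε hε w)
    rwa [conjTranspose_eq_transpose_of_trivial] at this
  · intro s hs W w i j
    have hs2 : ∀ i, s i * s i = 1 := by
      intro i
      rcases hs i with h | h <;> rw [h] <;> norm_num
    have hG : (Matrix.of fun i c => s i * w i c : Matrix (Fin n) (Fin q) ℝ)ᵀ *
        (Matrix.of fun i c => s i * w i c : Matrix (Fin n) (Fin q) ℝ) = wᵀ * w := by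
      ext a b
      simp only [Matrix.mul_apply, Matrix.transpose_apply, Matrix.of_apply]
      refine Finset.sum_congr rfl fun i _ => ?_
      linear_combination (w i a * w i b) * hs2 i
    have hR : Rw ε hε (Matrix.of fun i c => s i * w i c : Matrix (Fin n) (Fin q) ℝ)
        = Rw ε hε w := by
      unfold Rw Sw
      rw [hG]
    have hV : ∀ (i : Fin n) (c : Fin q),
        ((Matrix.of fun i c => s i * w i c : Matrix (Fin n) (Fin q) ℝ) * Rw ε hε w) i c
          = s i * (w * Rw ε hε w) i c := by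
      intro i c
      simp only [Matrix.mul_apply, Matrix.of_apply, Finset.mul_sum]
      refine Finset.sum_congr rfl fun c _ => ?_
      ring
    show ((Matrix.of fun i c => s i * w i c : Matrix (Fin n) (Fin q) ℝ) *
      Rw ε hε (Matrix.of fun i c => s i * w i c : Matrix (Fin n) (Fin q) ℝ) * W *
      ((Matrix.of fun i c => s i * w i c : Matrix (Fin n) (Fin q) ℝ) *
      Rw ε hε (Matrix.of fun i c => s i * w i c : Matrix (Fin n) (Fin q) ℝ))ᵀ) i j
      = s i * s j * (w * Rw ε hε w * W * (w * Rw ε hε w)ᵀ) i j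
    rw [hR]
    have e : ∀ (A B : Matrix (Fin n) (Fin q) ℝ) (i j : Fin n),
        (A * W * Bᵀ) i j = ∑ c, (∑ d, A i d * W d c) * B j c := by
      intro A B i j
      simp only [Matrix.mul_apply, Matrix.transpose_apply]
    rw [e, e, Finset.mul_sum]
    refine Finset.sum_congr rfl fun c _ => ?_
    simp_rw [hV]
    rw [show s i * s j * ((∑ d, (w * Rw ε hε w) i d * W d c) * (w * Rw ε hε w) j c)
      = (s i * ∑ d, (w * Rw ε hε w) i d * W d c) * (s j * (w * Rw ε hε w) j c) by ring,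
      Finset.mul_sum]
    congr 1
    refine Finset.sum_congr rfl fun d _ => ?_
    ring
  · intro W w i hi j
    show (w * Rw ε hε w * W * (w * Rw ε hε w)ᵀ) i j = 0
    rw [Matrix.mul_assoc, Matrix.mul_assoc, Matrix.mul_apply]
    refine Finset.sum_eq_zero fun c _ => ?_
    rw [hi c, zero_mul]
  · intro W w hW
    show (W * wᵀ * w).trace - ε * W.trace ≤ (wᵀ * (w * Rw ε hε w * W * (w * Rw ε hε w)ᵀ) * w).trace
    have e1 : (wᵀ * (w * Rw ε hε w * W * (w * Rw ε hε w)ᵀ) * w).trace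
        = (W * (Rw ε hε w * (wᵀ * w) * ((wᵀ * w) * Rw ε hε w))).trace := by
      rw [transpose_mul, R_symm]
      have : wᵀ * (w * Rw ε hε w * W * (Rw ε hε w * wᵀ)) * w
          = ((wᵀ * w) * Rw ε hε w) * (W * (Rw ε hε w * (wᵀ * w))) := by
        simp only [Matrix.mul_assoc]
      rw [this, Matrix.trace_mul_comm]
      simp only [Matrix.mul_assoc]
    rw [e1, RGGR, Matrix.mul_add, Matrix.mul_sub, Matrix.trace_add, Matrix.trace_sub,
      Matrix.mul_smul, Matrix.mul_smul, Matrix.mul_one, Matrix.trace_smul, Matrix.trace_smul,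
      smul_eq_mul, smul_eq_mul, Matrix.mul_assoc]
    have h2 : 0 ≤ (W * (Rw ε hε w * Rw ε hε w)).trace := by
      have h3 := (hW.mul_mul_conjTranspose_same (Rw ε hε w)).trace_nonneg
      rw [conjTranspose_eq_transpose_of_trivial, R_symm, Matrix.mul_assoc,
        Matrix.trace_mul_comm, Matrix.mul_assoc] at h3
      exact h3
    have h4 : 0 ≤ ε ^ 2 * (W * (Rw ε hε w * Rw ε hε w)).trace := mul_nonneg (by positivity) h2
    linarith
  · intro p W w hp hW
    obtain ⟨C, hC1, hC2⟩ := exists_sqrt hW le_rfl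
    have hCs := herm_of_sub hC1
    rw [zero_smul, add_zero] at hC2
    set V : Matrix (Fin n) (Fin q) ℝ := w * Rw ε hε w * C with hV
    have e1 : w * Rw ε hε w * W * (w * Rw ε hε w)ᵀ = V * Vᵀ := by
      rw [hV, transpose_mul (w * Rw ε hε w) C, hCs, ← hC2]
      simp only [Matrix.mul_assoc]
    have e2 : Vᵀ * V = W - ε • ((Rw ε hε w * C)ᵀ * (Rw ε hε w * C)) := by
      rw [hV, transpose_mul, transpose_mul, transpose_mul, hCs, R_symm]
      have : C * (Rw ε hε w * wᵀ) * (w * Rw ε hε w * C)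
          = C * (Rw ε hε w * (wᵀ * w) * Rw ε hε w) * C := by
        simp only [Matrix.mul_assoc]
      rw [this, RGR, Matrix.mul_sub, Matrix.sub_mul, Matrix.mul_one, hC2, Matrix.mul_smul,
        Matrix.smul_mul]
      simp only [Matrix.mul_assoc]
    show LTG.tp p (toC (w * Rw ε hε w * W * (w * Rw ε hε w)ᵀ)) ≤ LTG.tp p (toC W)
    rw [e1, toC_mul, toC_transpose, tp_gram_comm hp]
    refine tp_mono (Matrix.posSemidef_conjTranspose_mul_self _) ?_ hp
    have e3 : W - Vᵀ * V = ε • ((Rw ε hε w * C)ᵀ * (Rw ε hε w * C)) := by rw [e2]; abel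
    have e4 : toC W - (toC V)ᴴ * toC V = toC (W - Vᵀ * V) := by
      rw [← toC_transpose, ← toC_mul]
      unfold toC
      ext i j
      simp
    have e5 : toC (ε • ((Rw ε hε w * C)ᵀ * (Rw ε hε w * C)))
        = (ε : ℂ) • ((toC (Rw ε hε w * C))ᴴ * toC (Rw ε hε w * C)) := by
      rw [← toC_transpose, ← toC_mul]
      unfold toC
      ext i j
      simp
    rw [e4, e3, e5]
    exact (Matrix.posSemidef_conjTranspose_mul_self _).smul (Complex.zero_le_real.mpr hε.le)

end LTH
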