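import Mathlib
import Vale.Agent.P371H.DilD
import Vale.Agent.P371H.Main
import Vale.Agent.P371H.VerifR
import Vale.Agent.P371H.Xdef
import Vale.Agent.P371H.Flow
import Vale.Agent.P371H.Form
import Vale.Agent.P371H.Real
import Vale.Agent.P371H.Final

/-! # P371H: assembly, modulo TOPO and NICE -/

namespace LTH

theorem main_of (hT : S_TOPO) (hN : S_NICE) : S_MAIN :=
  main_ub (DIL.dil hT flow form xdef verif_module) hN real fun_module

end LTH
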