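import Vale.Agent.P371G.Producer

/-! # The functional exists for all `0 < s < 1` -/

namespace Vale.P371H

open Vale.P371G

theorem fun_all (s : ℝ) (n : ℕ) (h0 : 0 < s) (h1 : s < 1) : Nonempty (LTG.Fun s (Fin n)) := by
  have pos := pos_module
  have cont := cont_module pos
  have ellup := ellup_module pos
  have ellb := ellb_module pos ellup
  have gd := gder klein cont
  exact ⟨theFun scal cont ellb (gamb gd ellb ellup pos) pos gd kmid_module
    (conc drep kmid_module pos) (comm scal)
    (hjm pos ellb (asym_module pos) scal cont gt (dt pos)) h0 h1⟩

end Vale.P371H
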