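import Vale.Agent.P371H.Defs

/-! # The inverse of the `M`-flow: `F = M⁻¹ - κ` satisfies `F' = κ² - F² - X` (real) -/

namespace LTH.InvFlow

open Matrix Set Filter MeasureTheory
open scoped ComplexOrder Topology ComplexConjugate

variable {n : ℕ}

/-- `M ≥ M0` is positive definite -/
lemma posDef_of {k : Fin n → ℝ} (hk : ∀ i, 0 < k i) {M : Matrix (Fin n) (Fin n) ℝ}
    (hM : (M - M0 k).PosSemidef) : M.PosDef := by
  have hm0pos : (M0 k).PosDef := by
    refine PosDef.diagonal fun i => ?_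
    have := hk i
    positivity
  have e : M = M0 k + (M - M0 k) := by abel
  rw [e]
  exact hm0pos.add_posSemidef hM

/-- continuity of the inverse within a set -/
lemma contWithin_inv {M : ℝ → Matrix (Fin n) (Fin n) ℝ} {S : Set ℝ} {x : ℝ}
    (hM : ContinuousWithinAt M S x) (hx : (M x).PosDef) :
    ContinuousWithinAt (fun y => (M y)⁻¹) S x := by
  have hdet : (M x).det ≠ 0 := hx.det_pos.ne'
  have h1 : ContinuousAt (Inv.inv : Matrix (Fin n) (Fin n) ℝ → _) (M x) := by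
    refine continuousAt_matrix_inv _ ?_
    rw [Ring.inverse_eq_inv']
    exact continuousAt_inv₀ hdet
  exact h1.comp_continuousWithinAt hM

/-- derivative of the inverse -/
lemma hasDeriv_inv {M : ℝ → Matrix (Fin n) (Fin n) ℝ} {M' : Matrix (Fin n) (Fin n) ℝ} {S : Set ℝ}
    {x : ℝ} (hxS : x ∈ S) (hd : ∀ i j, HasDerivWithinAt (fun y => M y i j) (M' i j) S x)
    (hpos : ∀ y ∈ S, (M y).PosDef) (i j : Fin n) :
    HasDerivWithinAt (fun y => (M y)⁻¹ i j) ((-((M x)⁻¹ * M' * (M x)⁻¹)) i j) S x := by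
  have hMc : ContinuousWithinAt M S x :=
    continuousWithinAt_pi.mpr fun i => continuousWithinAt_pi.mpr fun j =>
      (hd i j).continuousWithinAt
  have hNc := contWithin_inv hMc (hpos x hxS)
  rw [hasDerivWithinAt_iff_tendsto_slope]
  have hsl : Tendsto (fun y => (y - x)⁻¹ • (M y - M x)) (𝓝[S \ {x}] x) (𝓝 M') := by
    refine tendsto_pi_nhds.mpr fun i => tendsto_pi_nhds.mpr fun j => ?_
    refine (hasDerivWithinAt_iff_tendsto_slope.mp (hd i j)).congr fun y => ?_
    rw [slope_def_module, Matrix.smul_apply, Matrix.sub_apply]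
  have hN : Tendsto (fun y => (M y)⁻¹) (𝓝[S \ {x}] x) (𝓝 (M x)⁻¹) :=
    hNc.tendsto.mono_left (nhdsWithin_mono _ sdiff_subset)
  have h1 : Tendsto (fun y => (-((M y)⁻¹ * ((y - x)⁻¹ • (M y - M x)) * (M x)⁻¹)) i j)
      (𝓝[S \ {x}] x) (𝓝 ((-((M x)⁻¹ * M' * (M x)⁻¹)) i j)) := by
    have c1 : Continuous fun q : Matrix (Fin n) (Fin n) ℝ × Matrix (Fin n) (Fin n) ℝ =>
        (-(q.1 * q.2 * (M x)⁻¹)) i j := by fun_prop
    have h5 := (c1.tendsto ((M x)⁻¹, M')).comp (hN.prodMk_nhds hsl)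
    simp only [Function.comp_def] at h5
    exact h5
  refine h1.congr' ?_
  filter_upwards [self_mem_nhdsWithin] with y hy
  have hu1 : IsUnit (M y).det := (Matrix.isUnit_iff_isUnit_det _).mp (hpos y hy.1).isUnit
  have hu2 : IsUnit (M x).det := (Matrix.isUnit_iff_isUnit_det _).mp (hpos x hxS).isUnit
  have a1 : (M y)⁻¹ * M y = 1 := Matrix.nonsing_inv_mul _ hu1
  have a2 : M x * (M x)⁻¹ = 1 := Matrix.mul_nonsing_inv _ hu2
  have e : -((M y)⁻¹ * ((y - x)⁻¹ • (M y - M x)) * (M x)⁻¹)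
      = (y - x)⁻¹ • ((M y)⁻¹ - (M x)⁻¹) := by
    rw [Matrix.mul_smul, Matrix.smul_mul, ← smul_neg]
    congr 1
    have : (M y)⁻¹ * (M y - M x) * (M x)⁻¹
        = ((M y)⁻¹ * M y) * (M x)⁻¹ - (M y)⁻¹ * (M x * (M x)⁻¹) := by noncomm_ring
    rw [this, a1, a2]
    simp
  rw [e, slope_def_module, Matrix.smul_apply, Matrix.sub_apply]

/-- `F = M⁻¹ - κ` satisfies `F' = κ² - F² - X` -/
theorem flow {k : Fin n → ℝ} (hk : ∀ i, 0 < k i) {a : ℝ} {X M : ℝ → Matrix (Fin n) (Fin n) ℝ}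
    (hd : ∀ x ∈ Icc (-a) a, ∀ i j, HasDerivWithinAt (fun y => M y i j)
      (rhs k (M x) (X x) (M x) i j) (Icc (-a) a) x)
    (hpsd : ∀ x ∈ Icc (-a) a, (M x - M0 k).PosSemidef) :
    ∀ x ∈ Icc (-a) a, ∀ i j, HasDerivWithinAt (fun y => ((M y)⁻¹ - diagonal k) i j)
      ((diagonal (fun i => k i ^ 2) - ((M x)⁻¹ - diagonal k) * ((M x)⁻¹ - diagonal k) - X x) i j)
      (Icc (-a) a) x := by
  intro x hx i j
  have hpos := fun y (hy : y ∈ Icc (-a) a) => posDef_of hk (hpsd y hy)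
  have h1 := (hasDeriv_inv hx (hd x hx) hpos i j).sub_const (diagonal k i j)
  have hu : IsUnit (M x).det := (Matrix.isUnit_iff_isUnit_det _).mp (hpos x hx).isUnit
  set N := (M x)⁻¹ with hN
  have a1 : N * M x = 1 := Matrix.nonsing_inv_mul _ hu
  have a2 : M x * N = 1 := Matrix.mul_nonsing_inv _ hu
  have hkk : (diagonal fun i => k i ^ 2) = diagonal k * diagonal k := by
    rw [diagonal_mul_diagonal]
    congr 1
    funext i
    ring
  have e : -(N * rhs k (M x) (X x) (M x) * N)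
      = diagonal (fun i => k i ^ 2) - (N - diagonal k) * (N - diagonal k) - X x := by
    rw [rhs, hkk]
    have e1 : N * (1 - diagonal k * M x - M x * diagonal k + M x * X x * M x) * N
        = N * N - N * diagonal k * (M x * N) - (N * M x) * diagonal k * N
          + (N * M x) * X x * (M x * N) := by noncomm_ring
    rw [e1, a1, a2]
    noncomm_ring
  rw [e] at h1
  exact h1

/-- `F` is symmetric -/
lemma isHermitian_F {k : Fin n → ℝ} (hk : ∀ i, 0 < k i) {M : Matrix (Fin n) (Fin n) ℝ}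
    (hM : (M - M0 k).PosSemidef) : (M⁻¹ - diagonal k).IsHermitian := by
  refine (posDef_of hk hM).inv.isHermitian.sub ?_
  simp [Matrix.IsHermitian]

/-- `F + κ = M⁻¹ > 0` -/
lemma posDef_F_add {k : Fin n → ℝ} (hk : ∀ i, 0 < k i) {M : Matrix (Fin n) (Fin n) ℝ}
    (hM : (M - M0 k).PosSemidef) : (M⁻¹ - diagonal k + diagonal k).PosDef := by
  rw [sub_add_cancel]
  exact (posDef_of hk hM).inv

/-- `F(-a) = κ` -/
lemma F_start {k : Fin n → ℝ} (hk : ∀ i, 0 < k i) : (M0 k)⁻¹ - diagonal k = diagonal k := by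
  have : (M0 k)⁻¹ = diagonal (fun i => 2 * k i) := by
    refine Matrix.inv_eq_right_inv ?_
    rw [M0, diagonal_mul_diagonal, ← Matrix.diagonal_one]
    congr 1
    funext i
    have := (hk i).ne'
    field_simp
  rw [this]
  ext i j
  by_cases h : i = j
  · subst h; simp; ring
  · simp [h]

end LTH.InvFlow
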