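import Vale.Agent.P371H.NiceDefs
import Vale.Agent.P371.Prim

/-!
# NICE: truncation, convergence of the pairings, assembly
-/

namespace LTH.NICE

open Matrix Set Filter MeasureTheory
open scoped ComplexOrder Topology ComplexConjugate

variable {q : ℕ}

lemma prim {u g : ℝ → Fin q → ℝ} (h : IsH1R u g) (c : Fin q) :
    Vale.P371.Prim (fun x => u x c) (fun x => g x c) := by
  intro a b
  refine ⟨?_, h.ftc c a b⟩
  have h1 : LocallyIntegrable (fun x => g x c) volume :=
    (h.memLp' c).locallyIntegrable (by norm_num)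
  exact (h1.integrableOn_isCompact isCompact_uIcc).intervalIntegrable

lemma cont {u g : ℝ → Fin q → ℝ} (h : IsH1R u g) (c : Fin q) : Continuous fun x => u x c :=
  (prim h c).continuous

lemma int_mul {f g : ℝ → ℝ} (hf : MemLp f 2 volume) (hg : MemLp g 2 volume) :
    Integrable fun x => f x * g x := by
  have := MemLp.integrable_mul hf hg
  exact this

lemma bdd {u g : ℝ → Fin q → ℝ} (h : IsH1R u g) : ∃ B : ℝ, 0 ≤ B ∧ ∀ x c, |u x c| ≤ B := by
  have h1 : ∀ c, ∃ B : ℝ, 0 ≤ B ∧ ∀ x, |u x c| ≤ B := by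
    intro c
    have hp := (prim h c).mul (prim h c)
    have hi : Integrable fun x => g x c * u x c + u x c * g x c :=
      (int_mul (h.memLp' c) (h.memLp c)).add (int_mul (h.memLp c) (h.memLp' c))
    have hb := hp.norm_le hi
    set K := ‖u 0 c * u 0 c‖ + ∫ t, ‖g t c * u t c + u t c * g t c‖ with hK
    refine ⟨√K, Real.sqrt_nonneg _, ?_⟩
    intro x
    apply Real.abs_le_sqrt
    have := hb x
    rw [Real.norm_eq_abs] at this
    have h2 := le_abs_self (u x c * u x c)
    rw [sq]
    exact h2.trans this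
  choose B hB0 hB using h1
  refine ⟨∑ c, B c, Finset.sum_nonneg fun c _ => hB0 c, ?_⟩
  intro x c
  exact (hB c x).trans (Finset.single_le_sum (fun c _ => hB0 c) (Finset.mem_univ c))

lemma toC_isHermitian {A : Matrix (Fin q) (Fin q) ℝ} (hA : A.IsHermitian) :
    (toC A).IsHermitian := by
  ext i j
  have := congrFun (congrFun hA.eq i) j
  simp only [conjTranspose_apply, star_trivial] at this
  simp [toC, this]

/-- complexification of a real positive semidefinite matrix -/
lemma toC_posSemidef {A : Matrix (Fin q) (Fin q) ℝ} (hA : A.PosSemidef) :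
    (toC A).PosSemidef := by
  refine PosSemidef.of_dotProduct_mulVec_nonneg (toC_isHermitian hA.isHermitian) fun z => ?_
  have hx := hA.dotProduct_mulVec_nonneg (fun i => (z i).re)
  have hy := hA.dotProduct_mulVec_nonneg (fun i => (z i).im)
  have hsym : ∀ i j, A i j = A j i := by
    intro i j
    have := congrFun (congrFun hA.isHermitian.eq i) j
    simp only [conjTranspose_apply, star_trivial] at this
    exact this.symm
  rw [Complex.le_def]
  simp only [dotProduct, mulVec, Pi.star_apply, star_trivial, Finset.mul_sum] at hx hy ⊢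
  constructor
  · have e : (∑ i, ∑ j, star (z i) * (toC A i j * z j)).re
        = (∑ i, ∑ j, (z i).re * (A i j * (z j).re)) + ∑ i, ∑ j, (z i).im * (A i j * (z j).im) := by
      rw [Complex.re_sum, ← Finset.sum_add_distrib]
      refine Finset.sum_congr rfl fun i _ => ?_
      rw [Complex.re_sum, ← Finset.sum_add_distrib]
      refine Finset.sum_congr rfl fun j _ => ?_
      simp [toC, Complex.mul_re, Complex.mul_im]
    rw [e]
    simpa using add_nonneg hx hy
  · have e : (∑ i, ∑ j, star (z i) * (toC A i j * z j)).im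
        = (∑ i, ∑ j, (z i).re * (A i j * (z j).im)) - ∑ i, ∑ j, (z i).im * (A i j * (z j).re) := by
      rw [Complex.im_sum, ← Finset.sum_sub_distrib]
      refine Finset.sum_congr rfl fun i _ => ?_
      rw [Complex.im_sum, ← Finset.sum_sub_distrib]
      refine Finset.sum_congr rfl fun j _ => ?_
      simp [toC, Complex.mul_re, Complex.mul_im]
      ring
    have e2 : (∑ i, ∑ j, (z i).im * (A i j * (z j).re))
        = ∑ i, ∑ j, (z i).re * (A i j * (z j).im) := by
      rw [Finset.sum_comm]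
      refine Finset.sum_congr rfl fun i _ => Finset.sum_congr rfl fun j _ => ?_
      rw [hsym j i]; ring
    rw [e, e2, sub_self]
    simp

lemma diag_nonneg {V : Matrix (Fin q) (Fin q) ℝ} (hV : V.PosSemidef) (c : Fin q) : 0 ≤ V c c := by
  exact hV.diag_nonneg

lemma diag_le_trace {V : Matrix (Fin q) (Fin q) ℝ} (hV : V.PosSemidef) (c : Fin q) :
    V c c ≤ V.trace := by
  unfold Matrix.trace
  exact Finset.single_le_sum (f := fun c => V.diag c) (fun c _ => diag_nonneg hV c)
    (Finset.mem_univ c)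

lemma entry_le {V : Matrix (Fin q) (Fin q) ℝ} (hV : V.PosSemidef) (c d : Fin q) :
    |V c d| ≤ V.trace := by
  by_cases hcd : c = d
  · subst hcd
    rw [abs_of_nonneg (diag_nonneg hV c)]
    exact diag_le_trace hV c
  have hs : V d c = V c d := by
    have := hV.1.apply c d
    simpa using this
  have key : ∀ t : ℝ, (t = 1 ∨ t = -1) → 0 ≤ V c c + V d d + 2 * t * V c d := by
    intro t ht
    have h1 := hV.dotProduct_mulVec_nonneg (Pi.single c 1 + Pi.single d t)
    have htt : t * t = 1 := by rcases ht with rfl | rfl <;> norm_num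
    have e : star (Pi.single c 1 + Pi.single d t : Fin q → ℝ) ⬝ᵥ
        V.mulVec (Pi.single c 1 + Pi.single d t) = V c c + V d d + 2 * t * V c d := by
      simp only [star_trivial, Matrix.mulVec_add, add_dotProduct, dotProduct_add,
        Matrix.mulVec_single, single_dotProduct, Pi.smul_apply, Matrix.col_apply]
      simp only [MulOpposite.smul_eq_mul_unop, MulOpposite.unop_op, one_mul, mul_one]
      rw [hs]
      linear_combination V d d * htt
    rw [e] at h1
    exact h1
  have h1 := key 1 (Or.inl rfl)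
  have h2 := key (-1) (Or.inr rfl)
  have h3 : V c c + V d d ≤ V.trace := by
    unfold Matrix.trace
    have := Finset.add_le_sum (f := fun c => V.diag c) (s := Finset.univ)
      (fun c _ => diag_nonneg hV c) (Finset.mem_univ c) (Finset.mem_univ d) hcd
    simpa using this
  have h4 := diag_nonneg hV c
  have h5 := diag_nonneg hV d
  rw [abs_le]
  constructor <;> linarith

lemma trace_le {V : Matrix (Fin q) (Fin q) ℝ} (hV : V.PosSemidef) {s : ℝ} (hs : 0 < s) :
    V.trace ≤ q + LTG.tp (1 + s) (toC V) := by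
  have hC := toC_posSemidef hV
  have e1 : ((V.trace : ℝ) : ℂ) = (toC V).trace := by
    simp [Matrix.trace, toC]
  have e2 := hC.1.trace_eq_sum_eigenvalues
  rw [← e1] at e2
  have e3 : V.trace = ∑ i, hC.1.eigenvalues i := by
    have : ((V.trace : ℝ) : ℂ) = ((∑ i, hC.1.eigenvalues i : ℝ) : ℂ) := by
      rw [e2]; push_cast; rfl
    exact_mod_cast this
  rw [e3]
  unfold LTG.tp
  rw [dif_pos hC.1]
  have h1 : ∀ i, hC.1.eigenvalues i ≤ 1 + hC.1.eigenvalues i ^ (1 + s) := by
    intro i
    have h0 := hC.eigenvalues_nonneg i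
    rcases le_total (hC.1.eigenvalues i) 1 with h2 | h2
    · have := Real.rpow_nonneg h0 (1 + s)
      linarith
    · have := Real.self_le_rpow_of_one_le h2 (show 1 ≤ 1 + s by linarith)
      linarith
  refine (Finset.sum_le_sum fun i _ => h1 i).trans ?_
  rw [Finset.sum_add_distrib]
  simp

lemma tp_zero {p : ℝ} (hp : p ≠ 0) : LTG.tp p (toC (0 : Matrix (Fin q) (Fin q) ℝ)) = 0 := by
  have e : toC (0 : Matrix (Fin q) (Fin q) ℝ) = 0 := by
    ext i j; simp [toC]
  rw [e]
  unfold LTG.tp
  rw [dif_pos Matrix.isHermitian_zero]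
  apply Finset.sum_eq_zero
  intro i _
  have : (Matrix.isHermitian_zero (n := Fin q) (α := ℂ)).eigenvalues = 0 :=
    (Matrix.IsHermitian.eigenvalues_eq_zero_iff _).2 rfl
  rw [this]
  exact Real.zero_rpow hp

/-! ### truncation -/

open Classical in
/-- the truncated potential -/
noncomputable def VN (V : ℝ → Matrix (Fin q) (Fin q) ℝ) (N : ℝ) (x : ℝ) :
    Matrix (Fin q) (Fin q) ℝ := if |x| ≤ N ∧ (V x).trace ≤ N then V x else 0

lemma meas_trace {V : ℝ → Matrix (Fin q) (Fin q) ℝ} (hm : ∀ c d, Measurable fun x => V x c d) :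
    Measurable fun x => (V x).trace := by
  unfold Matrix.trace
  exact Finset.measurable_fun_sum _ fun c _ => hm c c

lemma meas_set {V : ℝ → Matrix (Fin q) (Fin q) ℝ} (hm : ∀ c d, Measurable fun x => V x c d)
    (N : ℝ) : MeasurableSet {x | |x| ≤ N ∧ (V x).trace ≤ N} :=
  (measurableSet_le measurable_norm measurable_const).inter
    (measurableSet_le (meas_trace hm) measurable_const)

lemma meas_VN {V : ℝ → Matrix (Fin q) (Fin q) ℝ} (hm : ∀ c d, Measurable fun x => V x c d)
    (N : ℝ) (c d : Fin q) : Measurable fun x => VN V N x c d := by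
  classical
  have e : (fun x => VN V N x c d)
      = fun x => if x ∈ {x | |x| ≤ N ∧ (V x).trace ≤ N} then V x c d else 0 := by
    funext x
    unfold VN
    simp only [Set.mem_ofPred_eq]
    split_ifs <;> rfl
  rw [e]
  exact Measurable.ite (meas_set hm N) (hm c d) measurable_const

lemma psd_VN {V : ℝ → Matrix (Fin q) (Fin q) ℝ} (hV : ∀ x, (V x).PosSemidef) (N x : ℝ) :
    (VN V N x).PosSemidef := by
  unfold VN
  split_ifs
  · exact hV x
  · exact Matrix.PosSemidef.zero

lemma bdd_VN {V : ℝ → Matrix (Fin q) (Fin q) ℝ} (hV : ∀ x, (V x).PosSemidef) {N : ℝ}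
    (hN : 0 ≤ N) (x : ℝ) (c d : Fin q) : |VN V N x c d| ≤ N := by
  unfold VN
  split_ifs with h
  · exact (entry_le (hV x) c d).trans h.2
  · simpa using hN

lemma supp_VN {V : ℝ → Matrix (Fin q) (Fin q) ℝ} {N x : ℝ} (hx : x ∉ Icc (-N) N) :
    VN V N x = 0 := by
  unfold VN
  rw [if_neg]
  intro h
  exact hx (abs_le.1 h.1)

lemma tp_VN {V : ℝ → Matrix (Fin q) (Fin q) ℝ} {s : ℝ} (hs : 0 < s)
    (hm : ∀ c d, Measurable fun x => V x c d) (hV : ∀ x, (V x).PosSemidef)
    (hi : Integrable fun x => LTG.tp (1 + s) (toC (V x))) (N : ℝ) :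
    Integrable (fun x => LTG.tp (1 + s) (toC (VN V N x))) ∧
    ∫ x, LTG.tp (1 + s) (toC (VN V N x)) ≤ ∫ x, LTG.tp (1 + s) (toC (V x)) := by
  have e : (fun x => LTG.tp (1 + s) (toC (VN V N x)))
      = {x | |x| ≤ N ∧ (V x).trace ≤ N}.indicator fun x => LTG.tp (1 + s) (toC (V x)) := by
    funext x
    unfold VN Set.indicator
    simp only [Set.mem_ofPred_eq]
    split_ifs
    · rfl
    · exact tp_zero (by positivity)
  have h0 : ∀ x, 0 ≤ LTG.tp (1 + s) (toC (V x)) := by
    intro x
    have hC := toC_posSemidef (hV x)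
    unfold LTG.tp
    rw [dif_pos hC.1]
    exact Finset.sum_nonneg fun i _ => Real.rpow_nonneg (hC.eigenvalues_nonneg i) _
  rw [e]
  refine ⟨hi.indicator (meas_set hm N), ?_⟩
  apply integral_mono (hi.indicator (meas_set hm N)) hi
  intro x
  exact Set.indicator_le_self' (fun _ _ => h0 x) x

/-- the pairing -/
lemma pair_eq (A : Matrix (Fin q) (Fin q) ℝ) (u v : Fin q → ℝ) :
    u ⬝ᵥ (A.mulVec v) = ∑ c, ∑ d, u c * (A c d * v d) := by
  unfold dotProduct Matrix.mulVec dotProduct
  apply Finset.sum_congr rfl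
  intro c _
  rw [Finset.mul_sum]

lemma pair_le {A : Matrix (Fin q) (Fin q) ℝ} {b : ℝ} (hA : ∀ c d, |A c d| ≤ b) (u v : Fin q → ℝ) :
    |u ⬝ᵥ (A.mulVec v)| ≤ ∑ c, ∑ d, b * |u c * v d| := by
  rw [pair_eq]
  refine (Finset.abs_sum_le_sum_abs _ _).trans (Finset.sum_le_sum fun c _ => ?_)
  refine (Finset.abs_sum_le_sum_abs _ _).trans (Finset.sum_le_sum fun d _ => ?_)
  have e : u c * (A c d * v d) = A c d * (u c * v d) := by ring
  rw [e, abs_mul]
  exact mul_le_mul_of_nonneg_right (hA c d) (abs_nonneg _)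

lemma meas_pair {A : ℝ → Matrix (Fin q) (Fin q) ℝ} (hm : ∀ c d, Measurable fun x => A x c d)
    {u g v h : ℝ → Fin q → ℝ} (hu : IsH1R u g) (hv : IsH1R v h) :
    Measurable fun x => (u x) ⬝ᵥ ((A x).mulVec (v x)) := by
  simp_rw [pair_eq]
  exact Finset.measurable_fun_sum _ fun c _ => Finset.measurable_fun_sum _ fun d _ =>
    (cont hu c).measurable.mul ((hm c d).mul (cont hv d).measurable)

lemma trunc_lim {V : ℝ → Matrix (Fin q) (Fin q) ℝ} {s : ℝ} (hs : 0 < s)
    (hm : ∀ c d, Measurable fun x => V x c d) (hV : ∀ x, (V x).PosSemidef)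
    (hi : Integrable fun x => LTG.tp (1 + s) (toC (V x)))
    {u g v h : ℝ → Fin q → ℝ} (hu : IsH1R u g) (hv : IsH1R v h) :
    Tendsto (fun N : ℕ => ∫ x, (u x) ⬝ᵥ ((VN V N x).mulVec (v x))) atTop
      (𝓝 (∫ x, (u x) ⬝ᵥ ((V x).mulVec (v x)))) := by
  obtain ⟨B, hB0, hB⟩ := bdd hu
  obtain ⟨B', hB0', hB'⟩ := bdd hv
  apply tendsto_integral_of_dominated_convergence
    (fun x => ∑ c : Fin q, ∑ d : Fin q,
      ((q : ℝ) * |u x c * v x d| + (B * B') * LTG.tp (1 + s) (toC (V x))))
  · intro N
    exact (meas_pair (meas_VN hm N) hu hv).aestronglyMeasurable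
  · apply integrable_finsetSum
    intro c _
    apply integrable_finsetSum
    intro d _
    exact ((int_mul (hu.memLp c) (hv.memLp d)).abs.const_mul _).add (hi.const_mul _)
  · intro N
    filter_upwards with x
    have h0 : ∀ c d, |VN V N x c d| ≤ q + LTG.tp (1 + s) (toC (V x)) := by
      intro c d
      have h1 : |VN V N x c d| ≤ |V x c d| := by
        unfold VN
        split_ifs
        · exact le_rfl
        · simp
      exact h1.trans ((entry_le (hV x) c d).trans (trace_le (hV x) hs))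
    rw [Real.norm_eq_abs]
    refine (pair_le h0 _ _).trans (Finset.sum_le_sum fun c _ => Finset.sum_le_sum fun d _ => ?_)
    rw [add_mul]
    have h2 : |u x c * v x d| ≤ B * B' := by
      rw [abs_mul]
      exact mul_le_mul (hB x c) (hB' x d) (abs_nonneg _) hB0
    have h3 : 0 ≤ LTG.tp (1 + s) (toC (V x)) := by
      have hC := toC_posSemidef (hV x)
      unfold LTG.tp
      rw [dif_pos hC.1]
      exact Finset.sum_nonneg fun i _ => Real.rpow_nonneg (hC.eigenvalues_nonneg i) _
    have h4 := mul_le_mul_of_nonneg_left h2 h3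
    linarith
  · filter_upwards with x
    apply tendsto_const_nhds.congr'
    obtain ⟨N0, hN0⟩ := exists_nat_ge (max |x| (V x).trace)
    filter_upwards [eventually_ge_atTop N0] with N hN
    have hN' : (N0 : ℝ) ≤ N := by exact_mod_cast hN
    unfold VN
    rw [if_pos ⟨(le_max_left _ _).trans (hN0.trans hN'), (le_max_right _ _).trans (hN0.trans hN')⟩]

/-! ### moving average -/

/-- moving average -/
noncomputable def avg (V : ℝ → Matrix (Fin q) (Fin q) ℝ) (h x : ℝ) : Matrix (Fin q) (Fin q) ℝ :=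
  Matrix.of fun c d => h⁻¹ * ∫ t in x..(x + h), V t c d

lemma loc_int {V : ℝ → Matrix (Fin q) (Fin q) ℝ} {B : ℝ}
    (hm : ∀ c d, Measurable fun x => V x c d) (hB : ∀ x c d, |V x c d| ≤ B) (c d : Fin q) :
    LocallyIntegrable (fun x => V x c d) volume := by
  intro x
  refine ⟨Icc (x - 1) (x + 1), Icc_mem_nhds (by linarith) (by linarith), ?_⟩
  apply Measure.integrableOn_of_bounded (M := B)
  · exact (isCompact_Icc.measure_lt_top).ne
  · exact (hm c d).aestronglyMeasurable
  · filter_upwards with t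
    exact hB t c d

lemma avg_bdd {V : ℝ → Matrix (Fin q) (Fin q) ℝ} {B h : ℝ} (hh : 0 < h)
    (hB : ∀ x c d, |V x c d| ≤ B) (x : ℝ) (c d : Fin q) : |avg V h x c d| ≤ B := by
  unfold avg
  simp only [Matrix.of_apply]
  have h1 : ‖∫ t in x..(x + h), V t c d‖ ≤ B * |x + h - x| :=
    intervalIntegral.norm_integral_le_of_norm_le_const fun t _ => hB t c d
  rw [Real.norm_eq_abs, show x + h - x = h by ring, abs_of_pos hh] at h1
  rw [abs_mul, abs_of_pos (inv_pos.2 hh)]
  calc h⁻¹ * |∫ t in x..(x + h), V t c d| ≤ h⁻¹ * (B * h) :=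
        mul_le_mul_of_nonneg_left h1 (inv_pos.2 hh).le
    _ = B := by field_simp

lemma avg_supp {V : ℝ → Matrix (Fin q) (Fin q) ℝ} {N h : ℝ} (hh : 0 < h) (hh1 : h ≤ 1)
    (hN : ∀ x, x ∉ Icc (-N) N → V x = 0) {x : ℝ} (hx : x ∉ Icc (-(N + 1)) (N + 1)) :
    avg V h x = 0 := by
  ext c d
  unfold avg
  simp only [Matrix.of_apply, Matrix.zero_apply]
  have : ∫ t in x..(x + h), V t c d = ∫ t in x..(x + h), (0 : ℝ) := by
    apply intervalIntegral.integral_congr
    intro t ht
    rw [Set.uIcc_of_le (by linarith)] at ht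
    have : t ∉ Icc (-N) N := by
      intro ht2
      apply hx
      constructor
      · linarith [ht.2, ht2.1]
      · linarith [ht.1, ht2.2]
    simp only [hN t this, Matrix.zero_apply]
  rw [this]
  simp

lemma avg_lim {V : ℝ → Matrix (Fin q) (Fin q) ℝ} {B : ℝ}
    (hm : ∀ c d, Measurable fun x => V x c d) (hB : ∀ x c d, |V x c d| ≤ B)
    (hcont : ∀ h, 0 < h → ∀ c d, Continuous fun x => avg V h x c d)
    {u g v g' : ℝ → Fin q → ℝ} (hu : IsH1R u g) (hv : IsH1R v g') :
    Tendsto (fun k : ℕ => ∫ x, (u x) ⬝ᵥ ((avg V (1 / ((k : ℝ) + 1)) x).mulVec (v x))) atTop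
      (𝓝 (∫ x, (u x) ⬝ᵥ ((V x).mulVec (v x)))) := by
  have hpos : ∀ k : ℕ, (0 : ℝ) < 1 / ((k : ℝ) + 1) := fun k => by positivity
  apply tendsto_integral_of_dominated_convergence
    (fun x => ∑ c : Fin q, ∑ d : Fin q, B * |u x c * v x d|)
  · intro k
    exact (meas_pair (fun c d => (hcont _ (hpos k) c d).measurable) hu hv).aestronglyMeasurable
  · apply integrable_finsetSum
    intro c _
    apply integrable_finsetSum
    intro d _
    exact (int_mul (hu.memLp c) (hv.memLp d)).abs.const_mul _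
  · intro k
    filter_upwards with x
    rw [Real.norm_eq_abs]
    exact pair_le (fun c d => avg_bdd (hpos k) hB x c d) _ _
  · have hae : ∀ᵐ x, ∀ c d, HasDerivAt (fun y => ∫ t in x..y, V t c d) (V x c d) x := by
      rw [ae_all_iff]
      intro c
      rw [ae_all_iff]
      intro d
      filter_upwards [LocallyIntegrable.ae_hasDerivAt_integral (loc_int hm hB c d)] with x hx
      exact hx x
    filter_upwards [hae] with x hx
    simp_rw [pair_eq]
    apply tendsto_finsetSum
    intro c _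
    apply tendsto_finsetSum
    intro d _
    apply Tendsto.const_mul
    apply Tendsto.mul_const
    have h1 := (hx c d).tendsto_slope_zero_right
    have h2 : Tendsto (fun k : ℕ => 1 / ((k : ℝ) + 1)) atTop (𝓝[>] 0) := by
      rw [tendsto_nhdsWithin_iff]
      exact ⟨tendsto_one_div_add_atTop_nhds_zero_nat, Eventually.of_forall hpos⟩
    have h3 := h1.comp h2
    refine h3.congr fun k => ?_
    simp only [Function.comp, intervalIntegral.integral_same, sub_zero, smul_eq_mul, avg,
      Matrix.of_apply]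

end LTH.NICE

namespace LTH

open Matrix Set Filter MeasureTheory NICE
open scoped ComplexOrder Topology ComplexConjugate

theorem nice (hAVG : S_AVG) : S_NICE := by
  intro s n q V u g δ hs hδ hm hV hi hH
  -- truncation
  have h1 : ∀ᶠ N : ℕ in atTop, ∀ i j, |(∫ x, (u i x) ⬝ᵥ ((VN V N x).mulVec (u j x)))
      - ∫ x, (u i x) ⬝ᵥ ((V x).mulVec (u j x))| < δ / 2 := by
    rw [eventually_all]
    intro i
    rw [eventually_all]
    intro j
    have := trunc_lim hs hm hV hi (hH i) (hH j)
    rw [Metric.tendsto_nhds] at this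
    exact this (δ / 2) (by positivity)
  obtain ⟨N, hN⟩ := h1.exists
  have hm' := meas_VN hm (N : ℝ)
  have hV' := psd_VN hV (N : ℝ)
  have hB' := bdd_VN hV (N := (N : ℝ)) (Nat.cast_nonneg N)
  have hS' : ∀ x, x ∉ Icc (-(N : ℝ)) N → VN V N x = 0 := fun x hx => supp_VN hx
  have hA := fun (h : ℝ) (hh : 0 < h) => hAVG s q (VN V N) N N h hs hh hm' hV' hB' hS'
    (tp_VN hs hm hV hi N).1
  have hcont : ∀ h, 0 < h → ∀ c d, Continuous fun x => avg (VN V N) h x c d :=
    fun h hh => (hA h hh).1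
  have h2 : ∀ᶠ k : ℕ in atTop, ∀ i j,
      |(∫ x, (u i x) ⬝ᵥ ((avg (VN V N) (1 / ((k : ℝ) + 1)) x).mulVec (u j x)))
      - ∫ x, (u i x) ⬝ᵥ ((VN V N x).mulVec (u j x))| < δ / 2 := by
    rw [eventually_all]
    intro i
    rw [eventually_all]
    intro j
    have := avg_lim hm' hB' hcont (hH i) (hH j)
    rw [Metric.tendsto_nhds] at this
    exact this (δ / 2) (by positivity)
  obtain ⟨k, hk⟩ := h2.exists
  have hpos : (0 : ℝ) < 1 / ((k : ℝ) + 1) := by positivity
  have hle1 : 1 / ((k : ℝ) + 1) ≤ 1 := by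
    rw [div_le_one (by positivity)]
    have : (0 : ℝ) ≤ k := Nat.cast_nonneg k
    linarith
  refine ⟨N + 1, avg (VN V N) (1 / ((k : ℝ) + 1)), by positivity, hcont _ hpos,
    (hA _ hpos).2.1, fun x hx => avg_supp hpos hle1 hS' hx,
    (hA _ hpos).2.2.trans (tp_VN hs hm hV hi N).2, ?_⟩
  intro i j
  have a1 := hN i j
  have a2 := hk i j
  have a3 := abs_add_le
    ((∫ x, (u i x) ⬝ᵥ ((avg (VN V N) (1 / ((k : ℝ) + 1)) x).mulVec (u j x)))
      - ∫ x, (u i x) ⬝ᵥ ((VN V N x).mulVec (u j x)))
    ((∫ x, (u i x) ⬝ᵥ ((VN V N x).mulVec (u j x)))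
      - ∫ x, (u i x) ⬝ᵥ ((V x).mulVec (u j x)))
  rw [sub_add_sub_cancel] at a3
  linarith

end LTH
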