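import Vale.Agent.P371H.Nice
import Vale.Agent.P371.GPow
import Vale.Agent.P371.GLtup

/-!
# NICE: the moving average
-/

namespace LTH.NICE

open Matrix Set Filter MeasureTheory
open scoped ComplexOrder Topology ComplexConjugate Convolution

variable {q : ℕ}

lemma tp_nonneg {A : Matrix (Fin q) (Fin q) ℂ} (hA : A.PosSemidef) (p : ℝ) : 0 ≤ LTG.tp p A := by
  unfold LTG.tp
  rw [dif_pos hA.1]
  exact Finset.sum_nonneg fun i _ => Real.rpow_nonneg (hA.eigenvalues_nonneg i) _

lemma specSum_eq_tp {A : Matrix (Fin q) (Fin q) ℂ} (hA : A.IsHermitian) (p : ℝ) :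
    LTM.specSum (fun t => t ^ p) A = LTG.tp p A := by
  rw [LTM.specSum_eq hA]
  unfold LTG.tp
  rw [dif_pos hA]

/-- trace duality -/
lemma tp_dual {s : ℝ} (hs : 0 < s) {B Y : Matrix (Fin q) (Fin q) ℂ} (hB : B.PosSemidef)
    (hY : Y.PosSemidef) : ((B * Y).trace).re
      ≤ 1 / (1 + s) * LTG.tp (1 + s) B + s / (1 + s) * LTG.tp (1 + 1 / s) Y := by
  have hp : 1 ≤ 1 + 1 / s := by
    have : 0 < 1 / s := by positivity
    linarith
  obtain ⟨r, hr, e1, e2⟩ := LTG.Up.exists_occupation hB.isHermitian hY hp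
  rw [specSum_eq_tp hY.1] at e2
  rw [e1, Complex.ofReal_re]
  have hc : (1 + s).HolderConjugate (1 + 1 / s) := by
    rw [Real.holderConjugate_iff]
    refine ⟨by linarith, ?_⟩
    field_simp
    ring
  have h1 : ∀ i, hB.isHermitian.eigenvalues i * r i
      ≤ 1 / (1 + s) * hB.isHermitian.eigenvalues i ^ (1 + s)
        + s / (1 + s) * r i ^ (1 + 1 / s) := by
    intro i
    have := Real.young_inequality_of_nonneg (hB.eigenvalues_nonneg i) (hr i) hc
    have e : r i ^ (1 + 1 / s) / (1 + 1 / s) = s / (1 + s) * r i ^ (1 + 1 / s) := by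
      field_simp
      ring
    rw [e] at this
    have e' : hB.isHermitian.eigenvalues i ^ (1 + s) / (1 + s)
        = 1 / (1 + s) * hB.isHermitian.eigenvalues i ^ (1 + s) := by ring
    rw [e'] at this
    exact this
  refine (Finset.sum_le_sum fun i _ => h1 i).trans ?_
  rw [Finset.sum_add_distrib, ← Finset.mul_sum, ← Finset.mul_sum]
  have h2 : LTG.tp (1 + s) B = ∑ i, hB.isHermitian.eigenvalues i ^ (1 + s) := by
    unfold LTG.tp
    rw [dif_pos hB.isHermitian]
  rw [h2]
  have h3 : 0 ≤ s / (1 + s) := by positivity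
  have := mul_le_mul_of_nonneg_left e2 h3
  linarith

/-- convex combinations decrease the trace of the power: abstract form -/
lemma tp_le_of_dual {s : ℝ} (hs : 0 < s) {A : Matrix (Fin q) (Fin q) ℂ} (hA : A.PosSemidef)
    {c : ℝ} (h : ∀ Y : Matrix (Fin q) (Fin q) ℂ, Y.PosSemidef → ((A * Y).trace).re
      ≤ 1 / (1 + s) * c + s / (1 + s) * LTG.tp (1 + 1 / s) Y) : LTG.tp (1 + s) A ≤ c := by
  obtain ⟨Y, hY, h1, h2⟩ := LTG.pow q (1 / s) A (by positivity) hA
  have e : 1 + 1 / (1 / s) = 1 + s := by
    field_simp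
  rw [e] at h1 h2
  have h3 := h Y hY
  rw [h1, h2] at h3
  have h4 : LTG.tp (1 + s) A - s / (1 + s) * LTG.tp (1 + s) A = 1 / (1 + s) * LTG.tp (1 + s) A := by
    field_simp
    ring
  have h5 : 1 / (1 + s) * LTG.tp (1 + s) A ≤ 1 / (1 + s) * c := by linarith
  exact le_of_mul_le_mul_left h5 (by positivity)

lemma trace_toC_mul (V : Matrix (Fin q) (Fin q) ℝ) (Y : Matrix (Fin q) (Fin q) ℂ) :
    ((toC V * Y).trace).re = ∑ c, ∑ d, V c d * (Y d c).re := by
  unfold Matrix.trace
  simp only [Matrix.diag_apply, Matrix.mul_apply, toC, Matrix.map_apply, Complex.re_sum,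
    Complex.re_ofReal_mul]

lemma ii {V : ℝ → Matrix (Fin q) (Fin q) ℝ} {B : ℝ}
    (hm : ∀ c d, Measurable fun x => V x c d) (hB : ∀ x c d, |V x c d| ≤ B) (c d : Fin q)
    (a b : ℝ) : IntervalIntegrable (fun x => V x c d) volume a b :=
  ((loc_int hm hB c d).integrableOn_isCompact isCompact_uIcc).intervalIntegrable

lemma avg_cont {V : ℝ → Matrix (Fin q) (Fin q) ℝ} {B : ℝ} (h : ℝ)
    (hm : ∀ c d, Measurable fun x => V x c d) (hB : ∀ x c d, |V x c d| ≤ B) (c d : Fin q) :
    Continuous fun x => h⁻¹ * ∫ t in x..(x + h), V t c d := by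
  have h1 : Continuous fun x => ∫ t in (0 : ℝ)..x, V t c d :=
    intervalIntegral.continuous_primitive (fun a b => ii hm hB c d a b) 0
  have e : (fun x => h⁻¹ * ∫ t in x..(x + h), V t c d)
      = fun x => h⁻¹ * ((∫ t in (0 : ℝ)..(x + h), V t c d) - ∫ t in (0 : ℝ)..x, V t c d) := by
    funext x
    rw [intervalIntegral.integral_interval_sub_left (ii hm hB c d _ _) (ii hm hB c d _ _)]
  rw [e]
  exact continuous_const.mul ((h1.comp (continuous_add_const h)).sub h1)

lemma avg_lin {V : ℝ → Matrix (Fin q) (Fin q) ℝ} {B : ℝ} (h : ℝ)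
    (hm : ∀ c d, Measurable fun x => V x c d) (hB : ∀ x c d, |V x c d| ≤ B)
    (y : Fin q → Fin q → ℝ) (x : ℝ) :
    ∑ c, ∑ d, avg V h x c d * y c d = h⁻¹ * ∫ t in x..(x + h), ∑ c, ∑ d, V t c d * y c d := by
  rw [intervalIntegral.integral_finsetSum fun c _ => ?_]
  · rw [Finset.mul_sum]
    apply Finset.sum_congr rfl
    intro c _
    rw [intervalIntegral.integral_finsetSum fun d _ => (ii hm hB c d _ _).mul_const _]
    rw [Finset.mul_sum]
    apply Finset.sum_congr rfl
    intro d _
    rw [intervalIntegral.integral_mul_const]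
    unfold avg
    simp only [Matrix.of_apply]
    ring
  · have : IntervalIntegrable (∑ d : Fin q, fun t => V t c d * y c d) volume x (x + h) := by
      apply IntervalIntegrable.sum
      intro d _
      exact (ii hm hB c d _ _).mul_const _
    convert this using 1
    funext t
    simp

lemma avg_psd {V : ℝ → Matrix (Fin q) (Fin q) ℝ} {B h : ℝ} (hh : 0 < h)
    (hm : ∀ c d, Measurable fun x => V x c d) (hB : ∀ x c d, |V x c d| ≤ B)
    (hV : ∀ x, (V x).PosSemidef) (x : ℝ) : (avg V h x).PosSemidef := by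
  refine Matrix.PosSemidef.of_dotProduct_mulVec_nonneg ?_ fun z => ?_
  · ext c d
    simp only [Matrix.conjTranspose_apply, star_trivial, avg, Matrix.of_apply]
    congr 1
    apply intervalIntegral.integral_congr
    intro t _
    have := (hV t).1.apply c d
    simpa using this
  · have e : star z ⬝ᵥ ((avg V h x).mulVec z) = ∑ c, ∑ d, avg V h x c d * (z c * z d) := by
      rw [pair_eq]
      simp only [star_trivial]
      apply Finset.sum_congr rfl
      intro c _
      apply Finset.sum_congr rfl
      intro d _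
      ring
    rw [e, avg_lin h hm hB (fun c d => z c * z d)]
    apply mul_nonneg (inv_pos.2 hh).le
    apply intervalIntegral.integral_nonneg (by linarith)
    intro t _
    have h1 := (hV t).dotProduct_mulVec_nonneg z
    rw [pair_eq] at h1
    simp only [star_trivial] at h1
    refine h1.trans_eq ?_
    apply Finset.sum_congr rfl
    intro c _
    apply Finset.sum_congr rfl
    intro d _
    ring

/-- Jensen -/
lemma tp_avg_le {V : ℝ → Matrix (Fin q) (Fin q) ℝ} {B h s : ℝ} (hs : 0 < s) (hh : 0 < h)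
    (hm : ∀ c d, Measurable fun x => V x c d) (hB : ∀ x c d, |V x c d| ≤ B)
    (hV : ∀ x, (V x).PosSemidef) (hi : Integrable fun x => LTG.tp (1 + s) (toC (V x))) (x : ℝ) :
    LTG.tp (1 + s) (toC (avg V h x)) ≤ h⁻¹ * ∫ t in x..(x + h), LTG.tp (1 + s) (toC (V t)) := by
  apply tp_le_of_dual hs (toC_posSemidef (avg_psd hh hm hB hV x))
  intro Y hY
  rw [trace_toC_mul, avg_lin h hm hB (fun c d => (Y d c).re)]
  have h1 : ∫ t in x..(x + h), ∑ c, ∑ d, V t c d * (Y d c).re
      ≤ ∫ t in x..(x + h), (1 / (1 + s) * LTG.tp (1 + s) (toC (V t))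
        + s / (1 + s) * LTG.tp (1 + 1 / s) Y) := by
    apply intervalIntegral.integral_mono_on (by linarith)
    · have : IntervalIntegrable (∑ c : Fin q, ∑ d : Fin q, fun t => V t c d * (Y d c).re)
          volume x (x + h) := by
        apply IntervalIntegrable.sum
        intro c _
        apply IntervalIntegrable.sum
        intro d _
        exact (ii hm hB c d _ _).mul_const _
      convert this using 1
      funext t
      simp
    · exact (hi.intervalIntegrable.const_mul _).add intervalIntegrable_const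
    · intro t _
      rw [← trace_toC_mul]
      exact tp_dual hs (toC_posSemidef (hV t)) hY
  rw [intervalIntegral.integral_add (hi.intervalIntegrable.const_mul _) intervalIntegrable_const,
    intervalIntegral.integral_const_mul, intervalIntegral.integral_const] at h1
  have h2 := mul_le_mul_of_nonneg_left h1 (inv_pos.2 hh).le
  refine h2.trans_eq ?_
  rw [smul_eq_mul, add_sub_cancel_left]
  field_simp

/-- Fubini -/
lemma int_avg {φ : ℝ → ℝ} (hφ : Integrable φ) {h : ℝ} (hh : 0 < h) :
    Integrable (fun x => h⁻¹ * ∫ t in x..(x + h), φ t) ∧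
      ∫ x, h⁻¹ * ∫ t in x..(x + h), φ t = ∫ x, φ x := by
  set f : ℝ → ℝ := (Ioc (-h) 0).indicator fun _ => h⁻¹ with hf
  have hfi : Integrable f := by
    rw [hf, integrable_indicator_iff measurableSet_Ioc]
    exact integrableOn_const (by simp)
  have e : (fun x => h⁻¹ * ∫ t in x..(x + h), φ t)
      = (f ⋆[ContinuousLinearMap.lsmul ℝ ℝ, volume] φ : ℝ → ℝ) := by
    funext x
    rw [MeasureTheory.convolution_lsmul]
    have e1 : (fun t => f t • φ (x - t)) = (Ioc (-h) 0).indicator fun t => h⁻¹ * φ (x - t) := by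
      funext t
      rw [hf]
      unfold Set.indicator
      split_ifs <;> simp
    rw [e1, integral_indicator measurableSet_Ioc, ← intervalIntegral.integral_of_le (by linarith),
      intervalIntegral.integral_const_mul, intervalIntegral.integral_comp_sub_left]
    simp
  have hI : ∫ x, f x = 1 := by
    rw [hf, integral_indicator measurableSet_Ioc, setIntegral_const]
    simp only [Real.volume_real_Ioc, smul_eq_mul]
    rw [max_eq_left (by linarith)]
    field_simp
    ring
  rw [e]
  refine ⟨hfi.integrable_convolution _ hφ, ?_⟩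
  rw [integral_convolution _ hfi hφ, hI]
  simp

end LTH.NICE

namespace LTH

open Matrix Set Filter MeasureTheory NICE
open scoped ComplexOrder Topology ComplexConjugate

theorem s_avg : S_AVG := by
  intro s q V B N h hs hh hm hV hB hN hi
  refine ⟨fun c d => avg_cont h hm hB c d, fun x => avg_psd hh hm hB hV x, ?_⟩
  obtain ⟨h1, h2⟩ := int_avg hi hh
  rw [← h2]
  apply integral_mono_of_nonneg
  · filter_upwards with x
    exact tp_nonneg (toC_posSemidef (avg_psd hh hm hB hV x)) _
  · exact h1
  · filter_upwards with x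
    exact tp_avg_le hs hh hm hB hV hi x

/-- NICE -/
theorem nice_all : S_NICE := nice s_avg

end LTH
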