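import Vale.Agent.P371H.Defs

/-!
# NICE: the moving average half (helper9), statement
-/

namespace LTH

open Matrix Set Filter MeasureTheory
open scoped ComplexOrder Topology ComplexConjugate

/-- moving average of a bounded potential of compact support -/
def S_AVG : Prop := ∀ (s : ℝ) (q : ℕ) (V : ℝ → Matrix (Fin q) (Fin q) ℝ) (B N h : ℝ),
  0 < s → 0 < h → (∀ c d, Measurable fun x => V x c d) → (∀ x, (V x).PosSemidef) →
  (∀ x c d, |V x c d| ≤ B) → (∀ x, x ∉ Icc (-N) N → V x = 0) →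
  Integrable (fun x => LTG.tp (1 + s) (toC (V x))) →
  (∀ c d, Continuous fun x => h⁻¹ * ∫ t in x..(x + h), V t c d) ∧
  (∀ x, (Matrix.of fun c d => h⁻¹ * ∫ t in x..(x + h), V t c d).PosSemidef) ∧
  (∫ x, LTG.tp (1 + s) (toC (Matrix.of fun c d => h⁻¹ * ∫ t in x..(x + h), V t c d)))
    ≤ ∫ x, LTG.tp (1 + s) (toC (V x))

end LTH
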