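import Vale.Agent.P371H.Defs
import Vale.Agent.P371.MFam

/-! # P371H, module REAL, part 1: the real form of a complex matrix -/

namespace LTH.REAL

open Matrix Set Filter MeasureTheory
open scoped ComplexOrder Topology ComplexConjugate

variable {m n : ℕ}

/-- real form of a complex vector -/
def rv (v : Fin m → ℂ) : Fin (m + m) → ℝ := fun b =>
  Sum.elim (fun c => (v c).re) (fun c => (v c).im) (finSumFinEquiv.symm b)

/-- block form of a complex matrix -/
def bm (A : Matrix (Fin m) (Fin m) ℂ) : Matrix (Fin m ⊕ Fin m) (Fin m ⊕ Fin m) ℝ :=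
  fromBlocks (A.map Complex.re) (-(A.map Complex.im)) (A.map Complex.im) (A.map Complex.re)

/-- real form of a complex matrix -/
def rm (A : Matrix (Fin m) (Fin m) ℂ) : Matrix (Fin (m + m)) (Fin (m + m)) ℝ :=
  (bm A).submatrix finSumFinEquiv.symm finSumFinEquiv.symm

lemma sum_fin (f : Fin (m + m) → ℝ) : ∑ b, f b
    = ∑ c, f (finSumFinEquiv (Sum.inl c)) + ∑ c, f (finSumFinEquiv (Sum.inr c)) := by
  rw [← finSumFinEquiv.sum_comp, Fintype.sum_sum_type]

lemma rv_inl (v : Fin m → ℂ) (c : Fin m) : rv v (finSumFinEquiv (Sum.inl c)) = (v c).re := by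
  simp only [rv, Equiv.symm_apply_apply, Sum.elim_inl]

lemma rv_inr (v : Fin m → ℂ) (c : Fin m) : rv v (finSumFinEquiv (Sum.inr c)) = (v c).im := by
  simp only [rv, Equiv.symm_apply_apply, Sum.elim_inr]

lemma rv_dot (v w : Fin m → ℂ) : rv v ⬝ᵥ rv w = (LTM.pair v w).re := by
  simp only [dotProduct, sum_fin, rv_inl, rv_inr, LTM.pair, Complex.re_sum, Complex.mul_re,
    Complex.conj_re, Complex.conj_im]
  rw [← Finset.sum_add_distrib]
  exact Finset.sum_congr rfl fun c _ => by ring

lemma ext_fin {α : Type*} {f g : Fin (m + m) → α}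
    (h1 : ∀ c, f (finSumFinEquiv (Sum.inl c)) = g (finSumFinEquiv (Sum.inl c)))
    (h2 : ∀ c, f (finSumFinEquiv (Sum.inr c)) = g (finSumFinEquiv (Sum.inr c))) : f = g := by
  funext b
  obtain ⟨b, rfl⟩ := finSumFinEquiv.surjective b
  rcases b with c | c
  · exact h1 c
  · exact h2 c

lemma rm_mulVec (A : Matrix (Fin m) (Fin m) ℂ) (v : Fin m → ℂ) :
    (rm A).mulVec (rv v) = rv (A.mulVec v) := by
  apply ext_fin
  · intro c
    simp only [mulVec, dotProduct, sum_fin, rv_inl, rv_inr, rm, submatrix_apply,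
      Equiv.symm_apply_apply, bm, fromBlocks_apply₁₁, fromBlocks_apply₁₂, map_apply,
      Matrix.neg_apply, Complex.re_sum, Complex.mul_re]
    rw [← Finset.sum_add_distrib]
    exact Finset.sum_congr rfl fun d _ => by ring
  · intro c
    simp only [mulVec, dotProduct, sum_fin, rv_inl, rv_inr, rm, submatrix_apply,
      Equiv.symm_apply_apply, bm, fromBlocks_apply₂₁, fromBlocks_apply₂₂, map_apply,
      Complex.im_sum, Complex.mul_im]
    rw [← Finset.sum_add_distrib]
    exact Finset.sum_congr rfl fun d _ => by ring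

lemma exists_rv (x : Fin (m + m) → ℝ) : ∃ v : Fin m → ℂ, rv v = x := by
  refine ⟨fun c => ⟨x (finSumFinEquiv (Sum.inl c)), x (finSumFinEquiv (Sum.inr c))⟩, ?_⟩
  apply ext_fin
  · intro c; rw [rv_inl]
  · intro c; rw [rv_inr]

lemma herm_re {A : Matrix (Fin m) (Fin m) ℂ} (hA : A.IsHermitian) (c d : Fin m) :
    (A d c).re = (A c d).re := by
  have := hA.apply c d
  rw [← this]; simp

lemma herm_im {A : Matrix (Fin m) (Fin m) ℂ} (hA : A.IsHermitian) (c d : Fin m) :
    (A d c).im = -(A c d).im := by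
  have := hA.apply c d
  rw [← this]; simp

lemma bm_symm {A : Matrix (Fin m) (Fin m) ℂ} (hA : A.IsHermitian) : (bm A)ᵀ = bm A := by
  unfold bm
  rw [fromBlocks_transpose]
  congr 1
  · ext c d; simp [herm_re hA c d]
  · ext c d; simp [herm_im hA c d]
  · ext c d; simp [herm_im hA c d]
  · ext c d; simp [herm_re hA c d]

lemma rm_symm {A : Matrix (Fin m) (Fin m) ℂ} (hA : A.IsHermitian) : (rm A)ᵀ = rm A := by
  unfold rm
  rw [transpose_submatrix, bm_symm hA]

lemma pair_conj (v w : Fin m → ℂ) : LTM.pair w v = conj (LTM.pair v w) := by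
  simp only [LTM.pair, map_sum, map_mul, Complex.conj_conj]
  exact Finset.sum_congr rfl fun c _ => mul_comm _ _

lemma rm_posSemidef {A : Matrix (Fin m) (Fin m) ℂ} (hA : A.PosSemidef) : (rm A).PosSemidef := by
  refine posSemidef_iff_dotProduct_mulVec.mpr ⟨?_, fun x => ?_⟩
  · unfold Matrix.IsHermitian
    rw [conjTranspose_eq_transpose_of_trivial]
    exact rm_symm hA.isHermitian
  · obtain ⟨v, rfl⟩ := exists_rv x
    rw [rm_mulVec, star_trivial, rv_dot, pair_conj, Complex.conj_re]
    exact LTM.pair_nonneg hA v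

lemma toC_isHermitian {q : ℕ} {B : Matrix (Fin q) (Fin q) ℝ} (hB : Bᵀ = B) :
    (toC B).IsHermitian := by
  unfold Matrix.IsHermitian toC
  ext c d
  simp only [conjTranspose_apply, map_apply, RCLike.star_def, Complex.conj_ofReal]
  have := congrFun (congrFun hB c) d
  rw [transpose_apply] at this
  rw [this]

lemma tp_eq_roots {α : Type*} [Fintype α] [DecidableEq α] (p : ℝ) {A : Matrix α α ℂ}
    (hA : A.IsHermitian) : LTG.tp p A = (A.charpoly.roots.map fun z => z.re ^ p).sum := by
  unfold LTG.tp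
  rw [dif_pos hA, hA.roots_charpoly_eq_eigenvalues, Multiset.map_map]
  simp only [Function.comp_def, Complex.coe_algebraMap, Complex.ofReal_re]
  rfl

lemma trPow_eq_roots (p : ℝ) {A : Matrix (Fin m) (Fin m) ℂ}
    (hA : A.IsHermitian) : LTM.trPow p A = (A.charpoly.roots.map fun z => z.re ^ p).sum := by
  unfold LTM.trPow
  rw [dif_pos hA, hA.roots_charpoly_eq_eigenvalues, Multiset.map_map]
  simp only [Function.comp_def, Complex.coe_algebraMap, Complex.ofReal_re]
  rfl

/-- the characteristic polynomial of the real form -/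
lemma charpoly_rm {A : Matrix (Fin m) (Fin m) ℂ} (hA : A.IsHermitian) :
    (toC (rm A)).charpoly = A.charpoly * A.charpoly := by
  set M : Matrix (Fin m ⊕ Fin m) (Fin m ⊕ Fin m) ℂ := toC (bm A) with hM
  have e1 : toC (rm A) = reindex finSumFinEquiv finSumFinEquiv M := by
    ext c d; rfl
  rw [e1, charpoly_reindex]
  set Ar : Matrix (Fin m) (Fin m) ℂ := toC (A.map Complex.re) with hAr
  set Ai : Matrix (Fin m) (Fin m) ℂ := toC (A.map Complex.im) with hAi
  have e2 : M = fromBlocks Ar (-Ai) Ai Ar := by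
    rw [hM]
    unfold toC bm
    rw [fromBlocks_map]
    congr 1
    ext c d
    simp [hAi, toC]
  have eA : A = Ar + Complex.I • Ai := by
    ext c d
    simp only [hAr, hAi, toC, map_apply, Matrix.add_apply, Matrix.smul_apply, smul_eq_mul]
    rw [mul_comm]
    exact (Complex.re_add_im _).symm
  have eAt : Aᵀ = Ar - Complex.I • Ai := by
    ext c d
    simp only [hAr, hAi, toC, map_apply, Matrix.sub_apply, Matrix.smul_apply, smul_eq_mul,
      transpose_apply]
    apply Complex.ext
    · simp [herm_re hA c d]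
    · simp [herm_im hA c d]
  set S : Matrix (Fin m ⊕ Fin m) (Fin m ⊕ Fin m) ℂ :=
    fromBlocks 1 1 (-(Complex.I • 1)) (Complex.I • 1) with hS
  set S' : Matrix (Fin m ⊕ Fin m) (Fin m ⊕ Fin m) ℂ :=
    fromBlocks ((1 / 2 : ℂ) • 1) ((Complex.I / 2) • 1) ((1 / 2 : ℂ) • 1) (-((Complex.I / 2) • 1))
    with hS'
  set D : Matrix (Fin m ⊕ Fin m) (Fin m ⊕ Fin m) ℂ := fromBlocks A 0 0 Aᵀ with hD
  have h1 : S * S' = 1 := by
    rw [hS, hS', fromBlocks_multiply, ← fromBlocks_one]
    congr 1
    · simp only [Matrix.one_mul]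
      rw [← add_smul]; norm_num
    · simp only [Matrix.one_mul]
      abel
    · simp only [Matrix.neg_mul, Matrix.smul_mul, Matrix.one_mul]
      abel
    · simp only [Matrix.neg_mul, Matrix.mul_neg, Matrix.smul_mul, Matrix.one_mul, smul_smul]
      rw [← neg_add, ← add_smul, ← neg_smul]
      have : -(Complex.I * (Complex.I / 2) + Complex.I * (Complex.I / 2)) = 1 := by
        rw [← mul_add, add_halves, Complex.I_mul_I, neg_neg]
      rw [this, one_smul]
  have h2 : S' * S = 1 := mul_eq_one_comm.mp h1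
  have h3 : M * S = S * D := by
    rw [e2, hS, hD, fromBlocks_multiply, fromBlocks_multiply]
    congr 1
    · rw [eA]
      simp only [Matrix.mul_one, Matrix.one_mul, Matrix.mul_neg, Matrix.mul_smul,
        Matrix.mul_zero, smul_neg, neg_neg, add_zero]
    · rw [eAt]
      simp only [Matrix.mul_one, Matrix.one_mul, Matrix.mul_smul,
        Matrix.mul_zero, smul_neg, zero_add]
      abel
    · rw [eA]
      simp only [Matrix.mul_one, Matrix.one_mul, Matrix.mul_neg, Matrix.neg_mul, Matrix.mul_smul,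
        Matrix.smul_mul, Matrix.mul_zero, add_zero, smul_add, smul_smul, Complex.I_mul_I, neg_smul,
        one_smul, neg_add, neg_neg]
      abel
    · rw [eAt]
      simp only [Matrix.mul_one, Matrix.one_mul, Matrix.mul_smul,
        Matrix.smul_mul, Matrix.mul_zero, zero_add, smul_sub, smul_smul, Complex.I_mul_I, neg_smul,
        one_smul]
      abel
  have h4 : M = S * D * S' := by
    rw [← h3, Matrix.mul_assoc, h1, Matrix.mul_one]
  rw [h4, charpoly_mul_comm, ← Matrix.mul_assoc, h2, Matrix.one_mul, hD, charpoly_fromBlocks_zero₁₂,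
    charpoly_transpose]

lemma tp_rm (p : ℝ) {A : Matrix (Fin m) (Fin m) ℂ} (hA : A.IsHermitian) :
    LTG.tp p (toC (rm A)) = 2 * LTM.trPow p A := by
  rw [tp_eq_roots p (toC_isHermitian (rm_symm hA)), charpoly_rm hA, trPow_eq_roots p hA,
    Polynomial.roots_mul (mul_ne_zero (charpoly_monic A).ne_zero (charpoly_monic A).ne_zero),
    Multiset.map_add, Multiset.sum_add]
  ring

end LTH.REAL
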