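import Mathlib
import Vale.Agent.P371H.Defs

/-!
# P371, all `γ ∈ (1/2, 3/2)`: module XDEF, the dilated potential `X = w R W R wᵀ`
-/

namespace LTH

open Matrix Set Filter MeasureTheory
open scoped ComplexOrder Topology ComplexConjugate

namespace XDEF

variable {n q : ℕ}

theorem cont_spec (G : Matrix (Fin q) (Fin q) ℝ) (f : ℝ → ℝ) : ContinuousOn f (spectrum ℝ G) :=
  (Matrix.finite_real_spectrum).continuousOn f

theorem mul_cfc (G : Matrix (Fin q) (Fin q) ℝ) (f g : ℝ → ℝ) :
    cfc f G * cfc g G = cfc (fun x => f x * g x) G :=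
  (cfc_mul f g G (cont_spec G f) (cont_spec G g)).symm

theorem sub_cfc (G : Matrix (Fin q) (Fin q) ℝ) (f g : ℝ → ℝ) :
    cfc f G - cfc g G = cfc (fun x => f x - g x) G :=
  (cfc_sub f g G (cont_spec G f) (cont_spec G g)).symm

theorem herm_cfc (G : Matrix (Fin q) (Fin q) ℝ) (f : ℝ → ℝ) : (cfc f G).IsHermitian :=
  cfc_predicate f G

/-- entries of matrix functions -/
theorem abs_cfc_le {G : Matrix (Fin q) (Fin q) ℝ} (hG : G.IsHermitian) (f : ℝ → ℝ) {M : ℝ}
    (hM : 0 ≤ M) (h : ∀ i, |f (hG.eigenvalues i)| ≤ M) (i j : Fin q) : |cfc f G i j| ≤ M := by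
  rw [hG.cfc_eq, Matrix.IsHermitian.cfc, Unitary.conjStarAlgAut_apply]
  set U : Matrix (Fin q) (Fin q) ℝ := (hG.eigenvectorUnitary : Matrix (Fin q) (Fin q) ℝ) with hU
  have hUU : U * star U = 1 := Unitary.coe_mul_star_self hG.eigenvectorUnitary
  have hrow : ∀ i, ∑ a, U i a ^ 2 = 1 := by
    intro i
    have := congrFun (congrFun hUU i) i
    simp only [Matrix.mul_apply, Matrix.star_apply, star_trivial, Matrix.one_apply_eq] at this
    rw [← this]
    exact Finset.sum_congr rfl fun a _ => by ring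
  have e : (U * Matrix.diagonal (RCLike.ofReal ∘ f ∘ hG.eigenvalues) * star U :
      Matrix (Fin q) (Fin q) ℝ) i j
      = ∑ a, U i a * f (hG.eigenvalues a) * U j a := by
    rw [Matrix.mul_apply]
    refine Finset.sum_congr rfl fun a _ => ?_
    simp [Matrix.mul_diagonal, Matrix.star_apply]
  rw [e]
  calc |∑ a, U i a * f (hG.eigenvalues a) * U j a|
      ≤ ∑ a, |U i a * f (hG.eigenvalues a) * U j a| := Finset.abs_sum_le_sum_abs _ _
    _ ≤ ∑ a, M * ((U i a ^ 2 + U j a ^ 2) / 2) := by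
        refine Finset.sum_le_sum fun a _ => ?_
        rw [abs_mul, abs_mul]
        have h1 : |U i a| * |U j a| ≤ (U i a ^ 2 + U j a ^ 2) / 2 := by
          have := sq_nonneg (|U i a| - |U j a|)
          have e1 := sq_abs (U i a)
          have e2 := sq_abs (U j a)
          nlinarith
        have h2 := h a
        have h3 : 0 ≤ |U i a| * |U j a| := by positivity
        calc |U i a| * |f (hG.eigenvalues a)| * |U j a|
            = |f (hG.eigenvalues a)| * (|U i a| * |U j a|) := by ring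
          _ ≤ M * (|U i a| * |U j a|) := mul_le_mul_of_nonneg_right h2 h3
          _ ≤ _ := mul_le_mul_of_nonneg_left h1 hM
    _ = M := by
        rw [← Finset.mul_sum, ← Finset.sum_div, Finset.sum_add_distrib, hrow, hrow]
        ring

/-- continuity of matrix functions -/
theorem cont_cfc {Y : Type*} [TopologicalSpace Y] {f : ℝ → ℝ} (hf : ContinuousOn f (Ici 0))
    {G : Y → Matrix (Fin q) (Fin q) ℝ} (hG : Continuous G) (hpsd : ∀ y, (G y).PosSemidef)
    (i j : Fin q) : Continuous fun y => cfc f (G y) i j := by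
  have hH : ∀ x, (G x).IsHermitian := fun x => (hpsd x).isHermitian
  rw [continuous_iff_continuousAt]
  intro x0
  have hR : Continuous fun x => (G x).trace := Continuous.matrix_trace hG
  set R : ℝ := (G x0).trace + 1 with hRdef
  have hev : ∀ᶠ x in 𝓝 x0, (G x).trace < R :=
    hR.continuousAt.eventually_lt continuousAt_const (by rw [hRdef]; linarith)
  have hle : ∀ x, (G x).trace < R → ∀ i, (hH x).eigenvalues i ∈ Icc (0 : ℝ) R := by
    intro x hx i
    refine ⟨(hpsd x).eigenvalues_nonneg i, ?_⟩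
    have h1 : (G x).trace = ∑ j, (hH x).eigenvalues j := by
      have := (hH x).trace_eq_sum_eigenvalues
      simpa using this
    have h2 : (hH x).eigenvalues i ≤ ∑ j, (hH x).eigenvalues j :=
      Finset.single_le_sum (f := fun j => (hH x).eigenvalues j)
        (fun j _ => (hpsd x).eigenvalues_nonneg j) (Finset.mem_univ i)
    linarith
  refine continuousAt_of_locally_uniform_approx_of_continuousAt fun u hu => ?_
  obtain ⟨ε, hε, hεu⟩ := Metric.mem_uniformity_dist.mp hu
  obtain ⟨P, hP⟩ := exists_polynomial_near_of_continuousOn 0 R f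
    (hf.mono fun t ht => ht.1) (ε / 2) (by positivity)
  refine ⟨_, hev, fun x => (Polynomial.aeval (G x) P) i j, ?_, ?_⟩
  · refine Continuous.continuousAt ?_
    refine Continuous.matrix_elem ?_ i j
    simp only [Polynomial.aeval_eq_sum_range]
    refine continuous_finsetSum _ fun i _ => ?_
    exact Continuous.const_smul (hG.pow i) (P.coeff i)
  · intro x hx
    refine hεu ?_
    have hx' : (G x).trace < R := hx
    have h1 : Polynomial.aeval (G x) P = cfc (fun t : ℝ => P.eval t) (G x) :=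
      (cfc_polynomial P (G x) (ha := hH x)).symm
    show dist (cfc f (G x) i j) ((Polynomial.aeval (G x) P) i j) < ε
    rw [Real.dist_eq, h1, ← Matrix.sub_apply, sub_cfc]
    refine lt_of_le_of_lt (abs_cfc_le (hH x) _ (M := ε / 2) (by positivity) ?_ i j) (by linarith)
    intro a
    rw [abs_sub_comm]
    exact (hP _ (hle x hx' a)).le

/-- Jensen with subprobability weights -/
theorem jensen_sub {ι : Type*} [Fintype ι] {p : ℝ} (hp : 1 ≤ p) (w μ : ι → ℝ) (hw : ∀ i, 0 ≤ w i)
    (hμ : ∀ i, 0 ≤ μ i) (h1 : ∑ i, w i ≤ 1) : (∑ i, w i * μ i) ^ p ≤ ∑ i, w i * μ i ^ p := by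
  have h := (convexOn_rpow hp).map_add_sum_le (t := Finset.univ) (w := w) (p := μ)
    (v := 1 - ∑ i, w i) (q := 0) (fun i _ => hw i) (by ring) (fun i _ => hμ i) (by linarith)
    (Set.mem_Ici.mpr le_rfl)
  simp only [smul_eq_mul, mul_zero, zero_add] at h
  rwa [Real.zero_rpow (by linarith), mul_zero, zero_add] at h

/-- unitary diagonalisation -/
theorem exists_unitary {A : Matrix (Fin n) (Fin n) ℂ} (hA : A.IsHermitian) :
    ∃ P : Matrix (Fin n) (Fin n) ℂ, Pᴴ * P = 1 ∧ P * Pᴴ = 1 ∧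
      A = P * diagonal (fun i => ((hA.eigenvalues i : ℝ) : ℂ)) * Pᴴ := by
  refine ⟨(hA.eigenvectorUnitary : Matrix (Fin n) (Fin n) ℂ), ?_, ?_, ?_⟩
  · exact Unitary.coe_star_mul_self hA.eigenvectorUnitary
  · exact Unitary.coe_mul_star_self hA.eigenvectorUnitary
  · have := hA.spectral_theorem
    rw [Unitary.conjStarAlgAut_apply] at this
    exact this

/-- compression by a contraction decreases `tr (A ^ p)` -/
theorem tp_contr {p : ℝ} (hp : 1 ≤ p) {K : Matrix (Fin n) (Fin q) ℂ}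
    {B : Matrix (Fin q) (Fin q) ℂ} (hB : B.PosSemidef) (h1 : (1 - Kᴴ * K).PosSemidef)
    (h2 : (1 - K * Kᴴ).PosSemidef) : LTG.tp p (K * B * Kᴴ) ≤ LTG.tp p B := by
  have hA : (K * B * Kᴴ).PosSemidef := hB.mul_mul_conjTranspose_same K
  have hAH := hA.isHermitian
  have hBH := hB.isHermitian
  obtain ⟨U, u1, u2, hU⟩ := exists_unitary hAH
  obtain ⟨V, v1, v2, hV⟩ := exists_unitary hBH
  rw [LTG.tp, dif_pos hAH, LTG.tp, dif_pos hBH]
  set la := hAH.eigenvalues with hla
  set mu := hBH.eigenvalues with hmu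
  set T : Matrix (Fin n) (Fin q) ℂ := Uᴴ * K * V with hT
  have hTH : Tᴴ = Vᴴ * Kᴴ * U := by
    rw [hT, conjTranspose_mul, conjTranspose_mul, conjTranspose_conjTranspose, Matrix.mul_assoc]
  have e1 : diagonal (fun i => ((la i : ℝ) : ℂ)) = T * diagonal (fun a => ((mu a : ℝ) : ℂ)) * Tᴴ := by
    have s1 : Uᴴ * (K * B * Kᴴ) * U = diagonal (fun i => ((la i : ℝ) : ℂ)) := by
      rw [hU]
      calc Uᴴ * (U * diagonal (fun i => ((la i : ℝ) : ℂ)) * Uᴴ) * U
          = (Uᴴ * U) * diagonal (fun i => ((la i : ℝ) : ℂ)) * (Uᴴ * U) := by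
            simp only [Matrix.mul_assoc]
        _ = _ := by rw [u1, Matrix.one_mul, Matrix.mul_one]
    rw [← s1, hTH, hT]
    conv_lhs => rw [hV]
    simp only [Matrix.mul_assoc]
  have e2 : ∀ i, la i = ∑ a, ‖T i a‖ ^ 2 * mu a := by
    intro i
    have h := congrFun (congrFun e1 i) i
    rw [Matrix.mul_apply, Matrix.diagonal_apply_eq] at h
    simp only [Matrix.conjTranspose_apply, Matrix.mul_diagonal] at h
    have h' : ((la i : ℝ) : ℂ) = ((∑ a, ‖T i a‖ ^ 2 * mu a : ℝ) : ℂ) := by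
      rw [h]
      push_cast
      refine Finset.sum_congr rfl fun a _ => ?_
      rw [RCLike.star_def]
      have := Complex.mul_conj (T i a)
      rw [Complex.normSq_eq_norm_sq] at this
      push_cast at this
      linear_combination (mu a : ℂ) * this
    exact_mod_cast h'
  have row : ∀ i, ∑ a, ‖T i a‖ ^ 2 ≤ 1 := by
    intro i
    have hps : (1 - T * Tᴴ).PosSemidef := by
      have := h2.conjTranspose_mul_mul_same U
      have e : Uᴴ * (1 - K * Kᴴ) * U = 1 - T * Tᴴ := by
        rw [hTH, hT, Matrix.mul_sub, Matrix.sub_mul, Matrix.mul_one, u1]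
        congr 1
        calc Uᴴ * (K * Kᴴ) * U = Uᴴ * K * (1 : Matrix (Fin q) (Fin q) ℂ) * Kᴴ * U := by
              rw [Matrix.mul_one]; simp only [Matrix.mul_assoc]
          _ = Uᴴ * K * (V * Vᴴ) * Kᴴ * U := by rw [v2]
          _ = _ := by simp only [Matrix.mul_assoc]
      rwa [e] at this
    have hd := hps.diag_nonneg (i := i)
    rw [Matrix.sub_apply, Matrix.one_apply_eq, Matrix.mul_apply] at hd
    simp only [Matrix.conjTranspose_apply, RCLike.star_def, Complex.mul_conj,
      Complex.normSq_eq_norm_sq] at hd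
    have hd' : (0 : ℂ) ≤ ((1 - ∑ a, ‖T i a‖ ^ 2 : ℝ) : ℂ) := by
      push_cast at hd ⊢
      exact hd
    have := Complex.zero_le_real.mp hd'
    linarith
  have col : ∀ a, ∑ i, ‖T i a‖ ^ 2 ≤ 1 := by
    intro a
    have hps : (1 - Tᴴ * T).PosSemidef := by
      have := h1.conjTranspose_mul_mul_same V
      have e : Vᴴ * (1 - Kᴴ * K) * V = 1 - Tᴴ * T := by
        rw [hTH, hT, Matrix.mul_sub, Matrix.sub_mul, Matrix.mul_one, v1]
        congr 1
        calc Vᴴ * (Kᴴ * K) * V = Vᴴ * Kᴴ * (1 : Matrix (Fin n) (Fin n) ℂ) * K * V := by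
              rw [Matrix.mul_one]; simp only [Matrix.mul_assoc]
          _ = Vᴴ * Kᴴ * (U * Uᴴ) * K * V := by rw [u2]
          _ = _ := by simp only [Matrix.mul_assoc]
      rwa [e] at this
    have hd := hps.diag_nonneg (i := a)
    rw [Matrix.sub_apply, Matrix.one_apply_eq, Matrix.mul_apply] at hd
    simp only [Matrix.conjTranspose_apply, RCLike.star_def, mul_comm (conj _), Complex.mul_conj,
      Complex.normSq_eq_norm_sq] at hd
    have hd' : (0 : ℂ) ≤ ((1 - ∑ i, ‖T i a‖ ^ 2 : ℝ) : ℂ) := by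
      push_cast at hd ⊢
      exact hd
    have := Complex.zero_le_real.mp hd'
    linarith
  have hmu0 : ∀ a, 0 ≤ mu a := fun a => hB.eigenvalues_nonneg a
  calc ∑ i, la i ^ p = ∑ i, (∑ a, ‖T i a‖ ^ 2 * mu a) ^ p :=
        Finset.sum_congr rfl fun i _ => by rw [e2 i]
    _ ≤ ∑ i, ∑ a, ‖T i a‖ ^ 2 * mu a ^ p :=
        Finset.sum_le_sum fun i _ => jensen_sub hp _ _ (fun a => sq_nonneg _) hmu0 (row i)
    _ = ∑ a, (∑ i, ‖T i a‖ ^ 2) * mu a ^ p := by
        rw [Finset.sum_comm]
        exact Finset.sum_congr rfl fun a _ => (Finset.sum_mul _ _ _).symm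
    _ ≤ ∑ a, mu a ^ p := by
        refine Finset.sum_le_sum fun a _ => ?_
        have := mul_le_mul_of_nonneg_right (col a) (Real.rpow_nonneg (hmu0 a) p)
        rwa [one_mul] at this

theorem contr_symm {K : Matrix (Fin n) (Fin q) ℂ} (h1 : (1 - Kᴴ * K).PosSemidef) :
    (1 - K * Kᴴ).PosSemidef := by
  let i1 : Invertible (1 : Matrix (Fin n) (Fin n) ℂ) := invertibleOne
  let i2 : Invertible (1 : Matrix (Fin q) (Fin q) ℂ) := invertibleOne
  have h3 : (Matrix.fromBlocks (1 : Matrix (Fin n) (Fin n) ℂ) K Kᴴ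
      (1 : Matrix (Fin q) (Fin q) ℂ)).PosSemidef := by
    rw [Matrix.PosDef.fromBlocks₁₁ K 1 Matrix.PosDef.one]
    rwa [inv_one, Matrix.mul_one]
  rw [Matrix.PosDef.fromBlocks₂₂ 1 K Matrix.PosDef.one] at h3
  rwa [inv_one, Matrix.mul_one] at h3

theorem toC_mul {a b c : ℕ} (A : Matrix (Fin a) (Fin b) ℝ) (B : Matrix (Fin b) (Fin c) ℝ) :
    toC (A * B) = toC A * toC B := by
  ext i j
  simp [toC, Matrix.mul_apply]

theorem toC_transpose {a b : ℕ} (A : Matrix (Fin a) (Fin b) ℝ) : toC Aᵀ = (toC A)ᴴ := by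
  ext i j
  simp [toC]

theorem toC_one {a : ℕ} : toC (1 : Matrix (Fin a) (Fin a) ℝ) = 1 := by
  ext i j
  rw [toC, Matrix.map_apply, Matrix.one_apply, Matrix.one_apply]
  split_ifs <;> simp

theorem toC_sub {a b : ℕ} (A B : Matrix (Fin a) (Fin b) ℝ) : toC (A - B) = toC A - toC B := by
  ext i j
  simp [toC]

theorem exists_root {A : Matrix (Fin q) (Fin q) ℝ} (hA : A.PosSemidef) :
    ∃ B : Matrix (Fin q) (Fin q) ℝ, A = Bᵀ * B := by
  refine ⟨cfc Real.sqrt A, ?_⟩
  have h1 := herm_cfc A Real.sqrt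
  rw [Matrix.IsHermitian, Matrix.conjTranspose_eq_transpose_of_trivial] at h1
  have hid : cfc (fun x : ℝ => x) A = A := cfc_id' ℝ A (ha := hA.isHermitian)
  rw [h1, mul_cfc]
  refine hid.symm.trans (cfc_congr fun x hx => ?_)
  rw [hA.isHermitian.spectrum_real_eq_range_eigenvalues] at hx
  obtain ⟨i, rfl⟩ := hx
  exact (Real.mul_self_sqrt (hA.eigenvalues_nonneg i)).symm

theorem toC_psd {a : ℕ} {A : Matrix (Fin a) (Fin a) ℝ} (hA : A.PosSemidef) :
    (toC A).PosSemidef := by
  obtain ⟨B, hB⟩ := exists_root hA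
  rw [hB, toC_mul, toC_transpose]
  exact Matrix.posSemidef_conjTranspose_mul_self _

theorem gram (w : Matrix (Fin n) (Fin q) ℝ) : (wᵀ * w).PosSemidef := by
  rw [← Matrix.conjTranspose_eq_transpose_of_trivial]
  exact Matrix.posSemidef_conjTranspose_mul_self _

/-- the function `(t + ε)^{-1/2}` -/
noncomputable def ff (ε t : ℝ) : ℝ := (√(t + ε))⁻¹

theorem ff_cont {ε : ℝ} (hε : 0 < ε) : ContinuousOn (ff ε) (Ici 0) := by
  unfold ff
  refine ContinuousOn.inv₀ (by fun_prop) fun t ht => ?_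
  have : 0 < √(t + ε) := Real.sqrt_pos.mpr (by have := Set.mem_Ici.mp ht; linarith)
  exact this.ne'

theorem ff_sq {ε : ℝ} (hε : 0 < ε) {t : ℝ} (ht : 0 ≤ t) :
    ff ε t * t * ff ε t = 1 - ε * (ff ε t * ff ε t) := by
  unfold ff
  have h1 : 0 < √(t + ε) := Real.sqrt_pos.mpr (by linarith)
  have h2 : √(t + ε) * √(t + ε) = t + ε := Real.mul_self_sqrt (by linarith)
  field_simp
  nlinarith

/-- `R = (G + ε)^{-1/2}` -/
noncomputable def Rm (ε : ℝ) (G : Matrix (Fin q) (Fin q) ℝ) : Matrix (Fin q) (Fin q) ℝ :=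
  cfc (ff ε) G

theorem Rm_comm (ε : ℝ) {G : Matrix (Fin q) (Fin q) ℝ} (hG : G.PosSemidef) :
    Rm ε G * G = G * Rm ε G := by
  have hid : cfc (fun x : ℝ => x) G = G := cfc_id' ℝ G (ha := hG.isHermitian)
  have h1 : cfc (ff ε) G * cfc (fun x : ℝ => x) G = cfc (fun x : ℝ => x) G * cfc (ff ε) G := by
    rw [mul_cfc, mul_cfc]
    congr 1
    ext x
    ring
  rwa [hid] at h1

theorem Rm_sq {ε : ℝ} (hε : 0 < ε) {G : Matrix (Fin q) (Fin q) ℝ} (hG : G.PosSemidef) :
    Rm ε G * G * Rm ε G = 1 - ε • (Rm ε G * Rm ε G) := by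
  have hid : cfc (fun x : ℝ => x) G = G := cfc_id' ℝ G (ha := hG.isHermitian)
  have h1 : cfc (ff ε) G * cfc (fun x : ℝ => x) G * cfc (ff ε) G
      = 1 - ε • (cfc (ff ε) G * cfc (ff ε) G) := by
    have h0 : (1 : Matrix (Fin q) (Fin q) ℝ) = cfc (fun _ : ℝ => (1 : ℝ)) G :=
      (cfc_const_one ℝ G (ha := hG.isHermitian)).symm
    rw [mul_cfc, mul_cfc, mul_cfc, ← cfc_const_mul ε (fun x => ff ε x * ff ε x) G (cont_spec G _),
      h0, sub_cfc]
    refine cfc_congr fun x hx => ?_
    rw [hG.isHermitian.spectrum_real_eq_range_eigenvalues] at hx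
    obtain ⟨i, rfl⟩ := hx
    exact ff_sq hε (hG.eigenvalues_nonneg i)
  rwa [hid] at h1

theorem Rm_symm (ε : ℝ) (G : Matrix (Fin q) (Fin q) ℝ) : (Rm ε G)ᵀ = Rm ε G := by
  have := herm_cfc G (ff ε)
  rw [Matrix.IsHermitian, Matrix.conjTranspose_eq_transpose_of_trivial] at this
  exact this

/-- `X = w R W R wᵀ` -/
noncomputable def XX (ε : ℝ) (W : Matrix (Fin q) (Fin q) ℝ) (w : Matrix (Fin n) (Fin q) ℝ) :
    Matrix (Fin n) (Fin n) ℝ :=
  w * (Rm ε (wᵀ * w) * W * Rm ε (wᵀ * w)) * wᵀ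

theorem RWR_psd (ε : ℝ) {W G : Matrix (Fin q) (Fin q) ℝ} (hW : W.PosSemidef) :
    (Rm ε G * W * Rm ε G).PosSemidef := by
  have := hW.mul_mul_conjTranspose_same (Rm ε G)
  rwa [Matrix.conjTranspose_eq_transpose_of_trivial, Rm_symm] at this

end XDEF

open XDEF in
theorem xdef : S_XDEF := by
  intro n q ε hε
  refine ⟨XX ε, ?_, ?_, ?_, ?_, ?_, ?_⟩
  · intro i j
    have hR : ∀ c d : Fin q, Continuous fun p : Matrix (Fin q) (Fin q) ℝ × Matrix (Fin n) (Fin q) ℝ =>
        Rm ε (p.2ᵀ * p.2) c d := by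
      intro c d
      refine cont_cfc (ff_cont hε) (G := fun p : Matrix (Fin q) (Fin q) ℝ ×
        Matrix (Fin n) (Fin q) ℝ => p.2ᵀ * p.2) ?_ (fun p => gram p.2) c d
      exact (Continuous.matrix_transpose continuous_snd).matrix_mul continuous_snd
    have hR' : Continuous fun p : Matrix (Fin q) (Fin q) ℝ × Matrix (Fin n) (Fin q) ℝ =>
        Rm ε (p.2ᵀ * p.2) := continuous_matrix hR
    refine Continuous.matrix_elem ?_ i j
    unfold XX
    exact (continuous_snd.matrix_mul ((hR'.matrix_mul continuous_fst).matrix_mul hR')).matrix_mul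
      (Continuous.matrix_transpose continuous_snd)
  · intro W w hW
    have := (RWR_psd ε (G := wᵀ * w) hW).mul_mul_conjTranspose_same w
    rwa [Matrix.conjTranspose_eq_transpose_of_trivial] at this
  · intro s hs W w i j
    have e1 : (Matrix.of fun i c => s i * w i c) = Matrix.diagonal s * w := by
      ext i c
      rw [Matrix.diagonal_mul]
      rfl
    have e2 : (Matrix.diagonal s * w)ᵀ * (Matrix.diagonal s * w) = wᵀ * w := by
      rw [Matrix.transpose_mul, Matrix.diagonal_transpose, Matrix.mul_assoc,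
        ← Matrix.mul_assoc (Matrix.diagonal s), Matrix.diagonal_mul_diagonal]
      have : (fun i => s i * s i) = fun _ => (1 : ℝ) := by
        ext i
        rcases hs i with h | h <;> rw [h] <;> norm_num
      rw [this, Matrix.diagonal_one, Matrix.one_mul]
    rw [e1, XX, e2, Matrix.transpose_mul, Matrix.diagonal_transpose]
    have e3 : Matrix.diagonal s * w * (Rm ε (wᵀ * w) * W * Rm ε (wᵀ * w)) * (wᵀ * Matrix.diagonal s)
        = Matrix.diagonal s * (w * (Rm ε (wᵀ * w) * W * Rm ε (wᵀ * w)) * wᵀ) *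
          Matrix.diagonal s := by
      simp only [Matrix.mul_assoc]
    rw [e3, Matrix.mul_diagonal, Matrix.diagonal_mul, XX]
    ring
  · intro W w i h j
    rw [XX, Matrix.mul_assoc, Matrix.mul_apply]
    exact Finset.sum_eq_zero fun c _ => by rw [h c, zero_mul]
  · intro W w hW
    set G := wᵀ * w with hG
    have hGp : G.PosSemidef := gram w
    set R := Rm ε G with hR
    have hc : R * G = G * R := Rm_comm ε hGp
    have hsq : R * G * R = 1 - ε • (R * R) := Rm_sq hε hGp
    have e1 : wᵀ * XX ε W w * w = G * R * W * (R * G) := by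
      rw [XX, ← hG, ← hR]
      calc wᵀ * (w * (R * W * R) * wᵀ) * w = (wᵀ * w) * R * W * (R * (wᵀ * w)) := by
            simp only [Matrix.mul_assoc]
        _ = _ := by rw [← hG]
    have e2 : R * G * (G * R) = G - ε • 1 + (ε * ε) • (R * R) := by
      calc R * G * (G * R) = R * G * R * G := by rw [← hc]; simp only [Matrix.mul_assoc]
        _ = G - ε • (R * R * G) := by rw [hsq, Matrix.sub_mul, Matrix.one_mul, Matrix.smul_mul]
        _ = G - ε • (R * G * R) := by
            rw [Matrix.mul_assoc R R G, Matrix.mul_assoc R G R, hc]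
        _ = _ := by rw [hsq, smul_sub, smul_smul]; abel
    have e3 : (wᵀ * XX ε W w * w).trace = (W * (R * G * (G * R))).trace := by
      rw [e1]
      calc (G * R * W * (R * G)).trace = (G * R * (W * (R * G))).trace := by
            rw [Matrix.mul_assoc (G * R)]
        _ = (W * (R * G) * (G * R)).trace := Matrix.trace_mul_comm _ _
        _ = _ := by rw [Matrix.mul_assoc W]
    have e4 : 0 ≤ (W * (R * R)).trace := by
      have h := (RWR_psd ε (G := G) hW).trace_nonneg
      rw [← hR] at h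
      calc (0 : ℝ) ≤ (R * W * R).trace := h
        _ = (W * (R * R)).trace := by
            rw [Matrix.mul_assoc, Matrix.trace_mul_comm, Matrix.mul_assoc]
    rw [e3, e2, Matrix.mul_add, Matrix.mul_sub, Matrix.trace_add, Matrix.trace_sub,
      Matrix.mul_smul, Matrix.mul_smul, Matrix.trace_smul, Matrix.trace_smul, Matrix.mul_one,
      Matrix.mul_assoc W, ← hG, smul_eq_mul, smul_eq_mul]
    have := mul_nonneg (mul_nonneg hε.le hε.le) e4
    linarith
  · intro p W w hp hW
    set G := wᵀ * w with hG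
    have hGp : G.PosSemidef := gram w
    set R := Rm ε G with hR
    have hsq : R * G * R = 1 - ε • (R * R) := Rm_sq hε hGp
    have hRt : Rᵀ = R := Rm_symm ε G
    have e1 : toC (XX ε W w) = toC (w * R) * toC W * (toC (w * R))ᴴ := by
      rw [← toC_transpose, ← toC_mul, ← toC_mul, Matrix.transpose_mul, hRt, XX, ← hG, ← hR]
      congr 1
      simp only [Matrix.mul_assoc]
    have h1 : (1 - (toC (w * R))ᴴ * toC (w * R)).PosSemidef := by
      have e2 : 1 - (toC (w * R))ᴴ * toC (w * R) = toC (ε • (Rᵀ * R)) := by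
        rw [← toC_transpose, ← toC_mul, ← toC_one, ← toC_sub, hRt]
        congr 1
        rw [Matrix.transpose_mul, hRt]
        calc 1 - R * wᵀ * (w * R) = 1 - R * (wᵀ * w) * R := by simp only [Matrix.mul_assoc]
          _ = _ := by rw [← hG, hsq]; abel
      rw [e2]
      exact toC_psd ((gram R).smul hε.le)
    rw [e1]
    exact tp_contr hp (toC_psd hW) h1 (contr_symm h1)

end LTH
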