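import Vale.Agent.P371H.Defs
import Vale.Agent.P371.GLtup
import Vale.Agent.P371.GPow

/-!
# P371H, module XDEF, part A: monotonicity of `tr (A ^ p)`, square roots
-/

namespace LTH

open Matrix Set Filter MeasureTheory
open scoped ComplexOrder Topology ComplexConjugate

namespace XDEF

variable {m n q : ℕ}

/-- monotonicity of `tr (A ^ p)` -/
lemma tp_mono {A B : Matrix (Fin m) (Fin m) ℂ} (hA : A.PosSemidef) (hAB : (B - A).PosSemidef)
    {p : ℝ} (hp : 1 ≤ p) : LTG.tp p A ≤ LTG.tp p B := by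
  have hB : B.PosSemidef := by
    have := hA.add hAB
    rwa [add_sub_cancel] at this
  obtain ⟨P, h1, h2, hP⟩ := LTM.exists_unitary hA.isHermitian
  obtain ⟨Q, k1, k2, hQ⟩ := LTM.exists_unitary hB.isHermitian
  set ρ := hB.isHermitian.eigenvalues with hρ
  set α := hA.isHermitian.eigenvalues with hα
  have hρ0 : ∀ a, 0 ≤ ρ a := fun a => hB.eigenvalues_nonneg a
  have hα0 : ∀ a, 0 ≤ α a := fun a => hA.eigenvalues_nonneg a
  set V : Matrix (Fin m) (Fin m) ℂ := Pᴴ * Q with hV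
  have v1 : V * Vᴴ = 1 := by
    rw [hV, conjTranspose_mul, conjTranspose_conjTranspose]
    calc Pᴴ * Q * (Qᴴ * P) = Pᴴ * (Q * Qᴴ) * P := by simp only [Matrix.mul_assoc]
      _ = 1 := by rw [k2, Matrix.mul_one, h1]
  have v2 : Vᴴ * V = 1 := by
    rw [hV, conjTranspose_mul, conjTranspose_conjTranspose]
    calc Qᴴ * P * (Pᴴ * Q) = Qᴴ * (P * Pᴴ) * Q := by simp only [Matrix.mul_assoc]
      _ = 1 := by rw [h2, Matrix.mul_one, k1]
  have hBV : Pᴴ * B * P = V * diagonal (fun a => ((ρ a : ℝ) : ℂ)) * Vᴴ := by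
    rw [hV, conjTranspose_mul, conjTranspose_conjTranspose]
    conv_lhs => rw [hQ]
    simp only [Matrix.mul_assoc]
  have hAd : Pᴴ * A * P = diagonal (fun a => ((α a : ℝ) : ℂ)) := by
    conv_lhs => rw [hP]
    calc Pᴴ * (P * diagonal (fun a => ((α a : ℝ) : ℂ)) * Pᴴ) * P
        = (Pᴴ * P) * diagonal (fun a => ((α a : ℝ) : ℂ)) * (Pᴴ * P) := by
          simp only [Matrix.mul_assoc]
      _ = _ := by rw [h1, Matrix.one_mul, Matrix.mul_one]
  have hBi : ∀ i, (Pᴴ * B * P) i i = ((∑ a, ‖V i a‖ ^ 2 * ρ a : ℝ) : ℂ) := by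
    intro i
    rw [hBV, Matrix.mul_apply]
    simp only [Matrix.conjTranspose_apply, Matrix.mul_diagonal]
    push_cast
    refine Finset.sum_congr rfl fun a _ => ?_
    rw [RCLike.star_def]
    have := Complex.mul_conj (V i a)
    rw [Complex.normSq_eq_norm_sq] at this
    push_cast at this
    linear_combination (ρ a : ℂ) * this
  have hrow : ∀ i, ∑ a, ‖V i a‖ ^ 2 = 1 := by
    intro i
    have := congrFun (congrFun v1 i) i
    simp only [Matrix.mul_apply, Matrix.conjTranspose_apply, Matrix.one_apply_eq,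
      RCLike.star_def, Complex.mul_conj, Complex.normSq_eq_norm_sq] at this
    exact_mod_cast this
  have hcol : ∀ a, ∑ i, ‖V i a‖ ^ 2 = 1 := by
    intro a
    have := congrFun (congrFun v2 a) a
    simp only [Matrix.mul_apply, Matrix.conjTranspose_apply, Matrix.one_apply_eq,
      RCLike.star_def, mul_comm (conj _), Complex.mul_conj, Complex.normSq_eq_norm_sq] at this
    exact_mod_cast this
  have hle : ∀ i, α i ≤ ∑ a, ‖V i a‖ ^ 2 * ρ a := by
    intro i
    have h3 := (LTM.posSemidef_re_diag (hAB.conjTranspose_mul_mul_same P) i).1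
    rw [Matrix.mul_sub, Matrix.sub_mul, Matrix.sub_apply, hBi, hAd, Matrix.diagonal_apply_eq,
      Complex.sub_re, Complex.ofReal_re, Complex.ofReal_re] at h3
    linarith
  have hj : ∀ i, (∑ a, ‖V i a‖ ^ 2 * ρ a) ^ p ≤ ∑ a, ‖V i a‖ ^ 2 * ρ a ^ p := by
    intro i
    have := (convexOn_rpow hp).map_sum_le (t := Finset.univ) (w := fun a => ‖V i a‖ ^ 2)
      (p := ρ) (fun a _ => sq_nonneg _) (hrow i) (fun a _ => hρ0 a)
    simpa only [smul_eq_mul] using this
  rw [LTG.PowAux.tp_eq hA.isHermitian, LTG.PowAux.tp_eq hB.isHermitian]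
  calc ∑ i, α i ^ p ≤ ∑ i, (∑ a, ‖V i a‖ ^ 2 * ρ a) ^ p :=
        Finset.sum_le_sum fun i _ => Real.rpow_le_rpow (hα0 i) (hle i) (by linarith)
    _ ≤ ∑ i, ∑ a, ‖V i a‖ ^ 2 * ρ a ^ p := Finset.sum_le_sum fun i _ => hj i
    _ = ∑ a, ρ a ^ p := by
        rw [Finset.sum_comm]
        refine Finset.sum_congr rfl fun a _ => ?_
        rw [← Finset.sum_mul, hcol, one_mul]

/-- Orthogonal diagonalisation. -/
lemma exists_orth {A : Matrix (Fin m) (Fin m) ℝ} (hA : A.IsHermitian) :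
    ∃ P : Matrix (Fin m) (Fin m) ℝ, Pᴴ * P = 1 ∧ P * Pᴴ = 1 ∧
      A = P * diagonal (fun a => hA.eigenvalues a) * Pᴴ := by
  refine ⟨(hA.eigenvectorUnitary : Matrix (Fin m) (Fin m) ℝ),
    Unitary.coe_star_mul_self hA.eigenvectorUnitary,
    Unitary.coe_mul_star_self hA.eigenvectorUnitary, ?_⟩
  have := hA.spectral_theorem
  rw [Unitary.conjStarAlgAut_apply] at this
  exact this

/-- positive square roots -/
lemma exists_sqrt {G : Matrix (Fin q) (Fin q) ℝ} (hG : G.PosSemidef) {ε : ℝ} (hε : 0 ≤ ε) :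
    ∃ S : Matrix (Fin q) (Fin q) ℝ, (S - √ε • (1 : Matrix (Fin q) (Fin q) ℝ)).PosSemidef ∧
      S * S = G + ε • 1 := by
  obtain ⟨P, h1, h2, h3⟩ := exists_orth hG.isHermitian
  set g := hG.isHermitian.eigenvalues with hg
  have g0 : ∀ a, 0 ≤ g a := fun a => hG.eigenvalues_nonneg a
  refine ⟨P * diagonal (fun a => √(g a + ε)) * Pᴴ, ?_, ?_⟩
  · have e : P * diagonal (fun a => √(g a + ε)) * Pᴴ - √ε • (1 : Matrix (Fin q) (Fin q) ℝ)
        = P * diagonal (fun a => √(g a + ε) - √ε) * Pᴴ := by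
      have e1 : (√ε • (1 : Matrix (Fin q) (Fin q) ℝ)) = P * (√ε • 1) * Pᴴ := by
        rw [Matrix.mul_smul, Matrix.smul_mul, Matrix.mul_one, h2]
      rw [e1, ← Matrix.sub_mul, ← Matrix.mul_sub]
      congr 2
      ext i j
      by_cases hij : i = j
      · subst hij; simp
      · simp [hij]
    rw [e]
    refine PosSemidef.mul_mul_conjTranspose_same (PosSemidef.diagonal fun a => ?_) P
    show (0 : ℝ) ≤ √(g a + ε) - √ε
    have := Real.sqrt_le_sqrt (show ε ≤ g a + ε by linarith [g0 a])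
    linarith
  · calc P * diagonal (fun a => √(g a + ε)) * Pᴴ * (P * diagonal (fun a => √(g a + ε)) * Pᴴ)
        = P * diagonal (fun a => √(g a + ε)) * (Pᴴ * P) * diagonal (fun a => √(g a + ε)) * Pᴴ := by
          simp only [Matrix.mul_assoc]
      _ = P * (diagonal (fun a => √(g a + ε)) * diagonal (fun a => √(g a + ε))) * Pᴴ := by
          rw [h1]; simp only [Matrix.mul_one, Matrix.mul_assoc]
      _ = P * diagonal (fun a => g a) * Pᴴ + ε • 1 := by
          have e1 : (ε • (1 : Matrix (Fin q) (Fin q) ℝ)) = P * (ε • 1) * Pᴴ := by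
            rw [Matrix.mul_smul, Matrix.smul_mul, Matrix.mul_one, h2]
          rw [e1, ← Matrix.add_mul, ← Matrix.mul_add, diagonal_mul_diagonal]
          congr 2
          ext i j
          by_cases hij : i = j
          · subst hij
            simp [Real.mul_self_sqrt (add_nonneg (g0 i) hε)]
          · simp [hij]
      _ = G + ε • 1 := by rw [← h3]

lemma herm_of_sub {S : Matrix (Fin q) (Fin q) ℝ} {c : ℝ}
    (h : (S - c • (1 : Matrix (Fin q) (Fin q) ℝ)).PosSemidef) : Sᵀ = S := by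
  have h1 := h.isHermitian
  rw [Matrix.IsHermitian, conjTranspose_eq_transpose_of_trivial, transpose_sub,
    transpose_smul, transpose_one] at h1
  exact sub_left_injective h1

lemma tr_sq {D : Matrix (Fin q) (Fin q) ℝ} (hD : Dᵀ = D) :
    (D * D).trace = ∑ i, ∑ j, D i j ^ 2 := by
  simp only [Matrix.trace, Matrix.diag, Matrix.mul_apply]
  refine Finset.sum_congr rfl fun i _ => Finset.sum_congr rfl fun j _ => ?_
  have : D j i = D i j := congrFun (congrFun hD i) j
  rw [this, sq]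

lemma tr_conj_ge {S D : Matrix (Fin q) (Fin q) ℝ} {c : ℝ} (hD : Dᵀ = D)
    (h : (S - c • (1 : Matrix (Fin q) (Fin q) ℝ)).PosSemidef) :
    c * (D * D).trace ≤ (D * S * D).trace := by
  have h1 := h.mul_mul_conjTranspose_same D
  rw [conjTranspose_eq_transpose_of_trivial, hD] at h1
  have h2 := h1.trace_nonneg
  rw [Matrix.mul_sub, Matrix.sub_mul, Matrix.trace_sub, Matrix.mul_smul, Matrix.smul_mul,
    Matrix.mul_one, Matrix.trace_smul, smul_eq_mul] at h2
  linarith

/-- the square root is Lipschitz -/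
lemma lip {S T : Matrix (Fin q) (Fin q) ℝ} {c : ℝ} (hc : 0 < c)
    (hS : (S - c • (1 : Matrix (Fin q) (Fin q) ℝ)).PosSemidef)
    (hT : (T - c • (1 : Matrix (Fin q) (Fin q) ℝ)).PosSemidef) :
    ∑ i, ∑ j, (S i j - T i j) ^ 2
      ≤ 1 / (4 * c ^ 2) * ∑ i, ∑ j, ((S * S) i j - (T * T) i j) ^ 2 := by
  set D := S - T with hDd
  have hD : Dᵀ = D := by
    rw [hDd, transpose_sub, herm_of_sub hS, herm_of_sub hT]
  set E := S * S - T * T with hE
  have hEe : E = S * D + D * T := by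
    rw [hE, hDd, Matrix.mul_sub, Matrix.sub_mul]; abel
  have h1 : (D * E).trace = (D * S * D).trace + (D * T * D).trace := by
    rw [hEe, Matrix.mul_add, Matrix.trace_add, ← Matrix.mul_assoc, ← Matrix.mul_assoc]
    congr 1
    rw [Matrix.trace_mul_comm (D * D) T, ← Matrix.mul_assoc, Matrix.trace_mul_comm (T * D) D,
      ← Matrix.mul_assoc]
  have h2 := tr_conj_ge hD hS
  have h3 := tr_conj_ge hD hT
  have h4 : (D * E).trace ≤ c * (∑ i, ∑ j, D i j ^ 2) + 1 / (4 * c) * ∑ i, ∑ j, E i j ^ 2 := by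
    simp only [Matrix.trace, Matrix.diag, Matrix.mul_apply]
    rw [Finset.sum_comm (f := fun i j => E i j ^ 2), Finset.mul_sum, Finset.mul_sum,
      ← Finset.sum_add_distrib]
    refine Finset.sum_le_sum fun i _ => ?_
    rw [Finset.mul_sum, Finset.mul_sum, ← Finset.sum_add_distrib]
    refine Finset.sum_le_sum fun j _ => ?_
    have h5 : 0 ≤ (2 * c * D i j - E j i) ^ 2 / (4 * c) := by positivity
    have h6 : (2 * c * D i j - E j i) ^ 2 / (4 * c)
        = c * D i j ^ 2 + 1 / (4 * c) * E j i ^ 2 - D i j * E j i := by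
      field_simp
      ring
    linarith
  rw [h1] at h4
  rw [tr_sq hD] at h2 h3
  have h7 : c * ∑ i, ∑ j, D i j ^ 2 ≤ 1 / (4 * c) * ∑ i, ∑ j, E i j ^ 2 := by linarith
  have h8 : ∑ i, ∑ j, D i j ^ 2 ≤ 1 / c * (1 / (4 * c) * ∑ i, ∑ j, E i j ^ 2) := by
    rw [one_div, ← div_eq_inv_mul, le_div_iff₀ hc]
    linarith
  have h9 : 1 / c * (1 / (4 * c) * ∑ i, ∑ j, E i j ^ 2)
      = 1 / (4 * c ^ 2) * ∑ i, ∑ j, E i j ^ 2 := by
    field_simp
  rw [h9] at h8
  exact h8

end XDEF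

end LTH
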